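import Crest.Agent.Lead.Prob

set_option autoImplicit false

namespace Crest.Agent.Lead.Tal

open Finset Crest.Agent.Lead

variable {α : Type} [Fintype α] [DecidableEq α]

noncomputable def mu (g : Finset α → ℝ) (T : Finset α) (x : α) : ℝ :=
  ∑ S ∈ T.powerset, if x ∈ S then g S / S.card else 0

noncomputable def eps (j : ℕ) : ℝ := 1 / (4 * 2 ^ j)

noncomputable def aa (j : ℕ) : ℝ := 256 * 4 ^ j

theorem eps_pos (j : ℕ) : 0 < eps j := by unfold eps; positivity
theorem aa_pos (j : ℕ) : 0 < aa j := by unfold aa; positivity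

open Classical in
noncomputable def lev (g : Finset α → ℝ) (T : Finset α) (t : ℝ) : Finset α :=
  T.filter (fun x => t ≤ mu g T x)

def Cond (g : Finset α → ℝ) {s : ℕ} (σ : α → Fin (s+1)) (T : Finset α) (M : ℕ → ℕ) : Prop :=
  ∀ j : ℕ, ∀ t : ℝ, (((lev g T t).filter (fun x => j < (σ x : ℕ))).card : ℝ) ≤
    max (2 * eps j * (lev g T t).card - M j) (eps j * (lev g T t).card)

def Mv {ι : Type} [Fintype ι] {s : ℕ} (σ τ : ι → Fin (s+1)) (j : ℕ) : ℕ :=
  (Finset.univ.filter (fun x => (σ x : ℕ) ≤ j ∧ j < (τ x : ℕ))).card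

open Classical in
noncomputable def Wit (F : Finset (Finset α)) (g : Finset α → ℝ) {s : ℕ} (σ : α → Fin (s+1))
    (M : ℕ → ℕ) : Finset α :=
  if h : ∃ T ∈ F, Cond g σ T M then h.choose else ∅

open Classical in
noncomputable def Pre (g : Finset α → ℝ) (T : Finset α) (β : ℝ) : Finset α :=
  T.filter (fun x => ((lev g T (mu g T x)).card : ℝ) ≤ β)

omit [Fintype α] in
theorem Pre_card (g : Finset α → ℝ) (T : Finset α) (β : ℝ) (hβ : 0 ≤ β) :
    ((Pre g T β).card : ℝ) ≤ β := by
  rcases (Pre g T β).eq_empty_or_nonempty with h | h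
  · simp [h, hβ]
  · obtain ⟨x, hx, hmin⟩ := Finset.exists_min_image _ (mu g T) h
    have hx' := hx
    simp only [Pre, Finset.mem_filter] at hx'
    refine le_trans ?_ hx'.2
    have : Pre g T β ⊆ lev g T (mu g T x) := by
      intro y hy
      have := hmin y hy
      simp only [Pre, Finset.mem_filter] at hy
      simp only [lev, Finset.mem_filter]
      exact ⟨hy.1, this⟩
    exact_mod_cast Finset.card_le_card this

omit [Fintype α] in
theorem Pre_mono (g : Finset α → ℝ) (T : Finset α) {β γ : ℝ} (h : β ≤ γ) :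
    Pre g T β ⊆ Pre g T γ := by
  intro x hx
  simp only [Pre, Finset.mem_filter] at hx ⊢
  exact ⟨hx.1, hx.2.trans h⟩

/-- the minimal fragment -/
theorem frag (F : Finset (Finset α)) (g : Finset α → ℝ) {s : ℕ} (τ : α → Fin (s+1))
    (T : Finset α) (hT : T ∈ F) :
    ∃ σ : α → Fin (s+1), (∀ x, σ x ≤ τ x) ∧ (∀ x, x ∉ T → σ x = τ x) ∧
      (∃ T' ∈ F, Cond g σ T' (Mv σ τ)) ∧
      ∀ x, σ x ≠ τ x → x ∈ Pre g (Wit F g σ (Mv σ τ)) (Mv σ τ (σ x) / eps (σ x)) := by
  classical
  let Adm : (α → Fin (s+1)) → Prop := fun σ => (∀ x, σ x ≤ τ x) ∧ (∀ x, x ∉ T → σ x = τ x) ∧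
      (∃ T' ∈ F, Cond g σ T' (Mv σ τ))
  have hne : (Finset.univ.filter Adm).Nonempty := by
    refine ⟨fun x => if x ∈ T then 0 else τ x, ?_⟩
    simp only [Finset.mem_filter, Finset.mem_univ, true_and, Adm]
    refine ⟨fun x => ?_, fun x hx => by simp [hx], T, hT, fun j t => ?_⟩
    · split_ifs <;> simp
    · have : (lev g T t).filter (fun x => j < ((if x ∈ T then 0 else τ x : Fin (s+1)) : ℕ)) = ∅ := by
        apply Finset.filter_eq_empty_iff.mpr
        intro x hx
        simp only [lev, Finset.mem_filter] at hx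
        simp [hx.1]
      rw [this]
      simp only [Finset.card_empty, Nat.cast_zero]
      exact le_max_of_le_right (mul_nonneg (eps_pos j).le (Nat.cast_nonneg _))
  obtain ⟨σ, hσ, hmax⟩ := Finset.exists_max_image _ (fun σ : α → Fin (s+1) => ∑ x, (σ x : ℕ)) hne
  simp only [Finset.mem_filter, Finset.mem_univ, true_and] at hσ hmax
  obtain ⟨h1, h2, h3⟩ := hσ
  refine ⟨σ, h1, h2, h3, fun x hx => ?_⟩
  have hW : Wit F g σ (Mv σ τ) ∈ F ∧ Cond g σ (Wit F g σ (Mv σ τ)) (Mv σ τ) := by
    unfold Wit; rw [dif_pos h3]; exact h3.choose_spec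
  set W := Wit F g σ (Mv σ τ) with hWdef
  by_contra hcon
  have hlt : (σ x : ℕ) < τ x := lt_of_le_of_ne (h1 x) (fun h => hx (Fin.ext h))
  let y : Fin (s+1) := ⟨σ x + 1, by have := (τ x).2; omega⟩
  let σ' := Function.update σ x y
  have hσ'x : (σ' x : ℕ) = σ x + 1 := by simp [σ', y]
  have hσ'z : ∀ z, z ≠ x → σ' z = σ z := fun z hz => by simp [σ', hz]
  have hM1 : ∀ j : ℕ, j ≠ σ x → Mv σ' τ j = Mv σ τ j := by
    intro j hj
    unfold Mv
    congr 1
    apply Finset.filter_congr
    intro z _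
    by_cases hz : z = x
    · subst hz; rw [hσ'x]; omega
    · rw [hσ'z z hz]
  have hM2 : Mv σ' τ (σ x) + 1 = Mv σ τ (σ x) := by
    unfold Mv
    have : Finset.univ.filter (fun z => (σ z : ℕ) ≤ σ x ∧ (σ x : ℕ) < τ z) =
        insert x (Finset.univ.filter (fun z => (σ' z : ℕ) ≤ σ x ∧ (σ x : ℕ) < τ z)) := by
      ext z
      by_cases hz : z = x
      · subst hz
        simp only [Finset.mem_filter, Finset.mem_univ, true_and, Finset.mem_insert, true_or,
          iff_true]
        omega
      · simp [hz, hσ'z z hz]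
    rw [this, Finset.card_insert_of_notMem]
    simp only [Finset.mem_filter, Finset.mem_univ, true_and, hσ'x]
    omega
  have hadm : Adm σ' := by
    refine ⟨fun z => ?_, fun z hz => ?_, W, hW.1, fun j t => ?_⟩
    · by_cases hz : z = x
      · subst hz; rw [Fin.le_def, hσ'x]; omega
      · rw [hσ'z z hz]; exact h1 z
    · have : z ≠ x := fun h => hx (h ▸ h2 z hz)
      rw [hσ'z z this]; exact h2 z hz
    · have hc := hW.2 j t
      by_cases hj : j = σ x
      · subst hj
        by_cases hxl : x ∈ lev g W t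
        · have e1 : (lev g W t).filter (fun z => (σ x : ℕ) < σ' z) ⊆
              insert x ((lev g W t).filter (fun z => (σ x : ℕ) < σ z)) := by
            intro z hz
            by_cases hzx : z = x
            · simp [hzx]
            · rw [Finset.mem_filter, hσ'z z hzx] at hz
              exact Finset.mem_insert_of_mem (Finset.mem_filter.mpr hz)
          have e2 : (((lev g W t).filter (fun z => (σ x : ℕ) < σ' z)).card : ℝ) ≤
              ((lev g W t).filter (fun z => (σ x : ℕ) < σ z)).card + 1 := by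
            exact_mod_cast (Finset.card_le_card e1).trans (Finset.card_insert_le _ _)
          have hxW : x ∈ W ∧ t ≤ mu g W x := by simpa [lev] using hxl
          have e3 : Mv σ τ (σ x) / eps (σ x) < (lev g W (mu g W x)).card := by
            by_contra h
            apply hcon
            simp only [Pre, Finset.mem_filter]
            exact ⟨hxW.1, not_lt.mp h⟩
          have e4 : ((lev g W (mu g W x)).card : ℝ) ≤ (lev g W t).card := by
            have : lev g W (mu g W x) ⊆ lev g W t := by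
              intro z hz
              simp only [lev, Finset.mem_filter] at hz ⊢
              exact ⟨hz.1, hxW.2.trans hz.2⟩
            exact_mod_cast Finset.card_le_card this
          have e5 : (Mv σ τ (σ x) : ℝ) < eps (σ x) * (lev g W t).card := by
            have := e3.trans_le e4
            rwa [div_lt_iff₀ (eps_pos _), mul_comm] at this
          have e6 : (Mv σ' τ (σ x) : ℝ) + 1 = Mv σ τ (σ x) := by exact_mod_cast hM2
          rw [max_eq_left (by linarith)] at hc
          exact le_max_of_le_left (by linarith)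
        · have e1 : (lev g W t).filter (fun z => (σ x : ℕ) < σ' z) =
              (lev g W t).filter (fun z => (σ x : ℕ) < σ z) := by
            apply Finset.filter_congr
            intro z hz
            rw [hσ'z z (fun h => hxl (h ▸ hz))]
          have e6 : (Mv σ' τ (σ x) : ℝ) + 1 = Mv σ τ (σ x) := by exact_mod_cast hM2
          rw [e1]
          exact hc.trans (max_le_max (by linarith) le_rfl)
      · have e1 : (lev g W t).filter (fun z => j < σ' z) =
              (lev g W t).filter (fun z => j < σ z) := by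
          apply Finset.filter_congr
          intro z _
          by_cases hz : z = x
          · subst hz; rw [hσ'x]; omega
          · rw [hσ'z z hz]
        rw [e1, hM1 j hj]; exact hc
  have := hmax σ' hadm
  have e : ∑ z, (σ z : ℕ) < ∑ z, (σ' z : ℕ) := by
    apply Finset.sum_lt_sum
    · intro z _
      by_cases hz : z = x
      · subst hz; omega
      · rw [hσ'z z hz]
    · exact ⟨x, Finset.mem_univ _, by omega⟩
  omega

theorem sum_le_of_inj {A B : Type*} [Fintype B] (s : Finset A) (i : A → B)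
    (hi : Set.InjOn i s) (f : A → ℝ) (h : B → ℝ) (hh : ∀ b, 0 ≤ h b)
    (hf : ∀ a ∈ s, f a ≤ h (i a)) : ∑ a ∈ s, f a ≤ ∑ b, h b := by
  classical
  calc ∑ a ∈ s, f a ≤ ∑ a ∈ s, h (i a) := Finset.sum_le_sum hf
    _ = ∑ b ∈ s.image i, h b := (Finset.sum_image hi).symm
    _ ≤ ∑ b, h b := Finset.sum_le_sum_of_subset_of_nonneg (Finset.subset_univ _) fun b _ _ => hh b

def Enc (F : Finset (Finset α)) (g : Finset α → ℝ) {s : ℕ} (τ : α → Fin (s+1))
    (U : Finset α) : Prop :=
  ∃ σ : α → Fin (s+1), (∀ x, σ x ≤ τ x) ∧ (∀ x, x ∈ U ↔ σ x ≠ τ x) ∧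
      ∀ x, σ x ≠ τ x → x ∈ Pre g (Wit F g σ (Mv σ τ)) (Mv σ τ (σ x) / eps (σ x))

theorem sum_inv_eps_aa (s : ℕ) : ∑ i : Fin (s+1), 1 / (eps i * aa i) ≤ 1 / 32 := by
  have h1 : ∀ i : ℕ, 1 / (eps i * aa i) = (1/64) * (1/2 : ℝ) ^ i := by
    intro i
    unfold eps aa
    have : (4:ℝ) ^ i = 2 ^ i * 2 ^ i := by rw [← mul_pow]; norm_num
    rw [this, one_div_pow]
    field_simp
    norm_num
  rw [Fin.sum_univ_eq_sum_range (fun i => 1 / (eps i * aa i))]
  simp_rw [h1]
  rw [← Finset.mul_sum]
  have := sum_geometric_two_le (s+1)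
  linarith

open Classical in
theorem encode_seq (F : Finset (Finset α)) (g : Finset α → ℝ) {s : ℕ} (p : ℝ)
    (π : Fin (s+1) → ℝ) (hπ0 : ∀ j, 0 ≤ π j) (hπ1 : ∑ j, π j = 1)
    (hπ : ∀ j : Fin (s+1), (j : ℕ) < s → π j = aa j * p) (M : ℕ) :
    ∑ z ∈ (Finset.univ : Finset ((α → Fin (s+1)) × (Fin M → α))).filter
        (fun z => Function.Injective z.2 ∧ Enc F g z.1 (Finset.univ.image z.2)),
      wt π z.1 * p ^ M ≤ ((M : ℝ) / 32) ^ M := by
  let sg : (α → Fin (s+1)) × (Fin M → α) → (α → Fin (s+1)) := fun z =>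
    if h : Enc F g z.1 (Finset.univ.image z.2) then h.choose else z.1
  let i : (α → Fin (s+1)) × (Fin M → α) →
      (α → Fin (s+1)) × (Fin M → Fin (s+1)) × (Fin M → Fin (s+1)) × (Fin M → α) :=
    fun z => (sg z, z.1 ∘ z.2, sg z ∘ z.2, z.2)
  let h : (α → Fin (s+1)) × (Fin M → Fin (s+1)) × (Fin M → Fin (s+1)) × (Fin M → α) → ℝ :=
    fun w => wt π w.1 * (wt π w.2.1 * ∏ k, (1 / aa (w.2.2.1 k) *
      if w.2.2.2 k ∈ Pre g (Wit F g w.1 (Mv w.2.2.1 w.2.1)) (M / eps (w.2.2.1 k)) then 1 else 0))
  have hsg : ∀ z, Enc F g z.1 (Finset.univ.image z.2) → (∀ x, sg z x ≤ z.1 x) ∧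
      (∀ x, x ∈ Finset.univ.image z.2 ↔ sg z x ≠ z.1 x) ∧
      ∀ x, sg z x ≠ z.1 x → x ∈ Pre g (Wit F g (sg z) (Mv (sg z) z.1))
        (Mv (sg z) z.1 (sg z x) / eps (sg z x)) := by
    intro z hz
    have : sg z = hz.choose := dif_pos hz
    rw [this]; exact hz.choose_spec
  refine (sum_le_of_inj _ i ?_ _ h ?_ ?_).trans ?_
  · intro z hz z' hz' e
    simp only [Finset.coe_filter, Finset.mem_univ, true_and, Set.mem_setOf_eq] at hz hz'
    simp only [i, Prod.mk.injEq] at e
    obtain ⟨e1, e2, -, e4⟩ := e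
    refine Prod.ext ?_ e4
    funext x
    by_cases hx : x ∈ Finset.univ.image z.2
    · obtain ⟨k, -, rfl⟩ := Finset.mem_image.mp hx
      have := congrFun e2 k
      simp only [Function.comp] at this
      rw [this, e4]
    · have a1 := (hsg z hz.2).2.1 x
      have a2 := (hsg z' hz'.2).2.1 x
      rw [← e4] at a2
      have b1 : sg z x = z.1 x := by by_contra hh; exact hx (a1.mpr hh)
      have b2 : sg z' x = z'.1 x := by by_contra hh; exact hx (a2.mpr hh)
      rw [← b1, ← b2, e1]
  · intro w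
    refine mul_nonneg (wt_nonneg hπ0 _) (mul_nonneg (wt_nonneg hπ0 _)
      (Finset.prod_nonneg fun k _ => mul_nonneg (one_div_pos.mpr (aa_pos _)).le ?_))
    split_ifs <;> norm_num
  · rintro ⟨τ, u⟩ hz
    simp only [Finset.mem_filter, Finset.mem_univ, true_and] at hz
    obtain ⟨hu, hz⟩ := hz
    obtain ⟨a1, a2, a3⟩ := hsg (τ, u) hz
    simp only [h, i] at a1 a2 a3 ⊢
    set σ := sg (τ, u) with hσ
    have hM : Mv (σ ∘ u) (τ ∘ u) = Mv σ τ := by
      funext j
      unfold Mv
      rw [← Finset.card_image_of_injective _ hu]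
      congr 1
      ext x
      simp only [Finset.mem_image, Finset.mem_filter, Finset.mem_univ, true_and, Function.comp]
      constructor
      · rintro ⟨k, hk, rfl⟩; exact hk
      · intro hx
        have : x ∈ Finset.univ.image u := (a2 x).mpr (fun e => by rw [e] at hx; omega)
        obtain ⟨k, -, rfl⟩ := Finset.mem_image.mp this
        exact ⟨k, hx, rfl⟩
    have hMle : ∀ j, Mv σ τ j ≤ M := by
      intro j; rw [← hM]; unfold Mv
      exact (Finset.card_filter_le _ _).trans (by simp)
    have hne : ∀ k, σ (u k) ≠ τ (u k) := fun k =>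
      (a2 _).mp (Finset.mem_image_of_mem _ (Finset.mem_univ k))
    have hin : ∀ k, u k ∈ Pre g (Wit F g σ (Mv (σ ∘ u) (τ ∘ u))) (M / eps ((σ ∘ u) k)) := by
      intro k
      rw [hM]
      refine Pre_mono g _ ?_ (a3 _ (hne k))
      exact div_le_div_of_nonneg_right (by exact_mod_cast hMle _) (eps_pos _).le
    simp only [hin, if_true, mul_one]
    have split : ∀ f : α → Fin (s+1), wt π f =
        (∏ x ∈ (Finset.univ.image u)ᶜ, π (f x)) * ∏ k, π (f (u k)) := by
      intro f
      unfold wt
      rw [← Finset.prod_compl_mul_prod (Finset.univ.image u), Finset.prod_image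
        (fun a _ b _ e => hu e)]
    have e1 : ∏ x ∈ (Finset.univ.image u)ᶜ, π (σ x) = ∏ x ∈ (Finset.univ.image u)ᶜ, π (τ x) := by
      refine Finset.prod_congr rfl fun x hx => ?_
      have : σ x = τ x := by
        by_contra hh; exact (Finset.mem_compl.mp hx) ((a2 x).mpr hh)
      rw [this]
    have e2 : (∏ k, π (σ (u k))) * ∏ k, 1 / aa ((σ ∘ u) k) = p ^ M := by
      rw [← Finset.prod_mul_distrib]
      rw [Finset.prod_congr rfl (g := fun _ => p)]
      · simp
      · intro k _
        have l1 : (σ (u k) : ℕ) < τ (u k) := lt_of_le_of_ne (a1 _) (fun e => hne k (Fin.ext e))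
        have l2 := (τ (u k)).2
        rw [hπ _ (by omega)]
        have := aa_pos (σ (u k))
        simp only [Function.comp]
        field_simp
    rw [split τ, split σ, e1, ← e2]
    have : wt π (τ ∘ u) = ∏ k, π (τ (u k)) := rfl
    rw [this]
    apply le_of_eq; ring
  · simp only [h, Fintype.sum_prod_type]
    have inner : ∀ (σ : α → Fin (s+1)) (ρ : Fin M → Fin (s+1)),
        ∑ κ : Fin M → Fin (s+1), ∑ u : Fin M → α, ∏ k, (1 / aa (κ k) *
          if u k ∈ Pre g (Wit F g σ (Mv κ ρ)) (M / eps (κ k)) then (1:ℝ) else 0) ≤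
          ((M : ℝ) / 32) ^ M := by
      intro σ ρ
      calc _ ≤ ∑ κ : Fin M → Fin (s+1), ∏ k, (M * (1 / (eps (κ k) * aa (κ k)))) := by
            refine Finset.sum_le_sum fun κ _ => ?_
            rw [sum_pi_prod (fun k x => 1 / aa (κ k) *
              if x ∈ Pre g (Wit F g σ (Mv κ ρ)) (M / eps (κ k)) then (1:ℝ) else 0)]
            refine Finset.prod_le_prod (fun k _ => Finset.sum_nonneg fun x _ =>
              mul_nonneg (one_div_pos.mpr (aa_pos _)).le (by split_ifs <;> norm_num)) fun k _ => ?_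
            rw [← Finset.mul_sum]
            simp only [Finset.sum_boole, Finset.filter_mem_eq_inter, Finset.univ_inter]
            have := Pre_card g (Wit F g σ (Mv κ ρ)) (M / eps (κ k))
              (div_nonneg (Nat.cast_nonneg _) (eps_pos _).le)
            refine (mul_le_mul_of_nonneg_left this (one_div_pos.mpr (aa_pos _)).le).trans ?_
            have := aa_pos (κ k); have := eps_pos (κ k)
            apply le_of_eq; field_simp
        _ = (∑ i : Fin (s+1), M * (1 / (eps i * aa i))) ^ M := by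
            rw [sum_pi_prod (fun _ (i : Fin (s+1)) => M * (1 / (eps i * aa i)))]; simp
        _ ≤ ((M : ℝ) / 32) ^ M := by
            apply pow_le_pow_left₀
            · exact Finset.sum_nonneg fun i _ => mul_nonneg (Nat.cast_nonneg _)
                (one_div_pos.mpr (mul_pos (eps_pos _) (aa_pos _))).le
            · rw [← Finset.mul_sum]
              have := mul_le_mul_of_nonneg_left (sum_inv_eps_aa s) (Nat.cast_nonneg (α := ℝ) M)
              linarith
    calc _ = ∑ σ : α → Fin (s+1), wt π σ * ∑ ρ : Fin M → Fin (s+1), wt π ρ *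
          ∑ κ : Fin M → Fin (s+1), ∑ u : Fin M → α, ∏ k, (1 / aa (κ k) *
          if u k ∈ Pre g (Wit F g σ (Mv κ ρ)) (M / eps (κ k)) then (1:ℝ) else 0) := by
          simp only [Finset.mul_sum]
      _ ≤ ∑ σ : α → Fin (s+1), wt π σ * ∑ ρ : Fin M → Fin (s+1), wt π ρ * ((M : ℝ) / 32) ^ M := by
          refine Finset.sum_le_sum fun σ _ => mul_le_mul_of_nonneg_left
            (Finset.sum_le_sum fun ρ _ => mul_le_mul_of_nonneg_left (inner σ ρ)
              (wt_nonneg hπ0 _)) (wt_nonneg hπ0 _)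
      _ = ((M : ℝ) / 32) ^ M := by
          simp only [← Finset.sum_mul, sum_wt hπ1, one_mul]

open Classical in
theorem encode_set (F : Finset (Finset α)) (g : Finset α → ℝ) {s : ℕ} (p : ℝ) (hp : 0 ≤ p)
    (π : Fin (s+1) → ℝ) (hπ0 : ∀ j, 0 ≤ π j) (hπ1 : ∑ j, π j = 1)
    (hπ : ∀ j : Fin (s+1), (j : ℕ) < s → π j = aa j * p) (M : ℕ) :
    ∑ τ : α → Fin (s+1), ∑ U ∈ (Finset.univ : Finset (Finset α)).filter
        (fun U => U.card = M ∧ Enc F g τ U), wt π τ * p ^ M ≤ (3 / 32 : ℝ) ^ M := by
  have h1 := encode_seq F g p π hπ0 hπ1 hπ M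
  have h2 : ∀ τ : α → Fin (s+1), M.factorial * ((Finset.univ : Finset (Finset α)).filter
        (fun U => U.card = M ∧ Enc F g τ U)).card ≤
      ((Finset.univ : Finset (Fin M → α)).filter
        (fun u => Function.Injective u ∧ Enc F g τ (Finset.univ.image u))).card := by
    intro τ
    apply Finset.mul_card_image_le_card_of_maps_to (f := fun u : Fin M → α => Finset.univ.image u)
    · intro u hu
      simp only [Finset.mem_filter, Finset.mem_univ, true_and] at hu ⊢
      exact ⟨by rw [Finset.card_image_of_injective _ hu.1]; simp, hu.2⟩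
    · intro U hU
      simp only [Finset.mem_filter, Finset.mem_univ, true_and] at hU
      let e : Fin M ≃ U := (Finset.equivFinOfCardEq hU.1).symm
      have : M.factorial = (Finset.univ : Finset (Equiv.Perm (Fin M))).card := by
        simp [Fintype.card_perm]
      rw [this]
      apply Finset.card_le_card_of_injOn (fun σ k => (e (σ k) : α))
      · intro σ _
        have him : Finset.univ.image (fun k => (e (σ k) : α)) = U := by
          ext x
          simp only [Finset.mem_image, Finset.mem_univ, true_and]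
          constructor
          · rintro ⟨k, rfl⟩; exact (e (σ k)).2
          · intro hx; exact ⟨σ.symm (e.symm ⟨x, hx⟩), by simp⟩
        simp only [Finset.coe_filter, Finset.mem_filter, Finset.mem_univ, true_and,
          Set.mem_setOf_eq, him, and_true]
        refine ⟨fun a b h => ?_, hU.2⟩
        exact σ.injective (e.injective (Subtype.ext h))
      · intro σ _ σ' _ h
        ext k
        have := congrFun h k
        rw [e.injective (Subtype.ext this)]
  have h3 : (M.factorial : ℝ) * ∑ τ : α → Fin (s+1), ∑ U ∈ (Finset.univ : Finset (Finset α)).filter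
        (fun U => U.card = M ∧ Enc F g τ U), wt π τ * p ^ M ≤ ((M : ℝ) / 32) ^ M := by
    refine le_trans ?_ h1
    rw [Finset.sum_filter, Fintype.sum_prod_type, Finset.mul_sum]
    refine Finset.sum_le_sum fun τ _ => ?_
    rw [← Finset.sum_filter]
    simp only [Finset.sum_const, nsmul_eq_mul]
    rw [← mul_assoc]
    refine mul_le_mul_of_nonneg_right ?_ (mul_nonneg (wt_nonneg hπ0 _) (pow_nonneg hp _))
    exact_mod_cast h2 τ
  have h4 : (0:ℝ) < M.factorial := by exact_mod_cast M.factorial_pos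
  rw [mul_comm, ← le_div_iff₀ h4] at h3
  refine h3.trans ?_
  have h5 := Real.pow_div_factorial_le_exp (x := (M : ℝ)) (Nat.cast_nonneg _) M
  have h6 : Real.exp M ≤ 3 ^ M := by
    rw [← Real.exp_one_pow]
    exact pow_le_pow_left₀ (Real.exp_pos _).le (by have := Real.exp_one_lt_d9; linarith) _
  calc ((M : ℝ) / 32) ^ M / M.factorial = (M ^ M / M.factorial) / 32 ^ M := by
        rw [div_pow]; ring
    _ ≤ 3 ^ M / 32 ^ M := div_le_div_of_nonneg_right (h5.trans h6) (by positivity)
    _ = (3 / 32) ^ M := by rw [div_pow]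

omit [Fintype α] in
theorem sum_mu (g : Finset α → ℝ) (T : Finset α) (f : α → ℝ) :
    ∑ x ∈ T, mu g T x * f x = ∑ S ∈ T.powerset, g S * ((∑ x ∈ S, f x) / S.card) := by
  unfold mu
  simp_rw [Finset.sum_mul]
  rw [Finset.sum_comm]
  refine Finset.sum_congr rfl fun S hS => ?_
  have hS' := Finset.mem_powerset.mp hS
  simp_rw [ite_mul, zero_mul]
  rw [← Finset.sum_filter, Finset.filter_mem_eq_inter, Finset.inter_eq_right.mpr hS',
    ← Finset.mul_sum]
  ring

omit [Fintype α] in
theorem good_imp (g : Finset α → ℝ) (hg : ∀ S, 0 ≤ g S) {s : ℕ} (τ : α → Fin (s+1))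
    (T : Finset α) (hc : Cond g τ T (fun _ => 0))
    (hT : 1 / 2 ≤ ∑ S ∈ T.powerset.erase ∅, g S) :
    1 / 4 ≤ ∑ S ∈ T.powerset.erase ∅, g S * ∏ x ∈ S, (64 / 8 ^ (τ x : ℕ) : ℝ) := by
  classical
  have hmu : ∀ x, 0 ≤ mu g T x := fun x => Finset.sum_nonneg fun S _ => by
    split_ifs
    · exact div_nonneg (hg S) (Nat.cast_nonneg _)
    · exact le_rfl
  have hG : ∑ x ∈ T, mu g T x = ∑ S ∈ T.powerset.erase ∅, g S := by
    have := sum_mu g T (fun _ => 1)
    simp only [mul_one] at this
    rw [this, ← Finset.sum_erase (a := ∅) _ (by simp)]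
    refine Finset.sum_congr rfl fun S hS => ?_
    have : (S.card : ℝ) ≠ 0 := by
      have := Finset.ne_of_mem_erase hS
      simpa using this
    simp [this]
  have hj : ∀ j : ℕ, ∑ x ∈ T, (if j < (τ x : ℕ) then (1:ℝ) else 0) * mu g T x ≤
      ∑ x ∈ T, (2 * eps j) * mu g T x := by
    intro j
    apply layer_cake _ _ _ _ _ _ (fun x _ => hmu x) (fun x _ => hmu x)
    intro t _
    have := hc j t
    rw [max_eq_left (by
      have := mul_nonneg (eps_pos j).le (Nat.cast_nonneg (α := ℝ) (lev g T t).card)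
      simp only [Nat.cast_zero]; linarith)] at this
    simp only [Nat.cast_zero, sub_zero] at this
    rw [← Finset.sum_filter, ← Finset.sum_filter, ← Finset.sum_filter]
    simp only [Finset.sum_const, nsmul_eq_mul, mul_one]
    rw [mul_comm]
    exact this
  have hsum : ∑ x ∈ T, mu g T x * (τ x : ℕ) ≤ ∑ x ∈ T, mu g T x := by
    have e1 : ∀ x, ((τ x : ℕ) : ℝ) =
        ∑ j ∈ Finset.range (s+1), (if j < (τ x : ℕ) then (1:ℝ) else 0) := by
      intro x
      rw [Finset.sum_boole]
      have : (Finset.range (s+1)).filter (fun j => j < (τ x : ℕ)) = Finset.range (τ x) := by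
        ext j; have := (τ x).2; simp only [Finset.mem_filter, Finset.mem_range]; omega
      rw [this]; simp
    calc ∑ x ∈ T, mu g T x * (τ x : ℕ)
        = ∑ j ∈ Finset.range (s+1), ∑ x ∈ T, (if j < (τ x : ℕ) then (1:ℝ) else 0) * mu g T x := by
          rw [Finset.sum_comm]
          refine Finset.sum_congr rfl fun x _ => ?_
          rw [e1, Finset.mul_sum]
          exact Finset.sum_congr rfl fun _ _ => mul_comm _ _
      _ ≤ ∑ j ∈ Finset.range (s+1), ∑ x ∈ T, (2 * eps j) * mu g T x :=
          Finset.sum_le_sum fun j _ => hj j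
      _ = (∑ j ∈ Finset.range (s+1), (1/2) * (1/2:ℝ) ^ j) * ∑ x ∈ T, mu g T x := by
          rw [Finset.sum_mul]
          refine Finset.sum_congr rfl fun j _ => ?_
          rw [← Finset.mul_sum]
          congr 1
          unfold eps; rw [one_div_pow]; field_simp; norm_num
      _ ≤ 1 * ∑ x ∈ T, mu g T x := by
          refine mul_le_mul_of_nonneg_right ?_ (Finset.sum_nonneg fun x _ => hmu x)
          rw [← Finset.mul_sum]
          have := sum_geometric_two_le (s+1)
          linarith
      _ = _ := one_mul _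
  rw [sum_mu, hG, ← Finset.sum_erase (a := ∅) _ (by simp)] at hsum
  have key : ∀ S ∈ T.powerset.erase ∅, g S - (1/2) * (g S * ((∑ x ∈ S, ((τ x : ℕ) : ℝ)) / S.card))
      ≤ g S * ∏ x ∈ S, (64 / 8 ^ (τ x : ℕ) : ℝ) := by
    intro S hS
    have hc : (0:ℝ) < S.card := by
      have := Finset.ne_of_mem_erase hS
      exact_mod_cast Finset.card_pos.mpr (Finset.nonempty_iff_ne_empty.mpr this)
    have e : ∏ x ∈ S, (64 / 8 ^ (τ x : ℕ) : ℝ) = 8 ^ (2 * S.card) / 8 ^ (∑ x ∈ S, (τ x : ℕ)) := by
      rw [Finset.prod_div_distrib, Finset.prod_const, Finset.prod_pow_eq_pow_sum, pow_mul]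
      norm_num
    have h0 : 0 ≤ (∑ x ∈ S, ((τ x : ℕ) : ℝ)) / S.card := by positivity
    have : 1 - (1/2) * ((∑ x ∈ S, ((τ x : ℕ) : ℝ)) / S.card) ≤
        ∏ x ∈ S, (64 / 8 ^ (τ x : ℕ) : ℝ) := by
      rw [e]
      by_cases h : ∑ x ∈ S, (τ x : ℕ) ≤ 2 * S.card
      · have : (1:ℝ) ≤ 8 ^ (2 * S.card) / 8 ^ (∑ x ∈ S, (τ x : ℕ)) := by
          rw [one_le_div (by positivity)]
          exact pow_le_pow_right₀ (by norm_num) h
        linarith
      · have h' : (2:ℝ) ≤ (∑ x ∈ S, ((τ x : ℕ) : ℝ)) / S.card := by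
          rw [le_div_iff₀ hc]
          exact_mod_cast (not_le.mp h).le
        have : (0:ℝ) ≤ 8 ^ (2 * S.card) / 8 ^ (∑ x ∈ S, (τ x : ℕ)) := by positivity
        linarith
    have := mul_le_mul_of_nonneg_left this (hg S)
    linarith
  have := Finset.sum_le_sum key
  rw [Finset.sum_sub_distrib, ← Finset.mul_sum] at this
  linarith

theorem exists_labels (p : ℝ) (hp : 0 < p) : ∃ s : ℕ, ∃ π : Fin (s+1) → ℝ, (∀ j, 0 ≤ π j) ∧
    ∑ j, π j = 1 ∧ (∀ j : Fin (s+1), (j : ℕ) < s → π j = aa j * p) ∧
    ∑ j, π j * (64 / 8 ^ (j : ℕ)) ≤ 2 ^ 16 * p := by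
  have hex : ∃ s : ℕ, 1 / 2 < aa s * p := by
    obtain ⟨s, hs⟩ := pow_unbounded_of_one_lt (1 / p) (show (1:ℝ) < 4 by norm_num)
    refine ⟨s, ?_⟩
    rw [div_lt_iff₀ hp] at hs
    unfold aa; nlinarith
  classical
  let s := Nat.find hex
  have hs1 : 1 / 2 < aa s * p := Nat.find_spec hex
  have hs2 : ∀ j < s, aa j * p ≤ 1 / 2 := fun j hj => not_lt.mp (Nat.find_min hex hj)
  have hsum : ∀ m : ℕ, ∑ j ∈ Finset.range m, aa j * p ≤ aa m * p / 3 := by
    intro m
    induction m with
    | zero => have := aa_pos 0; simp; positivity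
    | succ m ih =>
      rw [Finset.sum_range_succ]
      have : aa (m+1) = 4 * aa m := by unfold aa; ring
      rw [this]; linarith
  have hle : ∑ j ∈ Finset.range s, aa j * p ≤ 1 := by
    rcases Nat.eq_zero_or_pos s with h | h
    · simp [h]
    · obtain ⟨m, hm⟩ : ∃ m, s = m + 1 := ⟨s - 1, by omega⟩
      have a1 := hs2 m (by omega)
      have a2 := hsum m
      rw [hm, Finset.sum_range_succ]; linarith
  have hnn : 0 ≤ ∑ j ∈ Finset.range s, aa j * p :=
    Finset.sum_nonneg fun j _ => (mul_pos (aa_pos _) hp).le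
  let f : ℕ → ℝ := fun j => if j < s then aa j * p else 1 - ∑ j ∈ Finset.range s, aa j * p
  have hf : ∀ h : ℕ → ℝ, ∑ j : Fin (s+1), f j * h j = ∑ j ∈ Finset.range s, aa j * p * h j +
      (1 - ∑ j ∈ Finset.range s, aa j * p) * h s := by
    intro h
    rw [Fin.sum_univ_eq_sum_range (fun j => f j * h j), Finset.sum_range_succ]
    congr 1
    · exact Finset.sum_congr rfl fun j hj => by simp [f, Finset.mem_range.mp hj]
    · simp [f]
  refine ⟨s, fun j => f j, fun j => ?_, ?_, fun j hj => by simp [f, hj], ?_⟩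
  · simp only [f]; split_ifs
    · exact (mul_pos (aa_pos _) hp).le
    · linarith
  · have := hf (fun _ => 1)
    simpa using this
  · rw [hf (fun j => 64 / 8 ^ j)]
    have e1 : ∀ j : ℕ, aa j * p * (64 / 8 ^ j) = 2 ^ 14 * p * (1/2) ^ j := by
      intro j
      unfold aa
      have : (8:ℝ) ^ j = 4 ^ j * 2 ^ j := by rw [← mul_pow]; norm_num
      rw [this, one_div_pow]; field_simp; norm_num
    simp_rw [e1]
    rw [← Finset.mul_sum]
    have e2 := sum_geometric_two_le s
    have e3 : (64 / 8 ^ s : ℝ) ≤ 2 ^ 15 * p := by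
      rw [div_le_iff₀ (by positivity)]
      have : (4:ℝ) ^ s ≤ 8 ^ s := pow_le_pow_left₀ (by norm_num) (by norm_num) _
      unfold aa at hs1
      nlinarith
    have e4 : (0:ℝ) ≤ 64 / 8 ^ s := by positivity
    nlinarith

theorem tal_core (F : Finset (Finset α)) (g : Finset α → ℝ) (hg : ∀ S, 0 ≤ g S)
    (hcov : ∀ H ∈ F, 1 ≤ ∑ S ∈ H.powerset, g S) (p : ℝ) (hp : 0 < p)
    (hcost : ∑ S : Finset α, g S * (2 ^ 20 * p) ^ S.card ≤ 1 / 2) :
    ∃ G : Finset (Finset α), (∀ H ∈ F, ∃ S ∈ G, S ⊆ H) ∧ ∑ S ∈ G, p ^ S.card ≤ 1 / 2 := by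
  classical
  obtain ⟨s, π, hπ0, hπ1, hπ, hπ2⟩ := exists_labels p hp
  let good : (α → Fin (s+1)) → Prop := fun τ => ∃ T ∈ F, Cond g τ T (fun _ => 0)
  have hterm : ∀ S : Finset α, 0 ≤ g S * (2 ^ 20 * p) ^ S.card := fun S =>
    mul_nonneg (hg S) (by positivity)
  have hg0 : g ∅ ≤ 1 / 2 := by
    have := Finset.single_le_sum (f := fun S : Finset α => g S * (2 ^ 20 * p) ^ S.card)
      (fun S _ => hterm S) (Finset.mem_univ ∅)
    simp only [Finset.card_empty, pow_zero, mul_one] at this
    exact this.trans hcost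
  have hgood : ∑ τ : α → Fin (s+1), wt π τ * (if good τ then 1 else 0) ≤ 1 / 8 := by
    calc _ ≤ ∑ τ : α → Fin (s+1), wt π τ * (4 * ∑ S ∈ (Finset.univ : Finset (Finset α)).erase ∅,
          g S * ∏ x ∈ S, (64 / 8 ^ (τ x : ℕ) : ℝ)) := by
          refine Finset.sum_le_sum fun τ _ => mul_le_mul_of_nonneg_left ?_ (wt_nonneg hπ0 _)
          have hnn : ∀ S : Finset α, 0 ≤ g S * ∏ x ∈ S, (64 / 8 ^ (τ x : ℕ) : ℝ) := fun S =>
            mul_nonneg (hg S) (Finset.prod_nonneg fun _ _ => by positivity)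
          split_ifs with h
          · obtain ⟨T, hT, hc⟩ := h
            have h1 := hcov T hT
            rw [← Finset.add_sum_erase _ _ (Finset.empty_mem_powerset T)] at h1
            have h2 := good_imp g hg τ T hc (by linarith)
            have h3 : ∑ S ∈ T.powerset.erase ∅, g S * ∏ x ∈ S, (64 / 8 ^ (τ x : ℕ) : ℝ) ≤
                ∑ S ∈ (Finset.univ : Finset (Finset α)).erase ∅,
                  g S * ∏ x ∈ S, (64 / 8 ^ (τ x : ℕ) : ℝ) :=
              Finset.sum_le_sum_of_subset_of_nonneg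
                (Finset.erase_subset_erase _ (Finset.subset_univ _)) fun S _ _ => hnn S
            linarith
          · exact mul_nonneg (by norm_num) (Finset.sum_nonneg fun S _ => hnn S)
      _ = 4 * ∑ S ∈ (Finset.univ : Finset (Finset α)).erase ∅,
          g S * ∑ τ : α → Fin (s+1), wt π τ * ∏ x ∈ S, (64 / 8 ^ (τ x : ℕ) : ℝ) := by
          simp only [Finset.mul_sum]
          rw [Finset.sum_comm]
          exact Finset.sum_congr rfl fun _ _ => Finset.sum_congr rfl fun _ _ => by ring
      _ ≤ 4 * ∑ S ∈ (Finset.univ : Finset (Finset α)).erase ∅,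
          (1 / 16) * (g S * (2 ^ 20 * p) ^ S.card) := by
          refine mul_le_mul_of_nonneg_left (Finset.sum_le_sum fun S hS => ?_) (by norm_num)
          rw [sum_wt_prod_on hπ1 S (fun _ j => (64 / 8 ^ (j : ℕ) : ℝ)), Finset.prod_const]
          have h1 : (∑ j, π j * (64 / 8 ^ (j : ℕ) : ℝ)) ^ S.card ≤ (2 ^ 16 * p) ^ S.card :=
            pow_le_pow_left₀ (Finset.sum_nonneg fun j _ => mul_nonneg (hπ0 j) (by positivity)) hπ2 _
          have h2 : (2 ^ 16 * p) ^ S.card = (1/16) ^ S.card * (2 ^ 20 * p) ^ S.card := by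
            rw [← mul_pow]; congr 1; ring
          have h3 : (1/16 : ℝ) ^ S.card ≤ 1 / 16 := by
            apply pow_le_of_le_one (by norm_num) (by norm_num)
            have := Finset.ne_of_mem_erase hS
            simpa using this
          have h4 : (0:ℝ) ≤ (2 ^ 20 * p) ^ S.card := by positivity
          have h5 := mul_le_mul_of_nonneg_right h3 h4
          have h6 := mul_le_mul_of_nonneg_left (h1.trans (h2 ▸ h5)) (hg S)
          linarith
      _ ≤ 1 / 8 := by
          rw [← Finset.mul_sum]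
          have : ∑ S ∈ (Finset.univ : Finset (Finset α)).erase ∅, g S * (2 ^ 20 * p) ^ S.card ≤
              ∑ S : Finset α, g S * (2 ^ 20 * p) ^ S.card :=
            Finset.sum_le_sum_of_subset_of_nonneg (Finset.subset_univ _) fun S _ _ => hterm S
          have := this.trans hcost
          generalize ∑ S ∈ (Finset.univ : Finset (Finset α)).erase ∅,
            g S * (2 ^ 20 * p) ^ S.card = X at this ⊢
          linarith
  let 𝒰 : (α → Fin (s+1)) → Finset (Finset α) := fun τ =>
    Finset.univ.filter (fun U => U ≠ ∅ ∧ Enc F g τ U)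
  have hcover : ∀ τ, ¬ good τ → ∀ H ∈ F, ∃ S ∈ 𝒰 τ, S ⊆ H := by
    intro τ hτ T hT
    obtain ⟨σ, h1, h2, h3, h4⟩ := frag F g τ T hT
    refine ⟨Finset.univ.filter (fun x => σ x ≠ τ x), ?_, fun x hx => ?_⟩
    · simp only [𝒰, Finset.mem_filter, Finset.mem_univ, true_and]
      refine ⟨fun he => hτ ?_, σ, h1, fun x => by simp, h4⟩
      have : σ = τ := by
        funext x
        by_contra hx
        have : x ∈ Finset.univ.filter (fun x => σ x ≠ τ x) := by simp [hx]
        rw [he] at this; simp at this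
      subst this
      have : Mv σ σ = fun _ => 0 := by
        funext j; unfold Mv
        rw [Finset.card_eq_zero, Finset.filter_eq_empty_iff]
        intro x _; omega
      rw [this] at h3; exact h3
    · by_contra hxT
      simp only [Finset.mem_filter, Finset.mem_univ, true_and] at hx
      exact hx (h2 x hxT)
  have hbad : ∑ τ : α → Fin (s+1), wt π τ * ∑ U ∈ 𝒰 τ, p ^ U.card ≤ 1 / 8 := by
    calc _ = ∑ τ : α → Fin (s+1), ∑ M ∈ Finset.range (Fintype.card α),
          ∑ U ∈ (Finset.univ : Finset (Finset α)).filter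
            (fun U => U.card = M + 1 ∧ Enc F g τ U), wt π τ * p ^ (M + 1) := by
          refine Finset.sum_congr rfl fun τ _ => ?_
          rw [Finset.mul_sum, ← Finset.sum_fiberwise_of_maps_to (s := 𝒰 τ)
            (t := Finset.range (Fintype.card α)) (g := fun U => U.card - 1)]
          · refine Finset.sum_congr rfl fun M _ => Finset.sum_congr ?_ fun U hU => ?_
            · ext U
              simp only [𝒰, Finset.mem_filter, Finset.mem_univ, true_and, ne_eq,
                ← Finset.card_eq_zero]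
              constructor
              · rintro ⟨⟨a, b⟩, c⟩; exact ⟨by omega, b⟩
              · rintro ⟨a, b⟩; exact ⟨⟨by omega, b⟩, by omega⟩
            · simp only [Finset.mem_filter] at hU
              rw [hU.2.1]
          · intro U hU
            simp only [𝒰, Finset.mem_filter, Finset.mem_univ, true_and, ne_eq,
                ← Finset.card_eq_zero] at hU
            have := Finset.card_le_univ U
            simp only [Finset.mem_range]; omega
      _ ≤ ∑ M ∈ Finset.range (Fintype.card α), (3 / 32 : ℝ) ^ (M + 1) := by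
          rw [Finset.sum_comm]
          exact Finset.sum_le_sum fun M _ => encode_set F g p hp.le π hπ0 hπ1 hπ (M+1)
      _ ≤ 1 / 8 := by
          have : ∀ m : ℕ, ∑ M ∈ Finset.range m, (3 / 32 : ℝ) ^ (M + 1) ≤
              1 / 8 - (1/8) * (3/32) ^ m := by
            intro m
            induction m with
            | zero => simp
            | succ m ih =>
              rw [Finset.sum_range_succ, pow_succ]
              have : (0:ℝ) ≤ (3/32) ^ m := by positivity
              linarith
          have h2 := this (Fintype.card α)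
          have : (0:ℝ) ≤ (3/32) ^ (Fintype.card α) := by positivity
          linarith
  by_contra hcon
  push Not at hcon
  have : ∑ τ : α → Fin (s+1), wt π τ * 1 ≤ ∑ τ : α → Fin (s+1),
      (wt π τ * (if good τ then 1 else 0) + 2 * (wt π τ * ∑ U ∈ 𝒰 τ, p ^ U.card)) := by
    refine Finset.sum_le_sum fun τ _ => ?_
    have w0 := wt_nonneg hπ0 τ
    have c0 : 0 ≤ ∑ U ∈ 𝒰 τ, p ^ U.card := Finset.sum_nonneg fun _ _ => by positivity
    split_ifs with h
    · nlinarith
    · have := hcon _ (hcover τ h)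
      nlinarith
  rw [Finset.sum_add_distrib, ← Finset.mul_sum] at this
  simp only [mul_one, sum_wt hπ1] at this
  linarith

end Crest.Agent.Lead.Tal
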