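import Crest.Agent.Lead.Kernel
import Crest.Agent.Lead.Tal

set_option autoImplicit false

namespace Crest.Agent.Lead

open Finset

/-- coin weights -/
noncomputable def coin (p : ℝ) (b : Bool) : ℝ := if b then p else 1 - p

theorem coin_nonneg {p : ℝ} (h0 : 0 ≤ p) (h1 : p ≤ 1) (b : Bool) : 0 ≤ coin p b := by
  unfold coin; split_ifs <;> linarith

theorem sum_coin (p : ℝ) : ∑ b, coin p b = 1 := by simp [coin]

theorem sum_coin_supp {N : ℕ} (p : ℝ) (D : Finset (Finset (Fin N))) :
    ∑ c : Fin N → Bool, wt (coin p) c *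
      (if Finset.univ.filter (fun x => c x = true) ∈ D then 1 else 0) =
      ∑ S ∈ D, p ^ S.card * (1 - p) ^ (N - S.card) := by
  simp_rw [mul_ite, mul_one, mul_zero]
  rw [← Finset.sum_filter]
  refine Finset.sum_bij' (fun c _ => Finset.univ.filter (fun x => c x = true))
    (fun S _ => fun x => decide (x ∈ S)) ?_ ?_ ?_ ?_ ?_
  · intro c hc; simpa using hc
  · intro S hS; simpa using hS
  · intro c _; funext x; simp
  · intro S _; ext x; simp
  · intro c _
    unfold wt coin
    rw [Finset.prod_ite]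
    simp only [Finset.prod_const]
    congr 2
    have := Finset.card_filter_add_card_filter_not (s := (Finset.univ : Finset (Fin N)))
      (fun x => c x = true)
    simp only [Finset.card_univ, Fintype.card_fin] at this
    omega

theorem convex_core (N m k : ℕ) (hm : (m : ℝ) = 2 ^ 20) (hk : 2 * m ≤ k) (p : ℝ)
    (hp0 : 0 < p) (hp1 : p < 1) (D : Finset (Finset (Fin N)))
    (hD : 1 - 1 / 2 ^ 75 ≤ ∑ S ∈ D, p ^ S.card * (1 - p) ^ (N - S.card)) :
    ∃ G : Finset (Finset (Fin N)),
      (∀ S : Finset (Fin N),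
        (∀ f : Fin k → Finset (Fin N), (∀ i, f i ∈ D) → ¬ S ⊆ Finset.univ.biUnion f) →
          ∃ I ∈ G, I ⊆ S) ∧
      ∑ I ∈ G, p ^ I.card ≤ 1 / 2 := by
  classical
  have hm0 : 0 < m := by
    have : (0:ℝ) < m := by rw [hm]; positivity
    exact_mod_cast this
  let ρ : (Fin m → Bool) → ℝ := wt (coin p)
  have hρ0 : ∀ σ, 0 ≤ ρ σ := wt_nonneg (coin_nonneg hp0.le hp1.le)
  have hρ1 : ∑ σ, ρ σ = 1 := sum_wt (sum_coin p)
  let hit : (Fin m → Bool) → Bool := fun σ => decide (∃ i, σ i = true)
  let q : ℝ := 1 - (1 - p) ^ m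
  have hq : ∑ σ, ρ σ * (if hit σ then 1 else 0) = q := by
    have e : ∀ σ, (if hit σ then (1:ℝ) else 0) = 1 - ∏ i, (if σ i = true then 0 else 1) := by
      intro σ
      by_cases h : ∃ i, σ i = true
      · obtain ⟨i, hi⟩ := h
        rw [Finset.prod_eq_zero (Finset.mem_univ i) (by simp [hi])]
        simp only [hit, decide_eq_true_eq]
        rw [if_pos ⟨i, hi⟩]; simp
      · simp only [hit, decide_eq_true_eq]
        rw [if_neg h]
        push Not at h
        simp [h]
    simp_rw [e, mul_sub, Finset.sum_sub_distrib, mul_one, hρ1]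
    rw [sum_wt_prod (coin p) (fun _ b => if b = true then (0:ℝ) else 1)]
    simp [coin, q]
  have hpw : 0 < (1 - p) ^ m := pow_pos (by linarith) _
  have hpw1 : (1 - p) ^ m < 1 := pow_lt_one₀ (by linarith) (by linarith) hm0.ne'
  have hq0 : 0 < q := by simp only [q]; linarith
  have hq1 : q < 1 := by simp only [q]; linarith
  have hbern : (1 + m * p) * (1 - p) ^ m ≤ 1 := by
    have h1 : 1 + m * p ≤ (1 + p) ^ m := one_add_mul_le_pow (by linarith) m
    calc (1 + m * p) * (1 - p) ^ m ≤ (1 + p) ^ m * (1 - p) ^ m :=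
          mul_le_mul_of_nonneg_right h1 hpw.le
      _ = ((1 + p) * (1 - p)) ^ m := by rw [mul_pow]
      _ ≤ 1 := pow_le_one₀ (by nlinarith) (by nlinarith)
  let col : (Fin N → Fin m → Bool) → Fin m → Finset (Fin N) := fun a i =>
    Finset.univ.filter (fun x => a x i = true)
  let f : (Fin N → Fin m → Bool) → ℝ := fun a => ∏ i, if col a i ∈ D then 1 else 0
  have hf0 : ∀ a, 0 ≤ f a := fun a => Finset.prod_nonneg fun i _ => by split_ifs <;> norm_num
  have hf1 : ∀ a, f a ≤ 1 := fun a => Finset.prod_le_one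
    (fun i _ => by split_ifs <;> norm_num) (fun i _ => by split_ifs <;> norm_num)
  set μ := ∑ a, wt ρ a * f a with hμ
  have hμ1 : μ = (∑ S ∈ D, p ^ S.card * (1 - p) ^ (N - S.card)) ^ m := by
    rw [← sum_coin_supp, hμ]
    have := sum_wt_prod (ι := Fin m) (wt (ι := Fin N) (coin p)) (fun _ c =>
      if Finset.univ.filter (fun x => c x = true) ∈ D then (1:ℝ) else 0)
    simp only [Finset.prod_const, Finset.card_univ, Fintype.card_fin] at this
    rw [← this]
    refine Fintype.sum_equiv (Equiv.piComm _) _ _ fun a => ?_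
    congr 1
    simp only [ρ, wt]
    rw [Finset.prod_comm]; rfl
  have hμ2 : 2 / 3 ≤ μ := by
    rw [hμ1]
    refine le_trans ?_ (pow_le_pow_left₀ (by norm_num) hD m)
    have := one_add_mul_le_pow (show (-2:ℝ) ≤ - (1 / 2 ^ 75) by norm_num) m
    rw [hm] at this
    rw [sub_eq_add_neg]
    refine le_trans ?_ this
    norm_num
  have hμ0 : 0 < μ := by linarith
  let F : Finset (Finset (Fin N)) := Finset.univ.filter fun S =>
    ∀ f : Fin k → Finset (Fin N), (∀ i, f i ∈ D) → ¬ S ⊆ Finset.univ.biUnion f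
  let g : Finset (Fin N) → ℝ := fun Y =>
    if Y = ∅ then 0 else (1 / q ^ 2) ^ Y.card * coef ρ (psi hit q) f Y ^ 2 / μ ^ 2
  have hg : ∀ Y, 0 ≤ g Y := fun Y => by simp only [g]; split_ifs <;> positivity
  have hcov : ∀ H ∈ F, 1 ≤ ∑ S ∈ H.powerset, g S := by
    intro T hT
    simp only [F, Finset.mem_filter, Finset.mem_univ, true_and] at hT
    have h1 := kernel_lower ρ hit q f T
    have h2 : ∑ a, ∑ b, wt ρ a * f a * (wt ρ b * f b) * sker hit q T a b = 0 := by
      refine Finset.sum_eq_zero fun a _ => Finset.sum_eq_zero fun b _ => ?_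
      by_cases ha : ∀ i, col a i ∈ D
      · by_cases hb : ∀ i, col b i ∈ D
        · have := hT (fun i => if h : (i : ℕ) < m then col a ⟨i, h⟩ else
            if h : (i : ℕ) - m < m then col b ⟨i - m, h⟩ else col a ⟨0, hm0⟩) (by
              intro i; split_ifs <;> simp [ha, hb])
          rw [Finset.not_subset] at this
          obtain ⟨x, hx, hx'⟩ := this
          simp only [Finset.mem_biUnion, Finset.mem_univ, true_and, not_exists] at hx'
          rw [sker_eq_zero hit hq0 T a b ⟨x, hx, ?_, ?_⟩, mul_zero]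
          · simp only [hit, decide_eq_false_iff_not, not_exists]
            intro i hi
            apply hx' ⟨i, by have := i.2; omega⟩
            simp [col, hi]
          · simp only [hit, decide_eq_false_iff_not, not_exists]
            intro i hi
            apply hx' ⟨m + i, by have := i.2; omega⟩
            simp [col, hi]
        · push Not at hb
          obtain ⟨i, hi⟩ := hb
          have : f b = 0 := Finset.prod_eq_zero (Finset.mem_univ i) (by simp [hi])
          simp [this]
      · push Not at ha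
        obtain ⟨i, hi⟩ := ha
        have : f a = 0 := Finset.prod_eq_zero (Finset.mem_univ i) (by simp [hi])
        simp [this]
    rw [h2, sub_zero, ← hμ] at h1
    rw [← Finset.add_sum_erase _ _ (Finset.empty_mem_powerset T)]
    have h3 : ∑ Y ∈ T.powerset.erase ∅, g Y = (∑ Y ∈ T.powerset.erase ∅,
        (1 / q ^ 2) ^ Y.card * coef ρ (psi hit q) f Y ^ 2) / μ ^ 2 := by
      rw [Finset.sum_div]
      exact Finset.sum_congr rfl fun Y hY => by simp only [g, if_neg (Finset.ne_of_mem_erase hY)]
    rw [h3]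
    simp only [g, if_true, zero_add]
    rw [one_le_div (by positivity)]; exact h1
  have hcost : ∑ S : Finset (Fin N), g S * (2 ^ 20 * p) ^ S.card ≤ 1 / 2 := by
    have h1 := kernel_bessel hρ0 hρ1 hit hq hq0 hq1 f hf0 hf1
    rw [← hμ] at h1
    rw [← Finset.add_sum_erase _ _ (Finset.mem_univ ∅)]
    have h2 : ∑ Y ∈ (Finset.univ : Finset (Finset (Fin N))).erase ∅, g Y * (2 ^ 20 * p) ^ Y.card ≤
        (∑ Y ∈ (Finset.univ : Finset (Finset (Fin N))).erase ∅,
          (1 / (q * (1 - q))) ^ Y.card * coef ρ (psi hit q) f Y ^ 2) / μ ^ 2 := by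
      rw [Finset.sum_div]
      refine Finset.sum_le_sum fun Y hY => ?_
      simp only [g, if_neg (Finset.ne_of_mem_erase hY)]
      have e : (1 / q ^ 2) ^ Y.card * (2 ^ 20 * p) ^ Y.card ≤ (1 / (q * (1 - q))) ^ Y.card := by
        rw [← mul_pow]
        apply pow_le_pow_left₀ (by positivity)
        rw [← hm, div_mul_eq_mul_div, one_mul, div_le_div_iff₀ (by positivity)
          (mul_pos hq0 (by linarith))]
        have : m * p * (1 - q) ≤ q := by simp only [q]; nlinarith
        nlinarith
      have := mul_le_mul_of_nonneg_right e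
        (show 0 ≤ coef ρ (psi hit q) f Y ^ 2 / μ ^ 2 by positivity)
      calc _ = (1 / q ^ 2) ^ Y.card * (2 ^ 20 * p) ^ Y.card *
            (coef ρ (psi hit q) f Y ^ 2 / μ ^ 2) := by ring
        _ ≤ _ := this
        _ = _ := by ring
    have h3 : (μ - μ ^ 2) / μ ^ 2 ≤ 1 / 2 := by
      rw [div_le_iff₀ (by positivity)]; nlinarith
    have h4 := div_le_div_of_nonneg_right h1 (show 0 ≤ μ ^ 2 by positivity)
    have h5 : g ∅ = 0 := by simp [g]
    rw [h5, zero_mul, zero_add]
    exact h2.trans (h4.trans h3)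
  obtain ⟨G, hG1, hG2⟩ := Tal.tal_core F g hg hcov p hp0 hcost
  exact ⟨G, fun S hS => hG1 S (by simpa [F] using hS), hG2⟩

end Crest.Agent.Lead
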