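import Crest.Agent.Lead.Greedy

set_option autoImplicit false

namespace Crest.Agent.Lead

open Finset

variable {ι V : Type*} [Fintype ι] [DecidableEq ι] [Fintype V]

theorem uncovered_bound {p : ℝ} (hp0 : 0 < p) (hp1 : p ≤ 1 / 2) (T : V → Finset ι) (j : ℕ)
    (y N₀ : ℝ) (hT : ∀ v, (T v).card ≤ j) (hy : (1 / p) ^ j ≤ y) (hV : Fintype.card V ≤ N₀)
    (hdeg : ∀ Y : Finset ι, Y ≠ ∅ →
      ((Finset.univ.filter (fun v => Y ⊆ T v)).card : ℝ) ≤ N₀ * p ^ Y.card)
    (D : (ι → Bool) → Prop) (E : V → (ι → Bool) → Prop)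
    (hE : ∀ v, Pr (coin p) (E v) ≤ 1 / (16 * y ^ 2)) (Ψ : Finset V)
    (hΨ : ∀ v ∈ Ψ, ∀ a b, D a → D b → ¬ E v a → ¬ E v b → ∃ x ∈ T v, a x = false ∧ b x = false) :
    (Ψ.card : ℝ) ≤ 8 * N₀ * Pr (coin p) (fun a => ¬ D a) := by
  classical
  have c0 := coin_nonneg hp0.le (show p ≤ 1 by linarith)
  have hN0 : 0 ≤ N₀ := le_trans (Nat.cast_nonneg _) hV
  have hinv : 1 ≤ 1 / p := by rw [le_div_iff₀ hp0]; linarith
  have hy1 : 1 ≤ y := (one_le_pow₀ hinv).trans hy
  rw [Pr_not (sum_coin p)]
  have hμ1 := Pr_le_one c0 (sum_coin p) D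
  by_cases hμ : Pr (coin p) D < 1 / 2
  · have : (Ψ.card : ℝ) ≤ Fintype.card V := by exact_mod_cast Finset.card_le_univ Ψ
    nlinarith
  push Not at hμ
  let f : (ι → Bool) → ℝ := fun a => if D a then 1 else 0
  have hf0 : ∀ a, 0 ≤ f a := fun a => by simp only [f]; split_ifs <;> norm_num
  have hf1 : ∀ a, f a ≤ 1 := fun a => by simp only [f]; split_ifs <;> norm_num
  have hμf : ∑ a, wt (coin p) a * f a = Pr (coin p) D := rfl
  have h1 : ∀ v ∈ Ψ, (1 / 8 : ℝ) ≤ ∑ Y ∈ (T v).powerset.erase ∅,
      (1 / p ^ 2) ^ Y.card * coef (coin p) (psi id p) f Y ^ 2 := by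
    intro v hv
    have k1 := kernel_lower (coin p) id p f (T v)
    rw [hμf] at k1
    have k2 : (1 / p ^ 2) ^ (T v).card ≤ y ^ 2 := by
      calc (1 / p ^ 2) ^ (T v).card = ((1 / p) ^ (T v).card) ^ 2 := by
            rw [← pow_mul, mul_comm, pow_mul]; congr 1; field_simp
        _ ≤ y ^ 2 := pow_le_pow_left₀ (by positivity)
            ((pow_le_pow_right₀ hinv (hT v)).trans hy) 2
    have k3 : ∑ a, ∑ b, wt (coin p) a * f a * (wt (coin p) b * f b) * sker id p (T v) a b ≤
        ∑ a, ∑ b, y ^ 2 * (wt (coin p) a * (if E v a then 1 else 0) * wt (coin p) b +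
          wt (coin p) a * (wt (coin p) b * (if E v b then 1 else 0))) := by
      refine Finset.sum_le_sum fun a _ => Finset.sum_le_sum fun b _ => ?_
      have w1 := wt_nonneg c0 a
      have w2 := wt_nonneg c0 b
      have w3 := mul_nonneg w1 w2
      have s1 : sker id p (T v) a b ≤ y ^ 2 :=
        (le_abs_self _).trans ((abs_sker_le id hp0 (by linarith) _ _ _).trans k2)
      have w4 := mul_le_mul_of_nonneg_left s1 w3
      have w5 : 0 ≤ wt (coin p) a * wt (coin p) b * y ^ 2 := by positivity
      simp only [f]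
      by_cases ha : D a
      · by_cases hb : D b
        · by_cases ea : E v a
          · by_cases eb : E v b <;> simp only [ha, hb, ea, eb, if_true, if_false] <;> nlinarith
          · by_cases eb : E v b
            · simp only [ha, hb, ea, eb, if_true, if_false]; nlinarith
            · rw [sker_eq_zero id hp0 _ _ _ (hΨ v hv a b ha hb ea eb)]
              simp [ea, eb]
        · simp only [hb, if_false, mul_zero, zero_mul]
          split_ifs <;> positivity
      · simp only [ha, if_false, mul_zero, zero_mul]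
        split_ifs <;> positivity
    have k4 : ∑ a, ∑ b, y ^ 2 * (wt (coin p) a * (if E v a then 1 else 0) * wt (coin p) b +
          wt (coin p) a * (wt (coin p) b * (if E v b then 1 else 0))) =
        y ^ 2 * (2 * Pr (coin p) (E v)) := by
      simp only [← Finset.mul_sum, Finset.sum_add_distrib, ← Finset.sum_mul, sum_wt (sum_coin p)]
      unfold Pr; ring
    have k5 : y ^ 2 * (2 * Pr (coin p) (E v)) ≤ 1 / 8 := by
      have := mul_le_mul_of_nonneg_left (hE v) (show 0 ≤ 2 * y ^ 2 by positivity)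
      have e : 2 * y ^ 2 * (1 / (16 * y ^ 2)) = 1 / 8 := by field_simp; norm_num
      linarith
    nlinarith
  have h2 := Finset.sum_le_sum h1
  rw [Finset.sum_const, nsmul_eq_mul] at h2
  have h3 : ∑ v ∈ Ψ, ∑ Y ∈ (T v).powerset.erase ∅,
      (1 / p ^ 2) ^ Y.card * coef (coin p) (psi id p) f Y ^ 2 ≤
      N₀ * ∑ Y ∈ (Finset.univ : Finset (Finset ι)).erase ∅,
        (1 / (p * (1 - p))) ^ Y.card * coef (coin p) (psi id p) f Y ^ 2 := by
    calc _ ≤ ∑ v, ∑ Y ∈ (Finset.univ : Finset (Finset ι)).erase ∅, (if Y ⊆ T v then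
          (1 / p ^ 2) ^ Y.card * coef (coin p) (psi id p) f Y ^ 2 else 0) := by
          refine le_trans (Finset.sum_le_sum fun v _ => le_of_eq ?_)
            (Finset.sum_le_sum_of_subset_of_nonneg (Finset.subset_univ Ψ) fun v _ _ =>
              Finset.sum_nonneg fun Y _ => by split_ifs <;> positivity)
          rw [← Finset.sum_filter]
          congr 1; ext Y; simp
      _ = ∑ Y ∈ (Finset.univ : Finset (Finset ι)).erase ∅,
          (Finset.univ.filter (fun v => Y ⊆ T v)).card *
            ((1 / p ^ 2) ^ Y.card * coef (coin p) (psi id p) f Y ^ 2) := by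
          rw [Finset.sum_comm]
          refine Finset.sum_congr rfl fun Y _ => ?_
          rw [← Finset.sum_filter, Finset.sum_const, nsmul_eq_mul]
      _ ≤ _ := by
          rw [Finset.mul_sum]
          refine Finset.sum_le_sum fun Y hY => ?_
          have a1 := hdeg Y (Finset.ne_of_mem_erase hY)
          have a2 : p ^ Y.card * (1 / p ^ 2) ^ Y.card ≤ (1 / (p * (1 - p))) ^ Y.card := by
            rw [← mul_pow]
            apply pow_le_pow_left₀ (by positivity)
            have : p * (1 / p ^ 2) = 1 / p := by field_simp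
            rw [this]
            apply one_div_le_one_div_of_le (mul_pos hp0 (by linarith))
            nlinarith
          have a3 : 0 ≤ coef (coin p) (psi id p) f Y ^ 2 := sq_nonneg _
          calc _ ≤ N₀ * p ^ Y.card * ((1 / p ^ 2) ^ Y.card * coef (coin p) (psi id p) f Y ^ 2) :=
                mul_le_mul_of_nonneg_right a1 (by positivity)
            _ = N₀ * ((p ^ Y.card * (1 / p ^ 2) ^ Y.card) * coef (coin p) (psi id p) f Y ^ 2) := by
                ring
            _ ≤ _ := mul_le_mul_of_nonneg_left (mul_le_mul_of_nonneg_right a2 a3) hN0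
  have h4 := kernel_bessel c0 (sum_coin p) id (q := p) (by simp [coin]) hp0 (by linarith) f hf0 hf1
  rw [hμf] at h4
  have h5 := mul_le_mul_of_nonneg_left h4 hN0
  have h6 : Pr (coin p) D - Pr (coin p) D ^ 2 ≤ 1 - Pr (coin p) D := by nlinarith
  have h7 := mul_le_mul_of_nonneg_left h6 hN0
  linarith

theorem wt_coin_pos {p : ℝ} (hp0 : 0 < p) (hp1 : p < 1) (a : ι → Bool) : 0 < wt (coin p) a :=
  Finset.prod_pos fun x _ => by unfold coin; split_ifs <;> linarith

theorem dual_choice {p : ℝ} (hp0 : 0 < p) (hp1 : p ≤ 1 / 2) (T : V → Finset ι) (j : ℕ)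
    (y N₀ : ℝ) (hT : ∀ v, (T v).card ≤ j) (hy : (1 / p) ^ j ≤ y) (hV : Fintype.card V ≤ N₀)
    (hdeg : ∀ Y : Finset ι, Y ≠ ∅ →
      ((Finset.univ.filter (fun v => Y ⊆ T v)).card : ℝ) ≤ N₀ * p ^ Y.card)
    (w : (ι → Bool) → ℝ) (hw : ∀ a, 0 ≤ w a) (ε : V → (ι → Bool) → ℝ) (hε : ∀ v a, 0 ≤ ε v a) :
    ∃ x : V → (ι → Bool) × (ι → Bool),
      (∀ v, ∀ i ∈ T v, (x v).1 i = true ∨ (x v).2 i = true) ∧
      ∑ v, (w (x v).1 + w (x v).2) ≤ 16 * N₀ * ∑ a, wt (coin p) a * w a ∧
      ∀ v, ε v (x v).1 + ε v (x v).2 ≤ 32 * y ^ 2 * ∑ a, wt (coin p) a * ε v a := by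
  classical
  have c0 := coin_nonneg hp0.le (show p ≤ 1 by linarith)
  have hinv : 1 ≤ 1 / p := by rw [le_div_iff₀ hp0]; linarith
  have hy1 : 1 ≤ y := (one_le_pow₀ hinv).trans hy
  let E : V → (ι → Bool) → Prop := fun v a => 16 * y ^ 2 * ∑ a, wt (coin p) a * ε v a < ε v a
  have hE : ∀ v, Pr (coin p) (E v) ≤ 1 / (16 * y ^ 2) := by
    intro v
    have m0 : 0 ≤ ∑ a, wt (coin p) a * ε v a :=
      Finset.sum_nonneg fun a _ => mul_nonneg (wt_nonneg c0 a) (hε v a)
    rcases m0.eq_or_lt with h | h
    · rw [Pr_eq_zero]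
      · positivity
      · intro a
        have := (Finset.sum_eq_zero_iff_of_nonneg
          (fun a _ => mul_nonneg (wt_nonneg c0 a) (hε v a))).mp h.symm a (Finset.mem_univ a)
        have e := (mul_eq_zero.mp this).resolve_left (wt_coin_pos hp0 (by linarith) a).ne'
        simp only [E, ← h, e]; simp
    · refine (Pr_le_of c0 _ (fun a => ε v a / (16 * y ^ 2 * ∑ a, wt (coin p) a * ε v a))
        (fun a => div_nonneg (hε v a) (by positivity)) (fun a ha => ?_)).trans (le_of_eq ?_)
      · rw [one_le_div (by positivity)]; exact le_of_lt ha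
      · simp_rw [← mul_div_assoc, ← Finset.sum_div]
        field_simp
  let A : V → Finset ((ι → Bool) × (ι → Bool)) := fun v => Finset.univ.filter fun z =>
    ¬ E v z.1 ∧ ¬ E v z.2 ∧ ∀ i ∈ T v, z.1 i = true ∨ z.2 i = true
  have hA : ∀ v, (A v).Nonempty := by
    intro v
    by_contra hne
    have := uncovered_bound hp0 hp1 T j y N₀ hT hy hV hdeg (fun _ => True) E hE {v} (by
      intro u hu a b _ _ ha hb
      rw [Finset.mem_singleton] at hu; subst hu
      by_contra hc
      apply hne
      refine ⟨(a, b), ?_⟩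
      simp only [A, Finset.mem_filter, Finset.mem_univ, true_and]
      refine ⟨ha, hb, fun i hi => ?_⟩
      by_contra h2
      exact hc ⟨i, hi, by simpa using h2⟩)
    rw [Pr_eq_zero _ _ (by simp)] at this
    norm_num at this
  choose x hx hmin using fun v => Finset.exists_min_image (A v) (fun z => max (w z.1) (w z.2)) (hA v)
  simp only [A, Finset.mem_filter, Finset.mem_univ, true_and] at hx hmin
  refine ⟨x, fun v => (hx v).2.2, ?_, fun v => ?_⟩
  · have := layer_cake Finset.univ Finset.univ (fun v => max (w (x v).1) (w (x v).2)) (fun _ => 1)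
      w (fun a => 8 * N₀ * wt (coin p) a) (fun v _ => le_max_of_le_left (hw _)) (fun a _ => hw a) (by
        intro t _
        rw [Finset.sum_boole]
        refine (uncovered_bound hp0 hp1 T j y N₀ hT hy hV hdeg (fun a => w a < t) E hE _ ?_).trans
          (le_of_eq ?_)
        · intro v hv a b ha hb ea eb
          simp only [Finset.mem_filter, Finset.mem_univ, true_and] at hv
          by_contra hc
          have := hmin v (a, b) ⟨ea, eb, fun i hi => by
            by_contra h2
            exact hc ⟨i, hi, by simpa using h2⟩⟩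
          have := max_lt ha hb
          simp only at *
          linarith
        · unfold Pr
          rw [Finset.mul_sum]
          refine Finset.sum_congr rfl fun a _ => ?_
          by_cases h : t ≤ w a <;> simp [h])
    have e : ∑ v, (w (x v).1 + w (x v).2) ≤ 2 * ∑ v, 1 * max (w (x v).1) (w (x v).2) := by
      rw [Finset.mul_sum]
      refine Finset.sum_le_sum fun v _ => ?_
      have := le_max_left (w (x v).1) (w (x v).2)
      have := le_max_right (w (x v).1) (w (x v).2)
      linarith
    simp_rw [mul_assoc (8 * N₀), ← Finset.mul_sum] at this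
    simp_rw [← Finset.mul_sum] at e
    linarith
  · have h1 := not_lt.mp (hx v).1
    have h2 := not_lt.mp (hx v).2.1
    linarith

/-- bounded kernels supported on supersets of the patterns -/
def Ker (p : ℝ) (J : V → Finset ι) (Λ cap : ℝ) : Prop :=
  ∃ k : V → (ι → Bool) → ℝ, (∀ v a, 0 ≤ k v a) ∧ (∀ v a, k v a ≤ Λ) ∧
    (∀ v, 1 / 2 ≤ ∑ a, wt (coin p) a * k v a) ∧ (∀ a, ∑ v, k v a ≤ cap) ∧
    ∀ v a, 0 < k v a → ∀ x ∈ J v, a x = true

theorem couple {p : ℝ} (hp0 : 0 < p) (hp1 : p ≤ 1 / 2) (T : V → Finset ι) (j : ℕ)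
    (y N₀ : ℝ) (hT : ∀ v, (T v).card ≤ j) (hy : (1 / p) ^ j ≤ y) (hV : Fintype.card V ≤ N₀)
    (hdeg : ∀ Y : Finset ι, Y ≠ ∅ →
      ((Finset.univ.filter (fun v => Y ⊆ T v)).card : ℝ) ≤ N₀ * p ^ Y.card)
    (hbig : Real.exp (- (N₀ / (2 * y ^ 3))) ≤ 1 / (128 * y ^ 3)) :
    ∃ I : V → Finset ι, Ker p I (64 * y ^ 3) (96 * N₀) ∧
      Ker p (fun v => T v \ I v) (64 * y ^ 3) (96 * N₀) := by
  classical
  have c0 := coin_nonneg hp0.le (show p ≤ 1 by linarith)
  have hinv : 2 ≤ 1 / p := by rw [le_div_iff₀ hp0]; linarith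
  have hy2 : (2:ℝ) ^ j ≤ y := (pow_le_pow_left₀ (by norm_num) hinv j).trans hy
  have hy1 : 1 ≤ y := (one_le_pow₀ (by norm_num)).trans hy2
  have hμ : ∀ a : ι → Bool, 0 < wt (coin p) a := wt_coin_pos hp0 (by linarith)
  let X := {x : V → (ι → Bool) × (ι → Bool) // ∀ v, ∀ i ∈ T v, (x v).1 i = true ∨ (x v).2 i = true}
  let ind : X → V → (ι → Bool) → ℝ := fun x v a =>
    (if (x.1 v).1 = a then 1 else 0) + (if (x.1 v).2 = a then 1 else 0)
  let L : X → ((ι → Bool) ⊕ (V × (ι → Bool))) → ℝ := fun x => Sum.elim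
    (fun a => ∑ v, ind x v a - 16 * N₀ * wt (coin p) a)
    (fun z => ind x z.1 z.2 - 32 * y ^ 2 * wt (coin p) z.2)
  obtain ⟨π, hπ0, hπ1, hπ⟩ := ville L (by
    intro l hl
    obtain ⟨x, hx, h1, h2⟩ := dual_choice hp0 hp1 T j y N₀ hT hy hV hdeg (fun a => l (Sum.inl a))
      (fun a => hl _) (fun v a => l (Sum.inr (v, a))) (fun v a => hl _)
    refine ⟨⟨x, hx⟩, ?_⟩
    rw [Fintype.sum_sum_type, Fintype.sum_prod_type]
    simp only [L, Sum.elim_inl, Sum.elim_inr, mul_sub, Finset.sum_sub_distrib]
    have e0 : ∀ (g : (ι → Bool) → ℝ) (v : V), ∑ a, g a * ind ⟨x, hx⟩ v a = g (x v).1 + g (x v).2 := by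
      intro g v
      simp [ind, mul_add, Finset.sum_add_distrib]
    have e1 : ∑ a, l (Sum.inl a) * ∑ v, ind ⟨x, hx⟩ v a =
        ∑ v, (l (Sum.inl (x v).1) + l (Sum.inl (x v).2)) := by
      simp_rw [Finset.mul_sum]
      rw [Finset.sum_comm]
      exact Finset.sum_congr rfl fun v _ => e0 (fun a => l (Sum.inl a)) v
    have e2 : ∑ a, l (Sum.inl a) * (16 * N₀ * wt (coin p) a) =
        16 * N₀ * ∑ a, wt (coin p) a * l (Sum.inl a) := by
      rw [Finset.mul_sum]; exact Finset.sum_congr rfl fun _ _ => by ring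
    have e3 : ∑ v, ∑ a, l (Sum.inr (v, a)) * ind ⟨x, hx⟩ v a ≤
        ∑ v, ∑ a, l (Sum.inr (v, a)) * (32 * y ^ 2 * wt (coin p) a) := by
      refine Finset.sum_le_sum fun v _ => ?_
      rw [e0 (fun a => l (Sum.inr (v, a)))]
      refine (h2 v).trans (le_of_eq ?_)
      rw [Finset.mul_sum]; exact Finset.sum_congr rfl fun _ _ => by ring
    rw [e1, e2]; linarith)
  have hind : ∀ x v a, 0 ≤ ind x v a := fun x v a => by
    simp only [ind]; split_ifs <;> norm_num
  have htot : ∀ a, ∑ v, ∑ x, π x * ind x v a ≤ 16 * N₀ * wt (coin p) a := by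
    intro a
    have := hπ (Sum.inl a)
    simp only [L, Sum.elim_inl, mul_sub, Finset.sum_sub_distrib, ← Finset.sum_mul, hπ1, one_mul,
      Finset.mul_sum] at this
    rw [Finset.sum_comm]; linarith
  have hown : ∀ v a, ∑ x, π x * ind x v a ≤ 32 * y ^ 2 * wt (coin p) a := by
    intro v a
    have := hπ (Sum.inr (v, a))
    simp only [L, Sum.elim_inr, mul_sub, Finset.sum_sub_distrib, ← Finset.sum_mul, hπ1,
      one_mul] at this
    linarith
  let pat : V → X → Finset ι := fun v x => (T v).filter (fun i => (x.1 v).1 i = true)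
  let pm : V → Finset ι → ℝ := fun v I => ∑ x, if pat v x = I then π x else 0
  have hpm0 : ∀ v I, 0 ≤ pm v I := fun v I => Finset.sum_nonneg fun x _ => by
    split_ifs; exacts [hπ0 x, le_rfl]
  have hfib : ∀ v (g : X → ℝ), ∑ I ∈ (T v).powerset, ∑ x, (if pat v x = I then g x else 0) =
      ∑ x, g x := by
    intro v g
    rw [Finset.sum_comm]
    refine Finset.sum_congr rfl fun x _ => ?_
    rw [Finset.sum_ite_eq, if_pos]
    exact Finset.mem_powerset.mpr (Finset.filter_subset _ _)
  let hv : V → Finset (Finset ι) := fun v => (T v).powerset.filter (fun I => 1 / (2 * y) ≤ pm v I)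
  let Z : V → ℝ := fun v => ∑ I ∈ hv v, pm v I
  have hZ : ∀ v, 1 / 2 ≤ Z v := by
    intro v
    have e1 := hfib v π
    rw [hπ1, ← Finset.sum_filter_add_sum_filter_not _ (fun I => 1 / (2 * y) ≤ pm v I)] at e1
    have e2 : ∑ I ∈ (T v).powerset.filter (fun I => ¬ 1 / (2 * y) ≤ pm v I), pm v I ≤
        ((T v).powerset.filter (fun I => ¬ 1 / (2 * y) ≤ pm v I)).card • (1 / (2 * y)) :=
      Finset.sum_le_card_nsmul _ _ _ fun I hI => (not_le.mp (Finset.mem_filter.mp hI).2).le
    have e3 : (((T v).powerset.filter (fun I => ¬ 1 / (2 * y) ≤ pm v I)).card : ℝ) ≤ y := by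
      refine le_trans ?_ hy2
      have := Finset.card_filter_le (T v).powerset (fun I => ¬ 1 / (2 * y) ≤ pm v I)
      rw [Finset.card_powerset] at this
      exact_mod_cast this.trans (Nat.pow_le_pow_right (by norm_num) (hT v))
    rw [nsmul_eq_mul] at e2
    have e4 := mul_le_mul_of_nonneg_right e3 (show 0 ≤ 1 / (2 * y) by positivity)
    have e5 : y * (1 / (2 * y)) = 1 / 2 := by field_simp
    simp only [Z, hv]
    simp only [pm] at e1 e2 e4 ⊢
    linarith
  let k1 : V → Finset ι → (ι → Bool) → ℝ := fun v I a =>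
    (∑ x, if pat v x = I then π x * (if (x.1 v).1 = a then 1 else 0) else 0) /
      (pm v I * wt (coin p) a)
  let k2 : V → Finset ι → (ι → Bool) → ℝ := fun v I a =>
    (∑ x, if pat v x = I then π x * (if (x.1 v).2 = a then 1 else 0) else 0) /
      (pm v I * wt (coin p) a)
  have hk1 : ∀ v I a, 0 ≤ k1 v I a := fun v I a =>
    div_nonneg (Finset.sum_nonneg fun x _ => by
      have := hπ0 x; split_ifs <;> positivity) (mul_nonneg (hpm0 v I) (hμ a).le)
  have hk2 : ∀ v I a, 0 ≤ k2 v I a := fun v I a =>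
    div_nonneg (Finset.sum_nonneg fun x _ => by
      have := hπ0 x; split_ifs <;> positivity) (mul_nonneg (hpm0 v I) (hμ a).le)
  have hk12 : ∀ v I a, k1 v I a + k2 v I a =
      (∑ x, if pat v x = I then π x * ind x v a else 0) / (pm v I * wt (coin p) a) := by
    intro v I a
    simp only [k1, k2, ind]
    rw [← add_div, ← Finset.sum_add_distrib]
    congr 1
    refine Finset.sum_congr rfl fun x _ => ?_
    split_ifs <;> ring
  have hpos : ∀ v, ∀ I ∈ hv v, 0 < pm v I := fun v I hI =>
    lt_of_lt_of_le (by positivity) (Finset.mem_filter.mp hI).2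
  have hΛ : ∀ v, ∀ I ∈ hv v, ∀ a, k1 v I a + k2 v I a ≤ 64 * y ^ 3 := by
    intro v I hI a
    rw [hk12, div_le_iff₀ (mul_pos (hpos v I hI) (hμ a))]
    have e1 : (∑ x, if pat v x = I then π x * ind x v a else 0) ≤ ∑ x, π x * ind x v a :=
      Finset.sum_le_sum fun x _ => by
        split_ifs; exacts [le_rfl, mul_nonneg (hπ0 x) (hind _ _ _)]
    refine e1.trans ((hown v a).trans ?_)
    have e2 := (Finset.mem_filter.mp hI).2
    have e3 := mul_le_mul_of_nonneg_left e2 (show 0 ≤ 64 * y ^ 3 * wt (coin p) a by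
      have := hμ a; positivity)
    have e4 : 64 * y ^ 3 * wt (coin p) a * (1 / (2 * y)) = 32 * y ^ 2 * wt (coin p) a := by
      field_simp; ring
    linarith
  have hE1 : ∀ v, ∀ I ∈ hv v, ∑ a, wt (coin p) a * k1 v I a = 1 := by
    intro v I hI
    have := hpos v I hI
    calc _ = ∑ a, (∑ x, if pat v x = I then π x * (if (x.1 v).1 = a then 1 else 0) else 0) /
          pm v I := Finset.sum_congr rfl fun a _ => by
            have := hμ a; simp only [k1]; field_simp
      _ = 1 := by
          rw [← Finset.sum_div, Finset.sum_comm, div_eq_one_iff_eq this.ne']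
          refine Finset.sum_congr rfl fun x _ => ?_
          split_ifs <;> simp
  have hE2 : ∀ v, ∀ I ∈ hv v, ∑ a, wt (coin p) a * k2 v I a = 1 := by
    intro v I hI
    have := hpos v I hI
    calc _ = ∑ a, (∑ x, if pat v x = I then π x * (if (x.1 v).2 = a then 1 else 0) else 0) /
          pm v I := Finset.sum_congr rfl fun a _ => by
            have := hμ a; simp only [k2]; field_simp
      _ = 1 := by
          rw [← Finset.sum_div, Finset.sum_comm, div_eq_one_iff_eq this.ne']
          refine Finset.sum_congr rfl fun x _ => ?_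
          split_ifs <;> simp
  have hΛ0 : 0 < 64 * y ^ 3 := by positivity
  have hexp : ∀ a, ∑ s ∈ Fintype.piFinset hv, (∏ v, pm v (s v) / Z v) *
      Real.exp ((∑ v, (k1 v (s v) a + k2 v (s v) a)) / (64 * y ^ 3)) ≤
        Real.exp (64 * N₀ / (64 * y ^ 3)) := by
    intro a
    simp_rw [Finset.sum_div, Real.exp_sum, ← Finset.prod_mul_distrib]
    rw [← Finset.prod_univ_sum hv (fun v I => pm v I / Z v *
      Real.exp ((k1 v I a + k2 v I a) / (64 * y ^ 3)))]
    calc _ ≤ ∏ v, Real.exp (4 * (∑ x, π x * ind x v a) / wt (coin p) a / (64 * y ^ 3)) := by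
          refine Finset.prod_le_prod (fun v _ => Finset.sum_nonneg fun I _ => mul_nonneg
            (div_nonneg (hpm0 v I) (by linarith [hZ v])) (Real.exp_pos _).le) fun v _ => ?_
          have z0 : 0 < Z v := by linarith [hZ v]
          calc _ ≤ ∑ I ∈ hv v, (pm v I / Z v + 4 * (∑ x, if pat v x = I then π x * ind x v a else 0)
                / wt (coin p) a / (64 * y ^ 3)) := by
                refine Finset.sum_le_sum fun I hI => ?_
                have u0 : 0 ≤ (k1 v I a + k2 v I a) / (64 * y ^ 3) :=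
                  div_nonneg (add_nonneg (hk1 _ _ _) (hk2 _ _ _)) hΛ0.le
                have u1 : (k1 v I a + k2 v I a) / (64 * y ^ 3) ≤ 1 :=
                  (div_le_one hΛ0).mpr (hΛ v I hI a)
                have u2 := Real.abs_exp_sub_one_le (x := (k1 v I a + k2 v I a) / (64 * y ^ 3))
                  (by rw [abs_of_nonneg u0]; exact u1)
                rw [abs_of_nonneg u0] at u2
                have u3 := (le_abs_self _).trans u2
                have u4 := mul_le_mul_of_nonneg_left u3 (div_nonneg (hpm0 v I) z0.le)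
                have u5 : pm v I / Z v * (2 * ((k1 v I a + k2 v I a) / (64 * y ^ 3))) ≤
                    4 * (∑ x, if pat v x = I then π x * ind x v a else 0)
                      / wt (coin p) a / (64 * y ^ 3) := by
                  rw [hk12]
                  have q0 : 0 ≤ (∑ x, if pat v x = I then π x * ind x v a else 0) :=
                    Finset.sum_nonneg fun x _ => by
                      split_ifs; exacts [mul_nonneg (hπ0 x) (hind _ _ _), le_rfl]
                  generalize (∑ x, if pat v x = I then π x * ind x v a else 0) = q at q0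
                  have := hpos v I hI
                  have := hμ a
                  have e : pm v I / Z v * (2 * (q / (pm v I * wt (coin p) a) / (64 * y ^ 3))) =
                      (2 / Z v) * (q / wt (coin p) a / (64 * y ^ 3)) := by field_simp
                  have e' : 4 * q / wt (coin p) a / (64 * y ^ 3) =
                      4 * (q / wt (coin p) a / (64 * y ^ 3)) := by ring
                  rw [e, e']
                  refine mul_le_mul_of_nonneg_right ?_ (by positivity)
                  rw [div_le_iff₀ z0]; linarith [hZ v]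
                linarith
            _ ≤ 4 * (∑ x, π x * ind x v a) / wt (coin p) a / (64 * y ^ 3) + 1 := by
                rw [Finset.sum_add_distrib, ← Finset.sum_div, div_self z0.ne', add_comm,
                  ← Finset.sum_div, ← Finset.sum_div, ← Finset.mul_sum, ← hfib v]
                have := hμ a
                gcongr
                · intro I _ _
                  exact Finset.sum_nonneg fun x _ => by
                    split_ifs; exacts [mul_nonneg (hπ0 x) (hind _ _ _), le_rfl]
                · exact Finset.filter_subset _ _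
            _ ≤ _ := Real.add_one_le_exp _
      _ ≤ _ := by
          rw [← Real.exp_sum, Real.exp_le_exp, ← Finset.sum_div, ← Finset.sum_div,
            ← Finset.mul_sum]
          refine div_le_div_of_nonneg_right ?_ hΛ0.le
          rw [div_le_iff₀ (hμ a)]
          linarith [htot a]
  have hW : ∑ s ∈ Fintype.piFinset hv, (∏ v, pm v (s v) / Z v) = 1 := by
    rw [← Finset.prod_univ_sum hv (fun v I => pm v I / Z v)]
    refine Finset.prod_eq_one fun v _ => ?_
    rw [← Finset.sum_div, div_self (by linarith [hZ v])]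
  obtain ⟨s, hs, hs'⟩ : ∃ s ∈ Fintype.piFinset hv, ∑ a, wt (coin p) a *
      Real.exp ((∑ v, (k1 v (s v) a + k2 v (s v) a)) / (64 * y ^ 3)) ≤
        Real.exp (64 * N₀ / (64 * y ^ 3)) := by
    by_contra hcon
    push Not at hcon
    have hWpos : ∀ s ∈ Fintype.piFinset hv, 0 < ∏ v, pm v (s v) / Z v := fun s hs =>
      Finset.prod_pos fun v _ => div_pos (hpos v _ (Fintype.mem_piFinset.mp hs v))
        (by linarith [hZ v])
    have hne : (Fintype.piFinset hv).Nonempty := by
      by_contra h
      rw [Finset.not_nonempty_iff_eq_empty] at h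
      rw [h] at hW; simp at hW
    have a1 := Finset.sum_lt_sum_of_nonempty hne fun s hs =>
      mul_lt_mul_of_pos_left (hcon s hs) (hWpos s hs)
    rw [← Finset.sum_mul, hW, one_mul] at a1
    simp_rw [Finset.mul_sum, mul_left_comm _ (wt (coin p) _)] at a1
    rw [Finset.sum_comm] at a1
    simp_rw [← Finset.mul_sum] at a1
    have a2 := Finset.sum_le_sum fun a (_ : a ∈ Finset.univ) =>
      mul_le_mul_of_nonneg_left (hexp a) (hμ a).le
    rw [← Finset.sum_mul, sum_wt (sum_coin p), one_mul] at a2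
    linarith
  have hs2 := fun v => Fintype.mem_piFinset.mp hs v
  let ok : (ι → Bool) → Prop := fun a => ∑ v, (k1 v (s v) a + k2 v (s v) a) ≤ 96 * N₀
  have hok : Pr (coin p) (fun a => ¬ ok a) ≤ 1 / (128 * y ^ 3) := by
    refine (Pr_le_of c0 _ (fun a => Real.exp (- (96 * N₀ / (64 * y ^ 3))) *
      Real.exp ((∑ v, (k1 v (s v) a + k2 v (s v) a)) / (64 * y ^ 3))) (fun a => by positivity)
      fun a ha => ?_).trans ?_
    · rw [← Real.exp_add]
      apply Real.one_le_exp
      have := div_le_div_of_nonneg_right (not_le.mp ha).le hΛ0.le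
      linarith
    · simp_rw [mul_left_comm _ (Real.exp (- (96 * N₀ / (64 * y ^ 3))))]
      rw [← Finset.mul_sum]
      refine (mul_le_mul_of_nonneg_left hs' (Real.exp_pos _).le).trans (le_trans (le_of_eq ?_) hbig)
      rw [← Real.exp_add]; congr 1; field_simp; ring
  have hN0 : 0 ≤ N₀ := le_trans (Nat.cast_nonneg _) hV
  have fin : ∀ (k : V → (ι → Bool) → ℝ) (J : V → Finset ι), (∀ v a, 0 ≤ k v a) →
      (∀ v a, k v a ≤ k1 v (s v) a + k2 v (s v) a) → (∀ v, ∑ a, wt (coin p) a * k v a = 1) →
      (∀ v a, 0 < k v a → ∀ x ∈ J v, a x = true) → Ker p J (64 * y ^ 3) (96 * N₀) := by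
    intro k J h0 h1 h2 h3
    have h4 : ∀ v a, k v a ≤ 64 * y ^ 3 := fun v a => (h1 v a).trans (hΛ v _ (hs2 v) a)
    refine ⟨fun v a => if ok a then k v a else 0, fun v a => ?_, fun v a => ?_, fun v => ?_,
      fun a => ?_, fun v a ha => ?_⟩
    · dsimp only; split_ifs; exacts [h0 v a, le_rfl]
    · dsimp only; split_ifs; exacts [h4 v a, hΛ0.le]
    · have e1 : ∑ a, wt (coin p) a * k v a ≤ ∑ a, (wt (coin p) a * (if ok a then k v a else 0) +
          64 * y ^ 3 * (wt (coin p) a * if ¬ ok a then 1 else 0)) := by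
        refine Finset.sum_le_sum fun a _ => ?_
        have := mul_le_mul_of_nonneg_left (h4 v a) (hμ a).le
        by_cases h : ok a <;> simp only [h, if_true, if_false, not_true, not_false_eq_true] <;>
          linarith
      rw [Finset.sum_add_distrib, ← Finset.mul_sum, h2] at e1
      have e2 := mul_le_mul_of_nonneg_left hok hΛ0.le
      have e3 : 64 * y ^ 3 * (1 / (128 * y ^ 3)) = 1 / 2 := by field_simp; norm_num
      have e4 : (∑ a, wt (coin p) a * if ¬ ok a then (1:ℝ) else 0) =
          Pr (coin p) (fun a => ¬ ok a) := by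
        unfold Pr
        exact Finset.sum_congr rfl fun a _ => by by_cases h : ok a <;> simp [h]
      rw [e4] at e1
      linarith
    · by_cases h : ok a
      · simp only [h, if_true]
        exact (Finset.sum_le_sum fun v _ => h1 v a).trans h
      · simp only [h, if_false, Finset.sum_const_zero]; positivity
    · apply h3 v a
      by_contra hc
      dsimp only at ha
      split_ifs at ha
      · exact hc ha
      · exact lt_irrefl _ ha
  refine ⟨s, fin (fun v => k1 v (s v)) _ (fun v a => hk1 _ _ _)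
    (fun v a => le_add_of_nonneg_right (hk2 _ _ _)) (fun v => hE1 v _ (hs2 v)) ?_,
    fin (fun v => k2 v (s v)) _ (fun v a => hk2 _ _ _)
    (fun v a => le_add_of_nonneg_left (hk1 _ _ _)) (fun v => hE2 v _ (hs2 v)) ?_⟩
  · intro v a ha i hi
    have : (∑ x, if pat v x = s v then π x * (if (x.1 v).1 = a then 1 else 0) else 0) ≠ 0 := by
      intro h; simp only [k1, h, zero_div] at ha; exact lt_irrefl _ ha
    obtain ⟨x, -, hx⟩ := Finset.exists_ne_zero_of_sum_ne_zero this
    have h1 : pat v x = s v := by by_contra h; simp [h] at hx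
    have h2 : (x.1 v).1 = a := by by_contra h; simp [h] at hx
    rw [← h1] at hi
    rw [← h2]; exact (Finset.mem_filter.mp hi).2
  · intro v a ha i hi
    have : (∑ x, if pat v x = s v then π x * (if (x.1 v).2 = a then 1 else 0) else 0) ≠ 0 := by
      intro h; simp only [k2, h, zero_div] at ha; exact lt_irrefl _ ha
    obtain ⟨x, -, hx⟩ := Finset.exists_ne_zero_of_sum_ne_zero this
    have h1 : pat v x = s v := by by_contra h; simp [h] at hx
    have h2 : (x.1 v).2 = a := by by_contra h; simp [h] at hx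
    rw [← h1, Finset.mem_sdiff] at hi
    rw [← h2]
    refine (x.2 v i hi.1).resolve_left fun h => hi.2 (Finset.mem_filter.mpr ⟨hi.1, h⟩)

end Crest.Agent.Lead
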