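import Crest.Agent.Lead.Stars
import Crest.Prelude.Def_CopyThreshold

set_option autoImplicit false

namespace Crest.Agent.Lead

open Finset Crest.CombinatoricsR.RandomGraph

variable {W : Type} [Fintype W] [DecidableEq W] {n : ℕ}

omit [DecidableEq W] in
/-- transfer from the row model to `G(n,p)` -/
theorem transfer {p : ℝ} (hp0 : 0 ≤ p) (hp1 : p ≤ 1) (hW : Fintype.card W ≤ n)
    (P : SimpleGraph W) (D : W → Finset W) (hP : ∀ x y, P.Adj x y → y ∈ D x ∨ x ∈ D y) :
    Pr (wt (coin p)) (fun ω : Fin n → Fin n → Bool => Emb D ω) ≤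
      gnpProb n p {G | P.IsContained G} := by
  classical
  let h : EdgeSlot n → Fin n × Fin n := fun e => (e.1.inf, e.1.sup)
  have hh : Function.Injective h := by
    intro e e' he
    simp only [h, Prod.mk.injEq] at he
    exact Subtype.ext (Sym2.inf_eq_inf_and_sup_eq_sup.mp he)
  let F : (EdgeSlot n → Bool) → ℝ := fun η => if P.IsContained (graphOf η) then 1 else 0
  have e1 : gnpProb n p {G | P.IsContained G} = ∑ η, wt (coin p) η * F η := by
    unfold gnpProb Crest.FinProb.bernoulliProb
    rw [Finset.sum_filter]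
    refine Finset.sum_congr rfl fun η _ => ?_
    simp only [F, Set.mem_setOf_eq, mul_ite, mul_one, mul_zero]
    congr
  rw [e1, ← sum_wt_comp (sum_coin p) h hh F]
  have e2 : ∑ ω : Fin n × Fin n → Bool, wt (coin p) ω * F (ω ∘ h) =
      ∑ ω : Fin n → Fin n → Bool, wt (wt (coin p)) ω * F (Function.uncurry ω ∘ h) := by
    symm
    refine Fintype.sum_equiv (Equiv.curry _ _ _).symm _ _ fun ω => ?_
    congr 1
    simp only [wt]
    rw [Fintype.prod_prod_type]; rfl
  rw [e2]
  refine Pr_le_of (row_nonneg hp0 hp1) _ _ (fun ω => by simp only [F]; split_ifs <;> norm_num) ?_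
  rintro ω ⟨U, ψ, hψ, hD⟩
  simp only [F]
  rw [if_pos]
  obtain ⟨ι⟩ : Nonempty (W ↪ Fin n) := Function.Embedding.nonempty_of_card_le (by simpa using hW)
  obtain ⟨σ, hσ⟩ := Equiv.Perm.exists_extending_pair (fun u : U => ι u) (fun u : U => ψ u)
    (ι.injective.comp Subtype.val_injective) (fun a b e => Subtype.ext (hψ a.2 b.2 e))
  have key : ∀ v, ∀ u ∈ D v, (graphOf (Function.uncurry ω ∘ h)).Adj (σ (ι v)) (σ (ι u)) := by
    intro v u hu
    obtain ⟨h1, h2, h3⟩ := hD v u hu
    rw [hσ ⟨v, h1⟩, hσ ⟨u, h2⟩]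
    simp only [graphOf, SimpleGraph.fromEdgeSet_adj, Set.mem_setOf_eq]
    have hne : ψ v ≠ ψ u := by
      rcases h3 with h3 | h3
      · exact h3.1.ne
      · exact h3.1.ne'
    refine ⟨⟨by simpa using hne, ?_⟩, hne⟩
    simp only [h, Function.comp, Function.uncurry, Sym2.inf_mk, Sym2.sup_mk]
    rcases h3 with h3 | h3
    · rw [inf_eq_left.mpr h3.1.le, sup_eq_right.mpr h3.1.le]; exact h3.2
    · rw [inf_eq_right.mpr h3.1.le, sup_eq_left.mpr h3.1.le]; exact h3.2
  refine SimpleGraph.isContained_iff_exists_le_comap.mpr ⟨ι.trans σ.toEmbedding, fun x y hxy => ?_⟩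
  rcases hP x y hxy with h1 | h1
  · exact key x y h1
  · exact (key y x h1).symm

def Small (H : SimpleGraph W) (n : ℕ) (r : ℝ) : Prop :=
  ∃ C : Finset (Finset (EdgeSlot n)),
    (∀ A : Finset (EdgeSlot n), H.IsContained (edgeGraph A) → ∃ S ∈ C, S ⊆ A) ∧
    ∑ S ∈ C, r ^ S.card ≤ 1 / 2

open Classical in
noncomputable def edgesOf (P : Finset (Fin n × Fin n)) : Finset (EdgeSlot n) :=
  Finset.univ.filter (fun e => ∃ z ∈ P, e.1 = s(z.1, z.2))

theorem card_edgesOf (P : Finset (Fin n × Fin n)) (h1 : ∀ z ∈ P, z.1 ≠ z.2)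
    (h2 : ∀ z ∈ P, z.swap ∉ P) : P.card ≤ (edgesOf P).card := by
  classical
  rw [← Finset.card_image_of_injective (edgesOf P) Subtype.val_injective]
  apply Finset.card_le_card_of_injOn (fun z => s(z.1, z.2))
  · intro z hz
    simp only [Finset.coe_image, Set.mem_image, Finset.mem_coe]
    refine ⟨⟨s(z.1, z.2), by simpa using h1 z hz⟩, ?_, rfl⟩
    simp only [edgesOf, Finset.mem_filter, Finset.mem_univ, true_and]
    exact ⟨z, hz, rfl⟩
  · intro z hz z' hz' e
    simp only [Sym2.eq_iff] at e
    rcases e with e | e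
    · exact Prod.ext e.1 e.2
    · exfalso
      apply h2 z hz
      have : z.swap = z' := Prod.ext e.2 e.1
      rw [this]; exact hz'

theorem card_edgesOf_two (P : Finset (Fin n × Fin n)) (h1 : ∀ z ∈ P, z.1 ≠ z.2) :
    P.card ≤ 2 * (edgesOf P).card := by
  classical
  have mono : ∀ Q ⊆ P, (edgesOf Q).card ≤ (edgesOf P).card := by
    intro Q hQ
    apply Finset.card_le_card
    intro e he
    simp only [edgesOf, Finset.mem_filter, Finset.mem_univ, true_and] at he ⊢
    obtain ⟨z, hz, e⟩ := he
    exact ⟨z, hQ hz, e⟩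
  have a1 := card_edgesOf (P.filter (fun z => z.1 < z.2))
    (fun z hz => h1 z (Finset.mem_filter.mp hz).1) (fun z hz hz' => by
      have := (Finset.mem_filter.mp hz).2; have := (Finset.mem_filter.mp hz').2
      simp only [Prod.fst_swap, Prod.snd_swap] at this; omega)
  have a2 := card_edgesOf (P.filter (fun z => ¬ z.1 < z.2))
    (fun z hz => h1 z (Finset.mem_filter.mp hz).1) (fun z hz hz' => by
      have := (Finset.mem_filter.mp hz).2; have := (Finset.mem_filter.mp hz').2
      have := h1 z (Finset.mem_filter.mp hz).1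
      simp only [Prod.fst_swap, Prod.snd_swap] at *; omega)
  have a3 := Finset.card_filter_add_card_filter_not (s := P) (fun z => z.1 < z.2)
  have := mono _ (Finset.filter_subset (fun z => z.1 < z.2) P)
  have := mono _ (Finset.filter_subset (fun z => ¬ z.1 < z.2) P)
  omega

omit [Fintype W] [DecidableEq W] in
theorem cover_card {H : SimpleGraph W} {r : ℝ} (hr : ¬ Small H n r) {X : Type*} (I : Finset X)
    (P : X → Finset (Fin n × Fin n)) (t : ℝ) (ht0 : 0 ≤ t)
    (ht : ∀ i ∈ I, r ^ (edgesOf (P i)).card ≤ t)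
    (hI : ∀ φ : W → Fin n, Function.Injective φ → ∃ i ∈ I, ∀ z ∈ P i,
      ∃ u v, H.Adj u v ∧ z = (φ u, φ v)) : 1 / 2 < I.card * t := by
  classical
  by_contra hcon
  apply hr
  refine ⟨I.image (fun i => edgesOf (P i)), fun A hA => ?_, ?_⟩
  · obtain ⟨φ, hφ⟩ := SimpleGraph.isContained_iff_exists_le_comap.mp hA
    obtain ⟨i, hi, h⟩ := hI φ φ.injective
    refine ⟨_, Finset.mem_image_of_mem _ hi, fun e he => ?_⟩
    simp only [edgesOf, Finset.mem_filter, Finset.mem_univ, true_and] at he
    obtain ⟨z, hz, he⟩ := he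
    obtain ⟨u, v, huv, rfl⟩ := h z hz
    have := hφ huv
    simp only [SimpleGraph.comap_adj, edgeGraph, SimpleGraph.fromEdgeSet_adj,
      Set.mem_setOf_eq] at this
    obtain ⟨⟨h1, h2⟩, -⟩ := this
    have : e = ⟨_, h1⟩ := Subtype.ext he
    rw [this]; exact h2
  · refine (Finset.sum_le_card_nsmul _ _ t fun S hS => ?_).trans ?_
    · obtain ⟨i, hi, rfl⟩ := Finset.mem_image.mp hS; exact ht i hi
    · rw [nsmul_eq_mul]
      refine le_trans (mul_le_mul_of_nonneg_right ?_ ht0) (not_lt.mp hcon)
      exact_mod_cast Finset.card_image_le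

omit [Fintype W] in
theorem low_degree {H : SimpleGraph W} [DecidableRel H.Adj] {r : ℝ} (hr : ¬ Small H n r)
    (hr0 : 0 ≤ r) (hr1 : r ≤ 1) (Δ : ℕ) (hΔ : 4 * n ^ 2 * r ^ (Δ + 1) ≤ 1) (U : Finset W)
    (hU : U.Nonempty) : ∃ v ∈ U, (U.filter (fun u => H.Adj v u)).card ≤ Δ := by
  classical
  by_contra hcon
  push Not at hcon
  let Q : Finset (U × U) := Finset.univ.filter (fun z => H.Adj z.1 z.2)
  have hQ : (Δ + 1) * U.card ≤ Q.card := by
    have := Finset.mul_card_image_le_card_of_maps_to (s := Q) (t := (Finset.univ : Finset U))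
      (f := Prod.fst) (fun _ _ => Finset.mem_univ _) (Δ + 1) (by
        intro v _
        refine (hcon v v.2).trans_le ?_
        rw [← Finset.card_image_of_injOn (s := Q.filter (fun z => z.1 = v)) (f := fun z => (z.2 : W))]
        · apply Finset.card_le_card
          intro u hu
          obtain ⟨h1, h2⟩ := Finset.mem_filter.mp hu
          exact Finset.mem_image.mpr ⟨(v, ⟨u, h1⟩), by simp [Q, h2], rfl⟩
        · intro z hz z' hz' e
          have a := (Finset.mem_filter.mp hz).2; have b := (Finset.mem_filter.mp hz').2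
          exact Prod.ext (a.trans b.symm) (Subtype.ext e))
    simpa using this
  have := cover_card hr (Finset.univ.filter (fun f : U → Fin n => Function.Injective f))
    (fun f => Q.image (fun z => (f z.1, f z.2))) (Real.sqrt (r ^ ((Δ + 1) * U.card)))
    (Real.sqrt_nonneg _) (by
      intro f hf
      have hf := (Finset.mem_filter.mp hf).2
      apply Real.le_sqrt_of_sq_le
      rw [← pow_mul]
      apply pow_le_pow_of_le_one hr0 hr1
      have a := card_edgesOf_two (Q.image (fun z => (f z.1, f z.2))) (by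
        intro z hz
        obtain ⟨w, hw, rfl⟩ := Finset.mem_image.mp hz
        intro e
        have := hf e
        have h2 := (Finset.mem_filter.mp hw).2
        rw [this] at h2; exact H.irrefl h2)
      rw [Finset.card_image_of_injective _ (fun z z' e => by
        simp only [Prod.mk.injEq] at e; exact Prod.ext (hf e.1) (hf e.2))] at a
      omega) (by
      intro φ hφ
      refine ⟨fun u => φ u, Finset.mem_filter.mpr ⟨Finset.mem_univ _, hφ.comp Subtype.val_injective⟩,
        fun z hz => ?_⟩
      obtain ⟨w, hw, rfl⟩ := Finset.mem_image.mp hz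
      exact ⟨_, _, (Finset.mem_filter.mp hw).2, rfl⟩)
  have c1 : ((Finset.univ.filter (fun f : U → Fin n => Function.Injective f)).card : ℝ) ≤
      n ^ U.card := by
    have := Finset.card_filter_le Finset.univ (fun f : U → Fin n => Function.Injective f)
    simp only [Finset.card_univ, Fintype.card_pi, Fintype.card_fin, Finset.prod_const,
      Fintype.card_coe] at this
    exact_mod_cast this
  have c2 := this.trans_le (mul_le_mul_of_nonneg_right c1 (Real.sqrt_nonneg _))
  have c3 := pow_lt_pow_left₀ c2 (by norm_num) two_ne_zero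
  rw [mul_pow, Real.sq_sqrt (by positivity), ← pow_mul, mul_comm U.card, pow_mul, pow_mul,
    ← mul_pow] at c3
  have c4 : ((n:ℝ) ^ 2 * r ^ (Δ + 1)) ^ U.card ≤ (1 / 4) ^ U.card :=
    pow_le_pow_left₀ (by positivity) (by linarith) _
  have c5 : (1 / 4 : ℝ) ^ U.card ≤ 1 / 4 :=
    pow_le_of_le_one (by norm_num) (by norm_num) hU.card_pos.ne'
  linarith

theorem choose_le_exp (n s : ℕ) (hs : 1 ≤ s) : (n.choose s : ℝ) ≤ (3 * n / s) ^ s := by
  refine (Nat.choose_le_pow_div s n).trans ?_
  have h5 := Real.pow_div_factorial_le_exp (x := (s : ℝ)) (Nat.cast_nonneg _) s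
  have h6 : Real.exp s ≤ 3 ^ s := by
    rw [← Real.exp_one_pow]
    exact pow_le_pow_left₀ (Real.exp_pos _).le (by have := Real.exp_one_lt_d9; linarith) _
  have hs' : (0:ℝ) < s := by exact_mod_cast hs
  have : (n:ℝ) ^ s / s.factorial = (s ^ s / s.factorial) * (n / s) ^ s := by
    rw [div_pow]; field_simp
  rw [this, mul_div_assoc, mul_pow]
  exact mul_le_mul_of_nonneg_right (h5.trans h6) (by positivity)

omit [Fintype W] in
theorem bip_cover {H : SimpleGraph W} {r : ℝ} (hr : ¬ Small H n r) (hr0 : 0 ≤ r) (hr1 : r ≤ 1)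
    (Y Ψ : Finset W) (hd : Disjoint Y Ψ) (hadj : ∀ u ∈ Y, ∀ v ∈ Ψ, H.Adj u v) :
    1 / 2 < (n.choose Y.card : ℝ) * n.choose Ψ.card * r ^ (Y.card * Ψ.card) := by
  classical
  have := cover_card hr (((Finset.univ.powersetCard Y.card) ×ˢ
    (Finset.univ.powersetCard Ψ.card)).filter (fun z : Finset (Fin n) × Finset (Fin n) =>
      Disjoint z.1 z.2)) (fun z => z.1 ×ˢ z.2) (r ^ (Y.card * Ψ.card)) (by positivity) (by
      intro z hz
      simp only [Finset.mem_filter, Finset.mem_product, Finset.mem_powersetCard] at hz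
      apply pow_le_pow_of_le_one hr0 hr1
      rw [← hz.1.1.2, ← hz.1.2.2, ← Finset.card_product]
      apply card_edgesOf
      · intro w hw e
        rw [Finset.mem_product] at hw
        exact Finset.disjoint_left.mp hz.2 hw.1 (e ▸ hw.2)
      · intro w hw hw'
        rw [Finset.mem_product] at hw hw'
        exact Finset.disjoint_left.mp hz.2 hw.1 hw'.2) (by
      intro φ hφ
      refine ⟨(Y.image φ, Ψ.image φ), ?_, fun z hz => ?_⟩
      · simp [Finset.card_image_of_injective _ hφ, Finset.disjoint_image hφ, hd]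
      · rw [Finset.mem_product] at hz
        obtain ⟨u, hu, e1⟩ := Finset.mem_image.mp hz.1
        obtain ⟨v, hv, e2⟩ := Finset.mem_image.mp hz.2
        exact ⟨u, v, hadj u hu v hv, Prod.ext e1.symm e2.symm⟩)
  refine this.trans_le (mul_le_mul_of_nonneg_right ?_ (by positivity))
  have c := Finset.card_filter_le ((Finset.univ.powersetCard Y.card) ×ˢ
    (Finset.univ.powersetCard Ψ.card)) (fun z : Finset (Fin n) × Finset (Fin n) => Disjoint z.1 z.2)
  simp only [Finset.card_product, Finset.card_powersetCard, Finset.card_univ,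
    Fintype.card_fin] at c
  exact_mod_cast c

omit [Fintype W] in
theorem star_cover {H : SimpleGraph W} {r : ℝ} (hr : ¬ Small H n r) (hr0 : 0 ≤ r) (hr1 : r ≤ 1)
    (Z : Finset W) (Lf : W → Finset W) (d : ℕ) (hd : 1 ≤ d) (hc : ∀ c ∈ Z, (Lf c).card = d)
    (hZ : ∀ c ∈ Z, ∀ v ∈ Lf c, v ∉ Z) (hadj : ∀ c ∈ Z, ∀ v ∈ Lf c, H.Adj c v) :
    (Z.card : ℝ) ≤ 6 * n * (3 * n * r / d) ^ d := by
  classical
  rcases Z.eq_empty_or_nonempty with hZ0 | hZ0
  · simp only [hZ0, Finset.card_empty, Nat.cast_zero]; positivity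
  let t : Finset (Fin n) → Fin n → Finset (Finset (Fin n)) := fun Z' x =>
    if x ∈ Z' then Finset.univ.powersetCard d else {∅}
  let I := ((Finset.univ.powersetCard Z.card).sigma (fun Z' => Fintype.piFinset (t Z'))).filter
    (fun z => ∀ x ∈ z.1, ∀ y ∈ z.2 x, y ∉ z.1)
  have := cover_card hr I (fun z => Finset.univ.filter (fun w => w.1 ∈ z.1 ∧ w.2 ∈ z.2 w.1))
    (r ^ (d * Z.card)) (by positivity) (by
      intro z hz
      simp only [I, Finset.mem_filter, Finset.mem_sigma, Finset.mem_powersetCard,
        Fintype.mem_piFinset] at hz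
      apply pow_le_pow_of_le_one hr0 hr1
      refine le_trans ?_ (card_edgesOf _ ?_ ?_)
      · rw [← hz.1.1.2]
        apply Finset.mul_card_image_le_card_of_maps_to (f := Prod.fst)
        · intro w hw; exact (Finset.mem_filter.mp hw).2.1
        · intro x hx
          have h2 := hz.1.2 x
          simp only [t, hx, if_true, Finset.mem_powersetCard] at h2
          rw [← h2.2]
          apply Finset.card_le_card_of_injOn (fun y => (x, y))
          · intro y hy; simpa [hx] using hy
          · intro y _ y' _ e; simpa using e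
      · intro w hw e
        have := (Finset.mem_filter.mp hw).2
        exact hz.2 _ this.1 _ this.2 (e ▸ this.1)
      · intro w hw hw'
        have a := (Finset.mem_filter.mp hw).2
        have b := (Finset.mem_filter.mp hw').2
        exact hz.2 _ a.1 _ a.2 b.1) (by
      intro φ hφ
      let f : Fin n → Finset (Fin n) := fun x =>
        if h : ∃ c ∈ Z, φ c = x then (Lf h.choose).image φ else ∅
      have hf : ∀ c ∈ Z, f (φ c) = (Lf c).image φ := by
        intro c hc
        have h : ∃ c' ∈ Z, φ c' = φ c := ⟨c, hc, rfl⟩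
        simp only [f]; rw [dif_pos h, hφ h.choose_spec.2]
      refine ⟨⟨Z.image φ, f⟩, ?_, fun z hz => ?_⟩
      · simp only [I, Finset.mem_filter, Finset.mem_sigma, Finset.mem_powersetCard,
          Fintype.mem_piFinset]
        refine ⟨⟨⟨Finset.subset_univ _, Finset.card_image_of_injective _ hφ⟩, fun x => ?_⟩, ?_⟩
        · simp only [t]
          split_ifs with hx
          · obtain ⟨c, hc', rfl⟩ := Finset.mem_image.mp hx
            rw [hf c hc', Finset.mem_powersetCard, Finset.card_image_of_injective _ hφ]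
            exact ⟨Finset.subset_univ _, hc c hc'⟩
          · simp only [f]; rw [dif_neg (by simpa using hx)]; simp
        · intro x hx y hy hy'
          obtain ⟨c, hc', rfl⟩ := Finset.mem_image.mp hx
          rw [hf c hc'] at hy
          obtain ⟨v, hv, rfl⟩ := Finset.mem_image.mp hy
          obtain ⟨c', hc'', e⟩ := Finset.mem_image.mp hy'
          exact hZ c hc' v hv (hφ e ▸ hc'')
      · obtain ⟨h1, h2⟩ := (Finset.mem_filter.mp hz).2
        obtain ⟨c, hc', e⟩ := Finset.mem_image.mp h1
        simp only at h2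
        rw [← e, hf c hc'] at h2
        obtain ⟨v, hv, e'⟩ := Finset.mem_image.mp h2
        exact ⟨c, v, hadj c hc' v hv, Prod.ext e.symm e'.symm⟩)
  have c1 : I.card ≤ n.choose Z.card * n.choose d ^ Z.card := by
    refine (Finset.card_filter_le _ _).trans (le_of_eq ?_)
    rw [Finset.card_sigma, Finset.sum_congr rfl (g := fun _ => n.choose d ^ Z.card)]
    · simp
    · intro Z' hZ'
      rw [Fintype.card_piFinset, ← (Finset.mem_powersetCard.mp hZ').2]
      simp only [t, apply_ite Finset.card, Finset.card_powersetCard, Finset.card_univ,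
        Fintype.card_fin, Finset.card_singleton]
      rw [Finset.prod_ite_mem]; simp
  have hz : (0:ℝ) < Z.card := by exact_mod_cast hZ0.card_pos
  have c2 : (I.card : ℝ) ≤ (3 * n / Z.card) ^ Z.card * ((3 * n / d) ^ d) ^ Z.card := by
    have c1' : (I.card : ℝ) ≤ n.choose Z.card * n.choose d ^ Z.card := by exact_mod_cast c1
    refine le_trans c1' ?_
    gcongr
    · exact choose_le_exp n _ hZ0.card_pos
    · exact choose_le_exp n d hd
  have c3 := this.trans_le (mul_le_mul_of_nonneg_right c2 (by positivity))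
  rw [pow_mul, ← mul_pow, ← mul_pow, mul_assoc, ← mul_pow] at c3
  have c4 : 1 / 2 < 3 * n / Z.card * (3 * n / d * r) ^ d := by
    by_contra h
    have := (pow_le_pow_left₀ (by positivity) (not_lt.mp h) Z.card).trans
      (pow_le_of_le_one (by norm_num) (by norm_num) hZ0.card_pos.ne')
    linarith
  rw [div_mul_eq_mul_div, div_mul_eq_mul_div, lt_div_iff₀ hz] at c4
  linarith

theorem degenerate (H : SimpleGraph W) [DecidableRel H.Adj] (Δ : ℕ)
    (h : ∀ U : Finset W, U.Nonempty → ∃ v ∈ U, (U.filter (fun u => H.Adj v u)).card ≤ Δ) :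
    ∃ B : W → Finset W, ∃ col : W → ℕ, (∀ v, (B v).card ≤ Δ) ∧ (∀ v, ∀ u ∈ B v, H.Adj v u) ∧
      (∀ v, col v ≤ Δ) ∧ ∀ u v, H.Adj u v → (u ∈ B v ∨ v ∈ B u) ∧ col u ≠ col v := by
  have : ∀ m, ∀ U : Finset W, U.card = m → ∃ B : W → Finset W, ∃ col : W → ℕ,
      (∀ v, (B v).card ≤ Δ) ∧ (∀ v, ∀ u ∈ B v, H.Adj v u) ∧ (∀ v, col v ≤ Δ) ∧
      ∀ u ∈ U, ∀ v ∈ U, H.Adj u v → (u ∈ B v ∨ v ∈ B u) ∧ col u ≠ col v := by
    intro m
    induction m with
    | zero =>
      intro U hU
      rw [Finset.card_eq_zero] at hU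
      exact ⟨fun _ => ∅, fun _ => 0, by simp, by simp, by simp, by simp [hU]⟩
    | succ m ih =>
      intro U hU
      obtain ⟨v, hv, hdeg⟩ := h U (Finset.card_pos.mp (by omega))
      obtain ⟨B, col, h1, h2, h3, h4⟩ := ih (U.erase v) (by rw [Finset.card_erase_of_mem hv]; omega)
      obtain ⟨c, hc, hc'⟩ := Finset.exists_mem_notMem_of_card_lt_card
        (s := (U.filter (fun u => H.Adj v u)).image col) (t := Finset.range (Δ + 1))
        (by have := Finset.card_image_le (s := U.filter (fun u => H.Adj v u)) (f := col)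
            simp only [Finset.card_range]; omega)
      refine ⟨Function.update B v (U.filter (fun u => H.Adj v u)), Function.update col v c,
        fun w => ?_, fun w u hu => ?_, fun w => ?_, ?_⟩
      · by_cases e : w = v
        · subst e; simpa using hdeg
        · rw [Function.update_of_ne e]; exact h1 w
      · by_cases e : w = v
        · subst e; rw [Function.update_self] at hu; exact (Finset.mem_filter.mp hu).2
        · rw [Function.update_of_ne e] at hu; exact h2 w u hu
      · by_cases e : w = v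
        · subst e; rw [Function.update_self]; have := Finset.mem_range.mp hc; omega
        · rw [Function.update_of_ne e]; exact h3 w
      · have key : ∀ u ∈ U, H.Adj v u → u ∈ Function.update B v (U.filter (fun u => H.Adj v u)) v ∧
            Function.update col v c u ≠ Function.update col v c v := by
          intro u hu huv
          rw [Function.update_self, Function.update_self, Function.update_of_ne huv.ne']
          have := Finset.mem_filter.mpr (show u ∈ U ∧ H.Adj v u from ⟨hu, huv⟩)
          exact ⟨this, fun e => hc' (e ▸ Finset.mem_image_of_mem col this)⟩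
        intro a ha b hb hab
        by_cases e1 : a = v
        · subst e1
          exact ⟨Or.inr (key b hb hab).1, (key b hb hab).2.symm⟩
        · by_cases e2 : b = v
          · subst e2
            exact ⟨Or.inl (key a ha hab.symm).1, (key a ha hab.symm).2⟩
          · simp only [Function.update_of_ne e1, Function.update_of_ne e2]
            exact h4 a (Finset.mem_erase.mpr ⟨e1, ha⟩) b (Finset.mem_erase.mpr ⟨e2, hb⟩) hab
  obtain ⟨B, col, h1, h2, h3, h4⟩ := this _ Finset.univ rfl
  exact ⟨B, col, h1, h2, h3, fun u v => h4 u (Finset.mem_univ _) v (Finset.mem_univ _)⟩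

theorem split_classes {α : Type*} [DecidableEq α] (s : Finset α) (j k : ℕ) (hk : 0 < k)
    (h : s.card ≤ j * k) :
    ∃ f : α → Fin k, ∀ b, (s.filter (fun x => f x = b)).card ≤ j := by
  obtain ⟨e⟩ : Nonempty (s ↪ Fin j × Fin k) :=
    Function.Embedding.nonempty_of_card_le (by simpa using h)
  refine ⟨fun x => if h : x ∈ s then (e ⟨x, h⟩).2 else ⟨0, hk⟩, fun b => ?_⟩
  have : ((Finset.univ : Finset (Fin j)).card) = j := by simp
  conv_rhs => rw [← this]
  rw [← Finset.card_attach]
  apply Finset.card_le_card_of_injOn (fun x => (e ⟨x.1, (Finset.mem_filter.mp x.2).1⟩).1)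
  · intro x _; simp
  · intro x _ y _ hxy
    have a := (Finset.mem_filter.mp x.2); have b := (Finset.mem_filter.mp y.2)
    have a2 := a.2; have b2 := b.2
    simp only [a.1, b.1, dif_pos] at a2 b2
    have := e.injective (Prod.ext hxy (a2.trans b2.symm))
    exact Subtype.ext (by simpa using this)

end Crest.Agent.Lead
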