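import Crest.Agent.Lead.Cover

set_option autoImplicit false

namespace Crest.Agent.Lead

open Finset Crest.CombinatoricsR.RandomGraph

variable {W : Type} [Fintype W] [DecidableEq W] {n : ℕ}

omit [Fintype W] [DecidableEq W] in
theorem codeg {H : SimpleGraph W} {r z : ℝ} (hr0 : 0 < r) (hr1 : r ≤ 1) (hr : ¬ Small H n r)
    (hz : 100 ≤ z) (hzn : z ^ 20 = 2 * n) (j : ℕ) (hj : (j : ℝ) ≤ 40 * z) (hy : (1 / r) ^ j ≤ z)
    (Y Ψ : Finset W) (hY : Y.card ≤ j) (hd : Disjoint Y Ψ)
    (hadj : ∀ u ∈ Y, ∀ v ∈ Ψ, H.Adj u v) : (Ψ.card : ℝ) ≤ 6 * n * r ^ Y.card := by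
  classical
  by_contra hcon
  push Not at hcon
  have hz0 : 0 < z := by linarith
  have hn0 : (0:ℝ) < n := by have : 0 < z ^ 20 := by positivity
                             linarith
  have h1 : 1 ≤ z * r ^ Y.card := by
    have a := mul_le_mul_of_nonneg_right hy (pow_pos hr0 j).le
    rw [← mul_pow, one_div_mul_cancel hr0.ne', one_pow] at a
    exact a.trans (mul_le_mul_of_nonneg_left (pow_le_pow_of_le_one hr0.le hr1 hY) hz0.le)
  have h2 : 3 * z ^ 19 ≤ Ψ.card := by
    have : 3 * z ^ 19 * 1 ≤ 3 * z ^ 19 * (z * r ^ Y.card) :=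
      mul_le_mul_of_nonneg_left h1 (by positivity)
    have e : 3 * z ^ 19 * (z * r ^ Y.card) = 6 * n * r ^ Y.card := by
      have : (6:ℝ) * n = 3 * z ^ 20 := by linarith
      rw [this]; ring
    linarith
  have hs0 : (0:ℝ) < Ψ.card := lt_of_lt_of_le (by positivity) h2
  have hs1 : 1 ≤ Ψ.card := by exact_mod_cast hs0
  have h3 := bip_cover hr hr0.le hr1 Y Ψ hd hadj
  have h4 : (n.choose Ψ.card : ℝ) * r ^ (Y.card * Ψ.card) ≤ (1 / 2) ^ Ψ.card := by
    refine (mul_le_mul_of_nonneg_right (choose_le_exp n _ hs1) (by positivity)).trans ?_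
    rw [pow_mul, ← mul_pow]
    apply pow_le_pow_left₀ (by positivity)
    rw [div_mul_eq_mul_div, div_le_iff₀ hs0]; linarith
  have h5 : (n.choose Y.card : ℝ) ≤ Real.exp (800 * z ^ 2) := by
    have a1 : (n.choose Y.card : ℝ) ≤ n ^ Y.card := by exact_mod_cast Nat.choose_le_pow n Y.card
    have a2 : (n:ℝ) ≤ Real.exp (20 * z) := by
      have : z ≤ Real.exp z := by have := Real.add_one_le_exp z; linarith
      have := pow_le_pow_left₀ hz0.le this 20
      rw [← Real.exp_nat_mul] at this
      push_cast at this; linarith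
    refine a1.trans ((pow_le_pow_left₀ hn0.le a2 _).trans ?_)
    rw [← Real.exp_nat_mul, Real.exp_le_exp]
    have : (Y.card : ℝ) ≤ j := by exact_mod_cast hY
    nlinarith
  have h6 : (1 / 2 : ℝ) ^ Ψ.card ≤ Real.exp (- (Ψ.card / 2)) := by
    have : (1 / 2 : ℝ) ≤ Real.exp (- (1 / 2)) := by
      have := Real.add_one_le_exp (- (1 / 2 : ℝ)); linarith
    refine (pow_le_pow_left₀ (by norm_num) this _).trans (le_of_eq ?_)
    rw [← Real.exp_nat_mul]; congr 1; ring
  have h7 : (n.choose Y.card : ℝ) * n.choose Ψ.card * r ^ (Y.card * Ψ.card) ≤ Real.exp (-1) := by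
    rw [mul_assoc]
    refine (mul_le_mul h5 (h4.trans h6) (by positivity) (by positivity)).trans ?_
    rw [← Real.exp_add, Real.exp_le_exp]
    have a : z ^ 19 = z ^ 2 * z ^ 17 := by ring
    have b : (100:ℝ) ^ 17 ≤ z ^ 17 := pow_le_pow_left₀ (by norm_num) hz _
    have c : (100:ℝ) ^ 2 ≤ z ^ 2 := pow_le_pow_left₀ (by norm_num) hz _
    nlinarith
  have h8 : Real.exp (-1) ≤ 1 / 2 := by
    rw [Real.exp_neg, inv_le_comm₀ (Real.exp_pos _) (by norm_num)]
    have := Real.add_one_le_exp 1; linarith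
  linarith

theorem exp_neg_le (x : ℝ) (hx : 0 < x) : Real.exp (-x) ≤ 2 / x ^ 2 := by
  rw [Real.exp_neg, inv_le_comm₀ (Real.exp_pos _) (by positivity), inv_div]
  have := Real.quadratic_le_exp_of_nonneg hx.le
  linarith

set_option maxHeartbeats 1000000 in
theorem dense {H : SimpleGraph W} (hW : Fintype.card W ≤ n) (hn : 10 ^ 40 ≤ n) {r p : ℝ}
    (hr0 : 0 < r) (hp : p = 10 ^ 8 * r) (hp1 : p ≤ 1 / 2) (hr : ¬ Small H n r) (Δ : ℕ)
    (hΔ : 80 ≤ Δ) (hΔ' : 1 ≤ 4 * n ^ 2 * r ^ Δ) (B : W → Finset W) (col : W → ℕ)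
    (hB : ∀ v, (B v).card ≤ Δ) (hBA : ∀ v, ∀ u ∈ B v, H.Adj v u) (hcol : ∀ v, col v ≤ Δ)
    (hcol' : ∀ u v, H.Adj u v → col u ≠ col v) :
    ∃ lab : W → W → Fin 3200 × Fin 3200 × Fin 80 × Bool × Fin 3, ∀ i,
      1 / 2 ≤ Pr (wt (coin p)) (fun ω : Fin n → Fin n → Bool =>
        Emb (fun v => (B v).filter (fun u => lab v u = i)) ω) := by
  classical
  have hp0 : 0 < p := by rw [hp]; positivity
  have hn' : (10:ℝ) ^ 40 ≤ n := by exact_mod_cast hn
  obtain ⟨z, hz0, hzn⟩ : ∃ z : ℝ, 0 ≤ z ∧ z ^ 20 = 2 * n :=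
    ⟨(2 * n) ^ ((20:ℕ):ℝ)⁻¹, by positivity, Real.rpow_inv_natCast_pow (by positivity) (by norm_num)⟩
  have hz : 100 ≤ z := by
    by_contra h
    have := pow_lt_pow_left₀ (not_le.mp h) hz0 (show 20 ≠ 0 by norm_num)
    have e : (100:ℝ) ^ 20 = 10 ^ 40 := by norm_num
    linarith
  have hzp : 0 < z := by linarith
  have hzk : ∀ k : ℕ, (100:ℝ) ^ k ≤ z ^ k := fun k => pow_le_pow_left₀ (by norm_num) hz k
  have hr1 : r ≤ 1 / 3 := by linarith
  have hΔz : (1 / r) ^ Δ ≤ z ^ 40 := by
    have : z ^ 40 = 4 * n ^ 2 := by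
      have : z ^ 40 = (z ^ 20) ^ 2 := by ring
      rw [this, hzn]; ring
    rw [this, one_div_pow, div_le_iff₀ (by positivity)]; exact hΔ'
  have hinv : 3 ≤ 1 / r := by rw [le_div_iff₀ hr0]; linarith
  have hΔ40 : (Δ : ℝ) ≤ 40 * z := by
    have a1 : Real.exp Δ ≤ (1 / r) ^ Δ := by
      rw [← Real.exp_one_pow]
      exact pow_le_pow_left₀ (Real.exp_pos _).le (by have := Real.exp_one_lt_d9; linarith) _
    have a2 : z ≤ Real.exp z := by have := Real.add_one_le_exp z; linarith
    have a3 := pow_le_pow_left₀ hz0 a2 40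
    rw [← Real.exp_nat_mul] at a3
    have := Real.exp_le_exp.mp (a1.trans (hΔz.trans a3))
    exact_mod_cast this
  obtain ⟨j, hj⟩ : ∃ j, j = Δ / 80 + 1 := ⟨_, rfl⟩
  have hj40 : (j : ℝ) ≤ 40 * z := le_trans (by exact_mod_cast (show j ≤ Δ by omega)) hΔ40
  have hyr : (1 / r) ^ j ≤ z := by
    refine le_of_pow_le_pow_left₀ (show 40 ≠ 0 by norm_num) hz0 (le_trans ?_ hΔz)
    rw [← pow_mul]
    exact pow_le_pow_right₀ (by linarith) (by omega)
  have hyp : (1 / p) ^ j ≤ z := by
    refine le_trans (pow_le_pow_left₀ (by positivity) ?_ _) hyr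
    exact one_div_le_one_div_of_le hr0 (by linarith)
  obtain ⟨κ, hκ⟩ := split_classes (Finset.univ : Finset W) (n / 3200 + 1) 3200 (by norm_num)
    (by rw [Finset.card_univ]; omega)
  have hκ' : ∀ a, ((Finset.univ.filter (fun x => κ x = a)).card : ℝ) ≤ n / 3200 + 1 := by
    intro a
    have h2 : ((n / 3200 : ℕ) : ℝ) ≤ n / 3200 := Nat.cast_div_le
    have h3 : ((Finset.univ.filter (fun x => κ x = a)).card : ℝ) ≤ (n / 3200 : ℕ) + 1 := by
      exact_mod_cast hκ a
    linarith
  choose idx hidx using fun v => split_classes (B v) j 80 (by norm_num) (by have := hB v; omega)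
  let M : Finset W := Finset.univ.filter
    (fun u => z ^ 10 ≤ ((Finset.univ.filter (fun v => u ∈ B v)).card : ℝ))
  have hM : (M.card : ℝ) ≤ 20 * z ^ 11 := by
    have a1 : M.card • z ^ 10 ≤ ∑ u ∈ M, ((Finset.univ.filter (fun v => u ∈ B v)).card : ℝ) :=
      Finset.card_nsmul_le_sum _ _ _ fun u hu => (Finset.mem_filter.mp hu).2
    have a2 : ∑ u ∈ M, ((Finset.univ.filter (fun v => u ∈ B v)).card : ℝ) ≤
        ∑ u, ((Finset.univ.filter (fun v => u ∈ B v)).card : ℝ) :=
      Finset.sum_le_sum_of_subset_of_nonneg (Finset.subset_univ _) fun _ _ _ => Nat.cast_nonneg _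
    have a3 : ∑ u, ((Finset.univ.filter (fun v => u ∈ B v)).card : ℝ) = ∑ v, ((B v).card : ℝ) := by
      simp_rw [← Finset.sum_boole]
      rw [Finset.sum_comm]
      simp
    have a4 : ∑ v, ((B v).card : ℝ) ≤ (Finset.univ : Finset W).card • (40 * z) :=
      Finset.sum_le_card_nsmul _ _ _ fun v _ => le_trans (by exact_mod_cast hB v) hΔ40
    rw [nsmul_eq_mul] at a1 a4
    have a5 : ((Finset.univ : Finset W).card : ℝ) ≤ n := by exact_mod_cast hW
    have a6 := mul_le_mul_of_nonneg_right a5 (show 0 ≤ 40 * z by positivity)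
    have a7 : n * (40 * z) = 20 * z ^ 11 * z ^ 10 := by
      have : (n:ℝ) = z ^ 20 / 2 := by linarith
      rw [this]; ring
    exact le_of_mul_le_mul_right (by linarith) (show 0 < z ^ 10 by positivity)
  have hN1 : (n:ℝ) / 2 - 1 ≤ (n / 2 : ℕ) := by
    have : n ≤ 2 * (n / 2 + 1) := by omega
    have : (n:ℝ) ≤ 2 * ((n / 2 : ℕ) + 1) := by exact_mod_cast this
    linarith
  obtain ⟨φ, hφ, hφN⟩ : ∃ φ : W → Fin n, Set.InjOn φ M ∧ ∀ u ∈ M, n / 2 ≤ (φ u : ℕ) := by
    obtain ⟨e, he⟩ := Function.Embedding.exists_of_card_le_finset (α := M)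
      (s := Finset.univ.filter (fun x : Fin n => n / 2 ≤ (x : ℕ))) (by
        have e2 := Finset.card_filter_add_card_filter_not (s := (Finset.univ : Finset (Fin n)))
          (fun x : Fin n => (x : ℕ) < n / 2)
        rw [Fin.card_filter_val_lt] at e2
        simp only [not_lt, Finset.card_univ, Fintype.card_fin] at e2
        have : (M.card : ℝ) ≤ (n / 2 : ℕ) := by
          have a : z ^ 20 = z ^ 11 * z ^ 9 := by ring
          have := hzk 9; have := hzk 11
          nlinarith
        have : M.card ≤ n / 2 := by exact_mod_cast this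
        simp only [Fintype.card_coe]; omega)
    refine ⟨fun u => if h : u ∈ M then e ⟨u, h⟩ else ⟨0, by omega⟩, fun a ha b hb h => ?_,
      fun u hu => ?_⟩
    · simp only [Finset.mem_coe.mp ha, Finset.mem_coe.mp hb, dif_pos] at h
      exact congrArg Subtype.val (e.injective h)
    · simp only [hu, dif_pos]
      simpa using he ⟨⟨u, hu⟩, rfl⟩
  let V : Fin 3200 → Finset W := fun a => Finset.univ.filter (fun v => κ v = a ∧ v ∉ M)
  have hV : ∀ a, ((V a).card : ℝ) ≤ n / 1600 := by
    intro a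
    have : (V a).card ≤ (Finset.univ.filter (fun x => κ x = a)).card :=
      Finset.card_le_card fun v hv => by simpa using (Finset.mem_filter.mp hv).2.1
    have : ((V a).card : ℝ) ≤ (Finset.univ.filter (fun x => κ x = a)).card := by exact_mod_cast this
    have := hκ' a
    linarith
  let T : (a : Fin 3200) → Fin 80 → V a → Finset (Fin n) := fun a b v =>
    (((B v).filter (fun u => idx v u = b)).filter (fun u => u ∈ M)).image φ
  have hT : ∀ a b v, (T a b v).card ≤ j := fun a b v =>
    Finset.card_image_le.trans ((Finset.card_filter_le _ _).trans (hidx v b))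
  choose I hI1 hI2 using fun a b => couple hp0 hp1 (T a b) j z (n / 1600) (hT a b) hyp
    (by simpa using hV a) (by
      intro Y hY
      rcases (Finset.univ.filter (fun v => Y ⊆ T a b v)).eq_empty_or_nonempty with h | ⟨v₀, hv₀⟩
      · rw [h]; simp only [Finset.card_empty, Nat.cast_zero]; positivity
      have hv₀ := (Finset.mem_filter.mp hv₀).2
      let Y' := M.filter (fun u => φ u ∈ Y)
      have c1 : Y'.card = Y.card := by
        rw [← Finset.card_image_of_injOn (f := φ) (hφ.mono (Finset.filter_subset _ _))]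
        congr 1
        ext x
        simp only [Finset.mem_image, Y', Finset.mem_filter]
        constructor
        · rintro ⟨u, hu, rfl⟩; exact hu.2
        · intro hx
          obtain ⟨u, hu, rfl⟩ := Finset.mem_image.mp (hv₀ hx)
          exact ⟨u, ⟨(Finset.mem_filter.mp hu).2, hx⟩, rfl⟩
      have := codeg hr0 (by linarith) hr hz hzn j hj40 hyr Y'
        ((Finset.univ.filter (fun v => Y ⊆ T a b v)).map (Function.Embedding.subtype _))
        (by rw [c1]; exact (Finset.card_le_card hv₀).trans (hT a b v₀))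
        (by
          rw [Finset.disjoint_left]
          intro u hu hu'
          obtain ⟨v, -, rfl⟩ := Finset.mem_map.mp hu'
          exact (Finset.mem_filter.mp v.2).2.2 (Finset.mem_filter.mp hu).1)
        (by
          intro u hu v hv
          obtain ⟨w, hw, rfl⟩ := Finset.mem_map.mp hv
          obtain ⟨h1, h2⟩ := Finset.mem_filter.mp hu
          obtain ⟨u', hu', e⟩ := Finset.mem_image.mp ((Finset.mem_filter.mp hw).2 h2)
          obtain ⟨h3, h4⟩ := Finset.mem_filter.mp hu'
          rw [← hφ h4 h1 e]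
          exact (hBA _ _ (Finset.mem_filter.mp h3).1).symm)
      rw [Finset.card_map, c1] at this
      refine this.trans ?_
      have c2 : (10:ℝ) ^ 8 ≤ (10 ^ 8) ^ Y.card :=
        le_self_pow₀ (by norm_num) (by simpa using hY)
      rw [hp, mul_pow]
      have c3 : 0 ≤ n * r ^ Y.card := by positivity
      have c4 := mul_le_mul_of_nonneg_right c2 c3
      generalize ((10:ℝ) ^ 8) ^ Y.card = Q at c4 ⊢
      generalize r ^ Y.card = R at c3 c4 ⊢
      linarith)
    (by
      have e : (n:ℝ) / 1600 / (2 * z ^ 3) = z ^ 17 / 6400 := by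
        have : (n:ℝ) = z ^ 20 / 2 := by linarith
        rw [this]; field_simp; norm_num
      rw [e]
      refine (exp_neg_le _ (by positivity)).trans ?_
      rw [div_le_div_iff₀ (by positivity) (by positivity)]
      have a : (z ^ 17 / 6400) ^ 2 = z ^ 3 * z ^ 31 / 6400 ^ 2 := by ring
      have := hzk 31; have := hzk 3
      rw [a]; nlinarith)
  let ty : W → W → Fin 3 := fun v u => if h : v ∈ V (κ v) ∧ u ∈ M then
    (if φ u ∈ I (κ v) (idx v u) ⟨v, h.1⟩ then 1 else 2) else 0
  refine ⟨fun v u => (κ v, κ u, idx v u, decide (col u < col v), ty v u), ?_⟩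
  rintro ⟨a, a', b, dir, t⟩
  set D : W → Finset W := fun v => (B v).filter (fun u =>
    (κ v, κ u, idx v u, decide (col u < col v), ty v u) = (a, a', b, dir, t)) with hD
  have hDm : ∀ v u, u ∈ D v → u ∈ B v ∧ κ v = a ∧ κ u = a' ∧ idx v u = b ∧
      decide (col u < col v) = dir ∧ ty v u = t := by
    intro v u h; simpa [hD] using h
  clear_value D
  by_cases ht : t = 0
  · refine piece_B hp0 (by linarith) (by omega)
      (Finset.univ.filter (fun x => κ x = a) ∪ Finset.univ.filter (fun x => κ x = a')) D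
      (fun v u hu => ⟨by simp [(hDm v u hu).2.1], by simp [(hDm v u hu).2.2.1]⟩)
      (fun v => if dir then col v else Δ - col v) (Δ + 1)
      (fun v => by have := hcol v; split_ifs <;> omega)
      (fun v u hu => ?_) j (fun v => le_trans (Finset.card_le_card fun u hu =>
        Finset.mem_filter.mpr ⟨(hDm v u hu).1, (hDm v u hu).2.2.2.1⟩) (hidx v b)) z (20 * z ^ 11)
      hyp (fun u => ?_) ?_
    · have h1 := (hDm v u hu).2.2.2.2.1
      have h2 := hcol' v u (hBA v u (hDm v u hu).1)
      have := hcol v; have := hcol u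
      cases dir <;> simp at h1 ⊢ <;> omega
    · by_cases huM : u ∈ M
      · refine le_trans (Nat.cast_le.mpr (Finset.card_le_card fun v hv => ?_)) hM
        have h1 := (hDm v u (Finset.mem_filter.mp hv).2).2.2.2.2.2
        by_contra hvM
        have h2 : v ∈ V (κ v) ∧ u ∈ M := ⟨by simp [V, hvM], huM⟩
        simp only [ty] at h1
        rw [dif_pos h2, ht] at h1
        split_ifs at h1 <;> exact absurd h1 (by decide)
      · have h1 : ((Finset.univ.filter (fun v => u ∈ B v)).card : ℝ) < z ^ 10 := by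
          simpa [M] using huM
        refine le_trans (Nat.cast_le.mpr (Finset.card_le_card fun v hv => ?_)) (h1.le.trans ?_)
        · simpa using (hDm v u (Finset.mem_filter.mp hv).2).1
        · have a : z ^ 11 = z ^ 10 * z := by ring
          have := hzk 10
          nlinarith
    · have c1 : ((Finset.univ.filter (fun x => κ x = a) ∪
          Finset.univ.filter (fun x => κ x = a')).card : ℝ) ≤ 2 * (n / 3200 + 1) := by
        have : ((Finset.univ.filter (fun x => κ x = a) ∪
          Finset.univ.filter (fun x => κ x = a')).card : ℝ) ≤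
          (Finset.univ.filter (fun x => κ x = a)).card +
            (Finset.univ.filter (fun x => κ x = a')).card := by
          exact_mod_cast Finset.card_union_le _ _
        linarith [hκ' a, hκ' a']
      have c2 : ((Δ + 1 : ℕ) : ℝ) * (z * (j * (20 * z ^ 11) * z + 1)) ≤
          (41 * z) * (z * (40 * z * (20 * z ^ 11) * z + z ^ 13)) := by
        have := hzk 13
        push_cast
        gcongr
        · linarith
        · linarith
      have c3 : (41 * z) * (z * (40 * z * (20 * z ^ 11) * z + z ^ 13)) = 32841 * z ^ 15 := by ring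
      have c4 : z ^ 20 = z ^ 15 * z ^ 5 := by ring
      have := hzk 5; have := hzk 15
      nlinarith
  · have hDC : ∀ v u, u ∈ D v → ∃ h : v ∈ V a, u ∈ M ∧ φ u ∈ T a b ⟨v, h⟩ ∧
        (if φ u ∈ I a b ⟨v, h⟩ then 1 else 2) = t := by
      intro v u hu
      obtain ⟨h1, rfl, -, rfl, -, h2⟩ := hDm v u hu
      simp only [ty] at h2
      by_cases h : v ∈ V (κ v) ∧ u ∈ M
      · rw [dif_pos h] at h2
        exact ⟨h.1, h.2, Finset.mem_image_of_mem _ (by simp [h1, h.2]), h2⟩
      · rw [dif_neg h] at h2; exact absurd h2.symm ht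
    have fin : ∀ J : V a → Finset (Fin n), (∀ v : V a, ∀ u ∈ D v, φ u ∈ J v) →
        Ker p J (64 * z ^ 3) (96 * (n / 1600)) →
        1 / 2 ≤ Pr (wt (coin p)) (fun ω : Fin n → Fin n → Bool => Emb D ω) := by
      intro J hJ hK
      refine piece_C hp0.le (by linarith) (n / 2) (by omega) (by omega) M (V a) ?_ φ hφ hφN D
        (fun v u hu => by obtain ⟨h, h', -⟩ := hDC v u hu; exact ⟨h, h'⟩) J hJ _ _
        (by positivity) hK (by linarith) ?_
      · rw [Finset.disjoint_left]
        intro u hu hu'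
        exact (Finset.mem_filter.mp hu').2.2 hu
      · have e : z ^ 17 / 4096 ≤ (n / 2 : ℕ) / (8 * (64 * z ^ 3)) := by
          rw [div_le_div_iff₀ (by positivity) (by positivity)]
          have : z ^ 17 * (8 * (64 * z ^ 3)) = 512 * z ^ 20 := by ring
          linarith
        have e2 := (Real.exp_le_exp.mpr (neg_le_neg e)).trans (exp_neg_le _ (by positivity))
        refine (mul_le_mul (hV a) e2 (by positivity) (by positivity)).trans ?_
        rw [← mul_div_assoc, div_le_iff₀ (by positivity)]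
        have a : (z ^ 17 / 4096) ^ 2 = z ^ 20 * z ^ 14 / 4096 ^ 2 := by ring
        have := hzk 14
        rw [a, hzn]; nlinarith
    by_cases ht1 : t = 1
    · refine fin _ (fun v u hu => ?_) (hI1 a b)
      obtain ⟨h, -, -, h2⟩ := hDC v u hu
      by_contra hc
      rw [if_neg hc, ht1] at h2; exact absurd h2 (by decide)
    · refine fin _ (fun v u hu => ?_) (hI2 a b)
      obtain ⟨h, -, h1, h2⟩ := hDC v u hu
      refine Finset.mem_sdiff.mpr ⟨h1, fun hc => ?_⟩
      rw [if_pos hc] at h2; exact ht1 h2.symm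

end Crest.Agent.Lead
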