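import Crest.Agent.Lead.Sparse
import Crest.Agent.Lead.Dense

set_option autoImplicit false

namespace Crest.Agent.Lead

open Finset Crest.CombinatoricsR.RandomGraph

variable {W : Type} [Fintype W] [DecidableEq W] {n : ℕ}

omit [Fintype W] [DecidableEq W] in
theorem Emb_mono {D D' : W → Finset W} (h : ∀ v, D' v ⊆ D v) {ω : Fin n → Fin n → Bool}
    (hD : Emb D ω) : Emb D' ω := by
  obtain ⟨U, ψ, h1, h2⟩ := hD
  exact ⟨U, ψ, h1, fun v u hu => h2 v u (h v hu)⟩

omit [Fintype W] [DecidableEq W] in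
theorem Small_mono {H : SimpleGraph W} {r s : ℝ} (h0 : 0 ≤ r) (h : r ≤ s) (hs : Small H n s) :
    Small H n r := by
  obtain ⟨C, h1, h2⟩ := hs
  exact ⟨C, h1, le_trans (Finset.sum_le_sum fun S _ => pow_le_pow_left₀ h0 h _) h2⟩

omit [DecidableEq W] in
theorem top_contains (H : SimpleGraph W) (hW : Fintype.card W ≤ n) (G : SimpleGraph (Fin n))
    (hG : ∀ x y, x ≠ y → G.Adj x y) : H.IsContained G := by
  obtain ⟨ι⟩ : Nonempty (W ↪ Fin n) := Function.Embedding.nonempty_of_card_le (by simpa using hW)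
  exact SimpleGraph.isContained_iff_exists_le_comap.mpr
    ⟨ι, fun x y hxy => hG _ _ (ι.injective.ne hxy.ne)⟩

omit [DecidableEq W] in
theorem not_small_one (H : SimpleGraph W) (hW : Fintype.card W ≤ n) {r : ℝ} (hr : 1 ≤ r) :
    ¬ Small H n r := by
  rintro ⟨C, h1, h2⟩
  obtain ⟨S, hS, -⟩ := h1 Finset.univ (top_contains H hW _ fun x y hxy => by
    simp [edgeGraph, hxy])
  have := Finset.single_le_sum (f := fun S : Finset (EdgeSlot n) => r ^ S.card)
    (fun _ _ => by positivity) hS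
  have h3 : 1 ≤ r ^ S.card := one_le_pow₀ hr
  linarith

omit [Fintype W] [DecidableEq W] in
theorem small_base (H : SimpleGraph W) (hH : H ≠ ⊥) (hn : 2 ≤ n) : Small H n (1 / n ^ 2) := by
  classical
  refine ⟨Finset.univ.image (fun e => {e}), fun A hA => ?_, ?_⟩
  · obtain ⟨φ, hφ⟩ := SimpleGraph.isContained_iff_exists_le_comap.mp hA
    obtain ⟨u, v, huv⟩ := SimpleGraph.ne_bot_iff_exists_adj.mp hH
    have := hφ huv
    simp only [SimpleGraph.comap_adj, edgeGraph, SimpleGraph.fromEdgeSet_adj,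
      Set.mem_setOf_eq] at this
    obtain ⟨⟨h1, h2⟩, -⟩ := this
    exact ⟨_, Finset.mem_image_of_mem _ (Finset.mem_univ _), Finset.singleton_subset_iff.mpr h2⟩
  · rw [Finset.sum_image (fun a _ b _ e => Finset.singleton_injective e)]
    simp only [Finset.card_singleton, pow_one, Finset.sum_const, Finset.card_univ, nsmul_eq_mul]
    rw [Sym2.card_subtype_not_diag, Fintype.card_fin]
    have := Nat.choose_le_pow_div (α := ℝ) 2 n
    have hn' : (0:ℝ) < n := by exact_mod_cast (show 0 < n by omega)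
    rw [mul_one_div, div_le_iff₀ (by positivity)]
    norm_num at this
    linarith

omit [DecidableEq W] in
theorem gnp_one (P : SimpleGraph W) (hW : Fintype.card W ≤ n) :
    1 / 2 ≤ gnpProb n 1 {G | P.IsContained G} := by
  classical
  unfold gnpProb Crest.FinProb.bernoulliProb
  refine le_trans ?_ (Finset.single_le_sum (a := fun _ => true) (fun ω _ => ?_) ?_)
  · simp [Crest.FinProb.bernoulliWeight]; norm_num
  · exact Finset.prod_nonneg fun i _ => by split_ifs <;> norm_num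
  · simp only [Finset.mem_filter, Finset.mem_univ, true_and, Set.mem_setOf_eq]
    exact top_contains P hW _ fun x y hxy => by simp [graphOf, hxy]

abbrev Lab := (Fin 3200 × Fin 80 × Fin 81 × Fin 81) × (Fin 3200 × Fin 3200 × Fin 80 × Bool × Fin 3)

set_option synthInstance.maxSize 1000 in
theorem labels {H : SimpleGraph W} (hW : Fintype.card W ≤ n) (hn : 10 ^ 40 ≤ n) {r p : ℝ}
    (hr0 : 0 < r) (hp : p = 10 ^ 8 * r) (hp1 : p ≤ 1 / 2) (hr : ¬ Small H n r) :
    ∃ B : W → Finset W, ∃ lab : W → W → Lab, (∀ u v, H.Adj u v → u ∈ B v ∨ v ∈ B u) ∧ ∀ i,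
      1 / 2 ≤ Pr (wt (coin p)) (fun ω : Fin n → Fin n → Bool =>
        Emb (fun v => (B v).filter (fun u => lab v u = i)) ω) := by
  classical
  have hp0 : 0 < p := by rw [hp]; positivity
  have hn' : (10:ℝ) ^ 40 ≤ n := by exact_mod_cast hn
  have hex : ∃ Δ : ℕ, 4 * n ^ 2 * r ^ (Δ + 1) ≤ 1 := by
    obtain ⟨m, hm⟩ := exists_pow_lt_of_lt_one (show 0 < 1 / (4 * (n:ℝ) ^ 2) by positivity)
      (show r < 1 by linarith)
    refine ⟨m, ?_⟩
    rw [lt_div_iff₀ (by positivity)] at hm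
    have : r ^ (m + 1) ≤ r ^ m := pow_le_pow_of_le_one hr0.le (by linarith) (by omega)
    have := mul_le_mul_of_nonneg_left this (show 0 ≤ 4 * (n:ℝ) ^ 2 by positivity)
    linarith
  obtain ⟨B, col, h1, h2, h3, h4⟩ := degenerate H (Nat.find hex)
    (low_degree hr hr0.le (by linarith) _ (Nat.find_spec hex))
  refine ⟨B, ?_⟩
  by_cases hΔ : Nat.find hex ≤ 80
  · obtain ⟨lab, hlab⟩ := sparse hW hn hr0 hp hp1 hr _ hΔ B col h1 h2 h3 (fun u v h => (h4 u v h).2)
    refine ⟨fun v u => (lab v u, default), fun u v h => (h4 u v h).1, fun i => (hlab i.1).trans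
      (Pr_mono (row_nonneg hp0.le (by linarith)) fun ω => Emb_mono fun v u hu => ?_)⟩
    rw [Finset.mem_filter] at hu ⊢
    exact ⟨hu.1, congrArg Prod.fst hu.2⟩
  · obtain ⟨lab, hlab⟩ := dense hW hn hr0 hp hp1 hr (Nat.find hex) (by omega) (by
      have := Nat.find_min hex (m := Nat.find hex - 1) (by omega)
      rw [show Nat.find hex - 1 + 1 = Nat.find hex by omega] at this
      exact (not_le.mp this).le) B col h1 h2 h3 (fun u v h => (h4 u v h).2)
    refine ⟨fun v u => (default, lab v u), fun u v h => (h4 u v h).1, fun i => (hlab i.2).trans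
      (Pr_mono (row_nonneg hp0.le (by linarith)) fun ω => Emb_mono fun v u hu => ?_)⟩
    rw [Finset.mem_filter] at hu ⊢
    exact ⟨hu.1, congrArg Prod.snd hu.2⟩

set_option synthInstance.maxSize 1000 in
theorem final_aux (k : ℕ) (e : Lab ≃ Fin k) (n : ℕ) (hn : 2 ≤ n)
    (W : Type) [Fintype W] [DecidableEq W] (H : SimpleGraph W)
    (hW : Fintype.card W ≤ n) (hH : H ≠ ⊥) :
    ∃ c : H.edgeSet → Fin k, ∀ i : Fin k, ∃ p : ℝ, 0 ≤ p ∧ p ≤ 1 ∧ Small H n p ∧
      1 / 2 ≤ gnpProb n (min 1 (10 ^ 80 * p)) {G | (pieceGraph H c i).IsContained G} := by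
  classical
  have hn0 : (0:ℝ) < n := by exact_mod_cast (show 0 < n by omega)
  have hex : ∃ j : ℕ, ¬ Small H n (2 ^ (j + 1) / n ^ 2) := by
    obtain ⟨m, hm⟩ := pow_unbounded_of_one_lt ((n:ℝ) ^ 2) (show (1:ℝ) < 2 by norm_num)
    refine ⟨m, not_small_one H hW ?_⟩
    rw [one_le_div (by positivity), pow_succ 2]
    have : (0:ℝ) < 2 ^ m := by positivity
    linarith
  obtain ⟨p₀, hp₀, hs, hns⟩ : ∃ p₀ : ℝ, 1 / n ^ 2 ≤ p₀ ∧ Small H n p₀ ∧ ¬ Small H n (2 * p₀) := by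
    refine ⟨2 ^ (Nat.find hex) / n ^ 2, div_le_div_of_nonneg_right (one_le_pow₀ (by norm_num))
      (by positivity), ?_, ?_⟩
    · rcases Nat.eq_zero_or_pos (Nat.find hex) with h | h
      · rw [h, pow_zero]; exact small_base H hH hn
      · have := Nat.find_min hex (m := Nat.find hex - 1) (by omega)
        rw [show Nat.find hex - 1 + 1 = Nat.find hex by omega] at this
        exact not_not.mp this
    · have := Nat.find_spec hex
      rwa [pow_succ', mul_div_assoc] at this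
  have hp0 : 0 < p₀ := lt_of_lt_of_le (by positivity) hp₀
  have hp1 : p₀ ≤ 1 := by
    by_contra h; exact not_small_one H hW (not_le.mp h).le hs
  by_cases hbig : 1 ≤ 10 ^ 80 * p₀
  · refine ⟨fun _ => e default, fun i => ⟨p₀, hp0.le, hp1, hs, ?_⟩⟩
    rw [min_eq_left hbig]; exact gnp_one _ hW
  push Not at hbig
  have hn40 : 10 ^ 40 ≤ n := by
    by_contra h
    have h1 : (n:ℝ) ≤ 10 ^ 40 := by exact_mod_cast (not_le.mp h).le
    have h2 : (n:ℝ) ^ 2 ≤ (10 ^ 40) ^ 2 := pow_le_pow_left₀ hn0.le h1 2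
    rw [div_le_iff₀ (by positivity)] at hp₀
    have h3 := mul_le_mul_of_nonneg_left h2 hp0.le
    have h4 : ((10:ℝ) ^ 40) ^ 2 = 10 ^ 80 := by norm_num
    rw [h4] at h3
    linarith
  obtain ⟨p₁, hq0, hq1, hq2, hq3⟩ : ∃ p₁ : ℝ, 0 < p₁ ∧ p₁ ≤ p₀ ∧ 10 ^ 80 * p₁ ≤ 1 / 2 ∧
      p₀ ≤ 2 * p₁ := ⟨p₀ / 2, by linarith, by linarith, by linarith, by linarith⟩
  obtain ⟨B, lab, hB, hlab⟩ := labels (H := H) hW hn40 (r := 10 ^ 72 * p₁) (p := 10 ^ 80 * p₁)
    (by positivity) (by ring) hq2 (fun h => hns (Small_mono (by positivity) (by nlinarith) h))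
  have hor : ∀ f : H.edgeSet, ∃ z : W × W, f.1 = s(z.1, z.2) ∧ z.2 ∈ B z.1 := by
    rintro ⟨f, hf⟩
    induction f using Sym2.ind with
    | h x y =>
      rcases hB x y hf with h | h
      · exact ⟨(y, x), Sym2.eq_swap, h⟩
      · exact ⟨(x, y), rfl, h⟩
  choose o ho1 ho2 using hor
  refine ⟨fun f => e (lab (o f).1 (o f).2), fun i => ⟨p₁, hq0.le, by linarith,
    Small_mono hq0.le hq1 hs, ?_⟩⟩
  rw [min_eq_right (by linarith)]
  refine (hlab (e.symm i)).trans (transfer (by positivity) (by linarith) hW _ _ ?_)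
  intro x y hxy
  simp only [pieceGraph, SimpleGraph.fromEdgeSet_adj, Set.mem_setOf_eq] at hxy
  obtain ⟨⟨h1, h2⟩, -⟩ := hxy
  have a1 := ho1 ⟨_, h1⟩
  have a2 := ho2 ⟨_, h1⟩
  have a3 : lab (o ⟨_, h1⟩).1 (o ⟨_, h1⟩).2 = e.symm i := by rw [← h2]; simp
  simp only [Sym2.eq_iff] at a1
  rcases a1 with ⟨b1, b2⟩ | ⟨b1, b2⟩
  · left; rw [Finset.mem_filter]; rw [← b1, ← b2] at a2 a3; exact ⟨a2, a3⟩
  · right; rw [Finset.mem_filter]; rw [← b1, ← b2] at a2 a3; exact ⟨a2, a3⟩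

theorem final73 :
    ∃ k : ℕ, 2 ≤ k ∧ ∃ L : ℝ, 1 ≤ L ∧ ∀ n : ℕ, 2 ≤ n →
      ∀ (W : Type) [Fintype W] [DecidableEq W] (H : SimpleGraph W),
        Fintype.card W ≤ n → H ≠ ⊥ →
        ∃ c : H.edgeSet → Fin k, ∀ i : Fin k, ∃ p : ℝ, 0 ≤ p ∧ p ≤ 1 ∧
          (∃ C : Finset (Finset (Crest.CombinatoricsR.RandomGraph.EdgeSlot n)),
            (∀ A : Finset (Crest.CombinatoricsR.RandomGraph.EdgeSlot n),
              H.IsContained (Crest.CombinatoricsR.RandomGraph.edgeGraph A) → ∃ S ∈ C, S ⊆ A) ∧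
            ∑ S ∈ C, p ^ S.card ≤ 1 / 2) ∧
          1 / 2 ≤ Crest.CombinatoricsR.RandomGraph.gnpProb n (min 1 (L * p))
            {G | (Crest.CombinatoricsR.RandomGraph.pieceGraph H c i).IsContained G} := by
  refine ⟨Fintype.card Lab, Fintype.one_lt_card, 10 ^ 80, by norm_num, ?_⟩
  intro n hn W _ _ H hW hH
  exact final_aux _ (Fintype.equivFin Lab) n hn W H hW hH

end Crest.Agent.Lead
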