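import Crest.Agent.Lead.Convex

set_option autoImplicit false

namespace Crest.Agent.Lead

open Finset

section Pr
variable {ι S : Type*} [Fintype ι] [DecidableEq ι] [Fintype S]

open Classical in
/-- probability under a product weight -/
noncomputable def Pr (ρ : S → ℝ) (E : (ι → S) → Prop) : ℝ :=
  ∑ a, wt ρ a * if E a then 1 else 0

theorem Pr_le_of {ρ : S → ℝ} (h0 : ∀ σ, 0 ≤ ρ σ) (E : (ι → S) → Prop) (f : (ι → S) → ℝ)
    (hf0 : ∀ a, 0 ≤ f a) (hf : ∀ a, E a → 1 ≤ f a) : Pr ρ E ≤ ∑ a, wt ρ a * f a := by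
  refine Finset.sum_le_sum fun a _ => mul_le_mul_of_nonneg_left ?_ (wt_nonneg h0 a)
  split_ifs with h
  · exact hf a h
  · exact hf0 a

theorem le_Pr_of {ρ : S → ℝ} (h0 : ∀ σ, 0 ≤ ρ σ) (E : (ι → S) → Prop) (f : (ι → S) → ℝ)
    (hf1 : ∀ a, f a ≤ 1) (hf : ∀ a, ¬ E a → f a ≤ 0) : ∑ a, wt ρ a * f a ≤ Pr ρ E := by
  refine Finset.sum_le_sum fun a _ => mul_le_mul_of_nonneg_left ?_ (wt_nonneg h0 a)
  split_ifs with h
  · exact hf1 a
  · exact hf a h

theorem Pr_mono {ρ : S → ℝ} (h0 : ∀ σ, 0 ≤ ρ σ) {E F : (ι → S) → Prop} (h : ∀ a, E a → F a) :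
    Pr ρ E ≤ Pr ρ F := by
  classical
  apply Pr_le_of h0
  · intro a; split_ifs <;> norm_num
  · intro a ha; rw [if_pos (h a ha)]

theorem Pr_nonneg {ρ : S → ℝ} (h0 : ∀ σ, 0 ≤ ρ σ) (E : (ι → S) → Prop) : 0 ≤ Pr ρ E :=
  Finset.sum_nonneg fun a _ => mul_nonneg (wt_nonneg h0 a) (by split_ifs <;> norm_num)

theorem Pr_not {ρ : S → ℝ} (h1 : ∑ σ, ρ σ = 1) (E : (ι → S) → Prop) :
    Pr ρ (fun a => ¬ E a) = 1 - Pr ρ E := by
  rw [← sum_wt (ι := ι) h1, Pr, Pr, ← Finset.sum_sub_distrib]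
  refine Finset.sum_congr rfl fun a _ => ?_
  by_cases h : E a <;> simp [h]

theorem Pr_le_one {ρ : S → ℝ} (h0 : ∀ σ, 0 ≤ ρ σ) (h1 : ∑ σ, ρ σ = 1) (E : (ι → S) → Prop) :
    Pr ρ E ≤ 1 := by
  have := Pr_nonneg h0 (fun a => ¬ E a)
  rw [Pr_not h1] at this; linarith

theorem Pr_eq_zero (ρ : S → ℝ) (E : (ι → S) → Prop) (h : ∀ a, ¬ E a) : Pr ρ E = 0 :=
  Finset.sum_eq_zero fun a _ => by simp [h a]

theorem Pr_exists_le {ρ : S → ℝ} (h0 : ∀ σ, 0 ≤ ρ σ) {V : Type*} (s : Finset V)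
    (E : V → (ι → S) → Prop) : Pr ρ (fun a => ∃ v ∈ s, E v a) ≤ ∑ v ∈ s, Pr ρ (E v) := by
  classical
  refine (Pr_le_of h0 _ (fun a => ∑ v ∈ s, if E v a then 1 else 0) ?_ ?_).trans ?_
  · intro a; exact Finset.sum_nonneg fun v _ => by split_ifs <;> norm_num
  · rintro a ⟨v, hv, h⟩
    refine le_trans ?_ (Finset.single_le_sum (f := fun v => if E v a then (1:ℝ) else 0)
      (fun v _ => by split_ifs <;> norm_num) hv)
    simp [h]
  · simp only [Finset.mul_sum, Pr]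
    rw [Finset.sum_comm]

theorem sum_wt_update {ρ : S → ℝ} (h1 : ∑ σ, ρ σ = 1) (i : ι) (f : (ι → S) → ℝ) :
    ∑ a, wt ρ a * f a = ∑ σ, ρ σ * ∑ a, wt ρ a * f (Function.update a i σ) := by
  have e : ∑ a, wt ρ a * f a = ∑ z : S × (ι → S), ρ z.1 * (wt ρ z.2 * f z.2) := by
    rw [Fintype.sum_prod_type]
    simp only [← Finset.mul_sum, ← Finset.sum_mul, h1, one_mul]
  rw [e]
  simp only [Finset.mul_sum]
  rw [← Fintype.sum_prod_type (f := fun z : S × (ι → S) =>
    ρ z.1 * (wt ρ z.2 * f (Function.update z.2 i z.1)))]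
  let φ : S × (ι → S) → S × (ι → S) := fun z => (z.2 i, Function.update z.2 i z.1)
  have hφ : Function.Involutive φ := by
    intro z; simp [φ]
  refine Fintype.sum_equiv hφ.toPerm _ _ fun z => ?_
  simp only [Function.Involutive.coe_toPerm, φ, Function.update_idem, Function.update_eq_self]
  have : ρ z.1 * wt ρ z.2 = ρ (z.2 i) * wt ρ (Function.update z.2 i z.1) := by
    unfold wt
    rw [← Finset.mul_prod_erase _ _ (Finset.mem_univ i),
      ← Finset.mul_prod_erase _ (fun x => ρ (Function.update z.2 i z.1 x)) (Finset.mem_univ i)]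
    have : ∏ x ∈ Finset.univ.erase i, ρ (Function.update z.2 i z.1 x) =
        ∏ x ∈ Finset.univ.erase i, ρ (z.2 x) :=
      Finset.prod_congr rfl fun x hx => by rw [Function.update_of_ne (Finset.ne_of_mem_erase hx)]
    rw [this]; simp; ring
  rw [← mul_assoc, this, mul_assoc]

theorem sum_wt_comp {A : Type*} [Fintype A] [DecidableEq A] {ρ : S → ℝ} (h1 : ∑ σ, ρ σ = 1)
    (h : A → ι) (hh : Function.Injective h) (F : (A → S) → ℝ) :
    ∑ ω : ι → S, wt ρ ω * F (ω ∘ h) = ∑ η : A → S, wt ρ η * F η := by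
  classical
  have e1 : ∀ ω : ι → S, F (ω ∘ h) = ∑ η : A → S, (∏ b ∈ Finset.univ.image h,
      if ∀ a, h a = b → ω b = η a then (1:ℝ) else 0) * F η := by
    intro ω
    rw [Finset.sum_eq_single (ω ∘ h)]
    · rw [Finset.prod_eq_one, one_mul]
      intro b _
      rw [if_pos]; rintro a rfl; rfl
    · intro η _ hη
      obtain ⟨a, ha⟩ := Function.ne_iff.mp hη
      rw [Finset.prod_eq_zero (Finset.mem_image_of_mem h (Finset.mem_univ a)), zero_mul]
      rw [if_neg]; intro hc; exact ha (hc a rfl).symm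
    · simp
  simp_rw [e1, Finset.mul_sum]
  rw [Finset.sum_comm]
  refine Finset.sum_congr rfl fun η _ => ?_
  simp_rw [← mul_assoc]
  rw [← Finset.sum_mul, sum_wt_prod_on h1 _
    (fun b σ => if ∀ a, h a = b → σ = η a then (1:ℝ) else 0), Finset.prod_image
      (fun a _ b _ e => hh e)]
  congr 1
  refine Finset.prod_congr rfl fun a _ => ?_
  rw [Finset.sum_eq_single (η a)]
  · rw [if_pos, mul_one]; intro b hb; rw [hh hb]
  · intro σ _ hσ; rw [if_neg, mul_zero]; intro hc; exact hσ (hc a rfl)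
  · simp

theorem chernoff_lower {ρ : S → ℝ} (h0 : ∀ σ, 0 ≤ ρ σ) (h1 : ∑ σ, ρ σ = 1) (I : Finset ι)
    (k : S → ℝ) (Λ κ : ℝ) (hΛ : 0 < Λ) (hk0 : ∀ σ, 0 ≤ k σ) (hk1 : ∀ σ, k σ ≤ Λ)
    (hκ : κ ≤ ∑ σ, ρ σ * k σ) :
    Pr ρ (fun ω : ι → S => ∑ i ∈ I, k (ω i) < I.card * κ / 4) ≤
      Real.exp (- (I.card * κ / (4 * Λ))) := by
  refine (Pr_le_of h0 _ (fun ω => Real.exp (I.card * κ / (4 * Λ)) *
    ∏ i ∈ I, Real.exp (- (k (ω i) / Λ))) (fun ω => by positivity) ?_).trans ?_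
  · intro ω hω
    rw [← Real.exp_sum, ← Real.exp_add]
    apply Real.one_le_exp
    rw [Finset.sum_neg_distrib, ← Finset.sum_div]
    have : (∑ i ∈ I, k (ω i)) / Λ ≤ (I.card * κ / 4) / Λ := div_le_div_of_nonneg_right hω.le hΛ.le
    rw [div_div] at this
    linarith
  · simp_rw [mul_left_comm _ (Real.exp (I.card * κ / (4 * Λ)))]
    rw [← Finset.mul_sum, sum_wt_prod_on h1 I (fun _ σ => Real.exp (- (k σ / Λ))),
      Finset.prod_const]
    have a1 : ∑ σ, ρ σ * Real.exp (- (k σ / Λ)) ≤ Real.exp (- (κ / (2 * Λ))) := by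
      calc ∑ σ, ρ σ * Real.exp (- (k σ / Λ)) ≤ ∑ σ, ρ σ * (1 - k σ / Λ / 2) := by
            refine Finset.sum_le_sum fun σ _ => mul_le_mul_of_nonneg_left ?_ (h0 σ)
            have u0 : 0 ≤ k σ / Λ := div_nonneg (hk0 σ) hΛ.le
            have u1 : k σ / Λ ≤ 1 := (div_le_one hΛ).mpr (hk1 σ)
            generalize k σ / Λ = u at u0 u1
            rw [Real.exp_neg, inv_le_comm₀ (Real.exp_pos _) (by linarith)]
            refine le_trans ?_ (Real.add_one_le_exp u)
            rw [inv_le_iff_one_le_mul₀ (by linarith)]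
            nlinarith
        _ = 1 - (∑ σ, ρ σ * k σ) / (2 * Λ) := by
            simp_rw [mul_sub, Finset.sum_sub_distrib, mul_one, h1, Finset.sum_div]
            congr 1
            exact Finset.sum_congr rfl fun _ _ => by ring
        _ ≤ - (κ / (2 * Λ)) + 1 := by
            have := div_le_div_of_nonneg_right hκ (show 0 ≤ 2 * Λ by positivity)
            linarith
        _ ≤ _ := Real.add_one_le_exp _
    have a2 := pow_le_pow_left₀ (Finset.sum_nonneg fun σ _ =>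
      mul_nonneg (h0 σ) (Real.exp_pos _).le) a1 I.card
    refine (mul_le_mul_of_nonneg_left a2 (Real.exp_pos _).le).trans ?_
    rw [← Real.exp_nat_mul, ← Real.exp_add]
    apply le_of_eq; congr 1; field_simp; ring

end Pr

theorem greedy {R St : Type*} [Fintype R] {ρ : R → ℝ} (h0 : ∀ σ, 0 ≤ ρ σ) (h1 : ∑ σ, ρ σ = 1)
    {n : ℕ} (N : ℕ) (hN : N ≤ n) (Φ : St → ℝ) (Valid : ℕ → St → Prop)
    (Win : ℕ → St → (Fin n → R) → Prop) (hΦ : ∀ s, 0 ≤ Φ s)
    (hV : ∀ m s, Valid (m + 1) s → Valid m s)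
    (hbase : ∀ s, Valid 0 s → (∀ ω, Win 0 s ω) ∨ 1 ≤ Φ s)
    (hskip : ∀ m (hm : m < n) s a ω, Win m s ω → Win (m + 1) s (Function.update ω ⟨m, hm⟩ a))
    (hstep : ∀ m (hm : m < n) s, m < N → Valid (m + 1) s → (∀ ω, Win (m + 1) s ω) ∨
      ∃ c : ℝ, ∃ T : R → Prop, ∃ _ : DecidablePred T,
        1 ≤ c * ∑ a, ρ a * (if T a then 1 else 0) ∧
        ∀ a, T a → ∃ s', Valid m s' ∧ Φ s' ≤ Φ s - c ∧
          ∀ ω, Win m s' ω → Win (m + 1) s (Function.update ω ⟨m, hm⟩ a)) :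
    ∀ m ≤ N, ∀ s, Valid m s → Pr ρ (fun ω => ¬ Win m s ω) ≤ Φ s / (m + 1) := by
  intro m
  induction m with
  | zero =>
    intro _ s hs
    rcases hbase s hs with h | h
    · rw [Pr_eq_zero _ _ (by simpa using h)]; simpa using hΦ s
    · simpa using (Pr_le_one h0 h1 _).trans h
  | succ m ih =>
    intro hm s hs
    have hmn : m < n := by omega
    have hpos : (0:ℝ) < m + 1 := by positivity
    rcases hstep m hmn s (by omega) hs with h | ⟨c, T, _, hc, hT⟩
    · rw [Pr_eq_zero _ _ (by simpa using h)]; exact div_nonneg (hΦ s) (by positivity)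
    · have key : Pr ρ (fun ω => ¬ Win (m + 1) s ω) ≤ (Φ s - 1) / (m + 1) := by
        unfold Pr
        rw [sum_wt_update h1 ⟨m, hmn⟩]
        calc _ ≤ ∑ a, ρ a * ((Φ s - c * if T a then 1 else 0) / (m + 1)) := by
              refine Finset.sum_le_sum fun a _ => mul_le_mul_of_nonneg_left ?_ (h0 a)
              change Pr ρ (fun ω => ¬ Win (m + 1) s (Function.update ω ⟨m, hmn⟩ a)) ≤ _
              split_ifs with ha
              · obtain ⟨s', hs', hΦ', hw⟩ := hT a ha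
                refine (Pr_mono h0 (F := fun ω => ¬ Win m s' ω) fun ω h h' => h (hw ω h')).trans
                  ((ih (by omega) s' hs').trans ?_)
                rw [mul_one]; exact div_le_div_of_nonneg_right hΦ' hpos.le
              · refine (Pr_mono h0 (F := fun ω => ¬ Win m s ω) fun ω h h' =>
                  h (hskip m hmn s a ω h')).trans ((ih (by omega) s (hV m s hs)).trans ?_)
                simp
          _ = (Φ s - c * ∑ a, ρ a * (if T a then 1 else 0)) / (m + 1) := by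
              simp_rw [← mul_div_assoc, ← Finset.sum_div, mul_sub, Finset.sum_sub_distrib,
                ← Finset.sum_mul, h1, one_mul, Finset.mul_sum, mul_left_comm]
          _ ≤ _ := div_le_div_of_nonneg_right (by linarith) hpos.le
      push_cast
      by_cases hb : Φ s ≤ m + 1 + 1
      · refine key.trans ?_
        rw [div_le_div_iff₀ hpos (by positivity)]
        nlinarith
      · refine (Pr_le_one h0 h1 _).trans ?_
        rw [le_div_iff₀ (by positivity)]; linarith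

theorem matching {R V : Type*} [Fintype R] [Fintype V] {ρ : R → ℝ} (h0 : ∀ σ, 0 ≤ ρ σ)
    (h1 : ∑ σ, ρ σ = 1) {n : ℕ} (N : ℕ) (hN : N ≤ n) (hN0 : 0 < N) (k : V → R → ℝ) (Λ : ℝ)
    (hΛ : 0 < Λ) (hk0 : ∀ v a, 0 ≤ k v a) (hk1 : ∀ v a, k v a ≤ Λ)
    (hE : ∀ v, 1 / 2 ≤ ∑ a, ρ a * k v a) (hload : ∀ a, ∑ v, k v a ≤ N / 8)
    (hsmall : Fintype.card V * Real.exp (- (N / (8 * Λ))) ≤ 1 / 2) :
    1 / 2 ≤ Pr ρ (fun ω : Fin n → R => ∃ σ : V → Fin n, Function.Injective σ ∧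
      ∀ v, (σ v : ℕ) < N ∧ 0 < k v (ω (σ v))) := by
  classical
  let I : Finset (Fin n) := Finset.univ.filter (fun i => (i : ℕ) < N)
  have hI : I.card = N := by
    rw [Fin.card_filter_val_lt]; omega
  have hbad : Pr ρ (fun ω : Fin n → R => ∃ v ∈ (Finset.univ : Finset V),
      ∑ i ∈ I, k v (ω i) < I.card * (1/2) / 4) ≤ 1 / 2 := by
    refine (Pr_exists_le h0 _ _).trans (le_trans ?_ hsmall)
    rw [← Finset.card_univ, ← nsmul_eq_mul (Finset.univ : Finset V).card, ← Finset.sum_const]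
    refine Finset.sum_le_sum fun v _ => (chernoff_lower h0 h1 I (k v) Λ (1/2) hΛ (hk0 v) (hk1 v)
      (hE v)).trans (le_of_eq ?_)
    rw [hI]; congr 1; field_simp; ring
  have := Pr_not h1 (fun ω : Fin n → R => ∃ v ∈ (Finset.univ : Finset V),
      ∑ i ∈ I, k v (ω i) < I.card * (1/2) / 4)
  refine le_trans (by linarith) (Pr_mono h0 (E := fun ω : Fin n → R =>
    ¬ ∃ v ∈ (Finset.univ : Finset V), ∑ i ∈ I, k v (ω i) < I.card * (1/2) / 4) ?_)
  intro ω hω
  push Not at hω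
  let t : V → Finset (Fin n) := fun v => I.filter (fun i => 0 < k v (ω i))
  obtain ⟨σ, hσ, hσ'⟩ := (Finset.all_card_le_biUnion_card_iff_exists_injective t).mp (by
    intro s
    have e1 : (s.card : ℝ) * (N / 8) ≤ ∑ v ∈ s, ∑ i ∈ I, k v (ω i) := by
      rw [← nsmul_eq_mul, ← Finset.sum_const]
      refine Finset.sum_le_sum fun v _ => ?_
      have := hω v (Finset.mem_univ v)
      rw [hI] at this; linarith
    have e2 : ∑ v ∈ s, ∑ i ∈ I, k v (ω i) ≤ (s.biUnion t).card * (N / 8 : ℝ) := by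
      rw [Finset.sum_comm, ← nsmul_eq_mul, ← Finset.sum_const]
      rw [← Finset.sum_subset (s₁ := s.biUnion t)]
      · refine Finset.sum_le_sum fun i _ => le_trans ?_ (hload (ω i))
        exact Finset.sum_le_sum_of_subset_of_nonneg (Finset.subset_univ _) fun v _ _ => hk0 _ _
      · intro i hi
        simp only [Finset.mem_biUnion, t, Finset.mem_filter] at hi
        obtain ⟨v, -, h, -⟩ := hi; exact h
      · intro i hi hi'
        refine Finset.sum_eq_zero fun v hv => ?_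
        by_contra hne
        apply hi'
        simp only [Finset.mem_biUnion, t, Finset.mem_filter]
        exact ⟨v, hv, hi, lt_of_le_of_ne (hk0 _ _) (Ne.symm hne)⟩
    have : (0:ℝ) < N / 8 := by positivity
    exact_mod_cast le_of_mul_le_mul_right (e1.trans e2) this)
  refine ⟨σ, hσ, fun v => ?_⟩
  have := hσ' v
  simpa [t, I] using this

end Crest.Agent.Lead
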