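import Crest.Agent.Lead.Prob

set_option autoImplicit false

namespace Crest.Agent.Lead

open Finset

variable {ι S : Type*} [Fintype ι] [DecidableEq ι] [Fintype S]

/-- centred hit indicator -/
noncomputable def psi (hit : S → Bool) (q : ℝ) (σ : S) : ℝ := (if hit σ then 1 else 0) - q

/-- the signed kernel, vanishing when both miss -/
noncomputable def sker (hit : S → Bool) (q : ℝ) (T : Finset ι) (a b : ι → S) : ℝ :=
  ∏ x ∈ T, (1 + (-1 / q ^ 2) * psi hit q (a x) * psi hit q (b x))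

omit [Fintype ι] [DecidableEq ι] [Fintype S] in
theorem sker_eq_zero (hit : S → Bool) {q : ℝ} (hq : 0 < q) (T : Finset ι) (a b : ι → S)
    (h : ∃ x ∈ T, hit (a x) = false ∧ hit (b x) = false) : sker hit q T a b = 0 := by
  obtain ⟨x, hx, h1, h2⟩ := h
  refine Finset.prod_eq_zero hx ?_
  simp only [psi, h1, h2]
  field_simp
  simp

omit [Fintype ι] [DecidableEq ι] [Fintype S] in
theorem abs_sker_le (hit : S → Bool) {q : ℝ} (hq : 0 < q) (hq1 : q ≤ 1) (T : Finset ι)
    (a b : ι → S) : |sker hit q T a b| ≤ (1 / q ^ 2) ^ T.card := by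
  unfold sker
  rw [Finset.abs_prod, ← Finset.prod_const]
  refine Finset.prod_le_prod (fun _ _ => abs_nonneg _) fun x _ => ?_
  have hq2 : 0 < q ^ 2 := by positivity
  have : 1 + (-1 / q ^ 2) * psi hit q (a x) * psi hit q (b x) =
      (q ^ 2 - psi hit q (a x) * psi hit q (b x)) / q ^ 2 := by field_simp; ring
  rw [this, abs_div, abs_of_pos hq2]
  refine div_le_div_of_nonneg_right ?_ hq2.le
  unfold psi
  rw [abs_le]
  cases hit (a x) <;> cases hit (b x) <;> simp <;> constructor <;> nlinarith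

theorem kernel_lower (ρ : S → ℝ) (hit : S → Bool) (q : ℝ) (f : (ι → S) → ℝ) (T : Finset ι) :
    (∑ a, wt ρ a * f a) ^ 2 - ∑ a, ∑ b, wt ρ a * f a * (wt ρ b * f b) * sker hit q T a b ≤
      ∑ Y ∈ T.powerset.erase ∅, (1 / q ^ 2) ^ Y.card * coef ρ (psi hit q) f Y ^ 2 := by
  unfold sker
  rw [kernel_expand, ← Finset.add_sum_erase _ _ (Finset.empty_mem_powerset T), coef_empty]
  simp only [Finset.card_empty, pow_zero, one_mul]
  rw [sub_add_cancel_left, ← Finset.sum_neg_distrib]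
  refine Finset.sum_le_sum fun Y _ => ?_
  rw [← neg_mul]
  refine mul_le_mul_of_nonneg_right ?_ (sq_nonneg _)
  refine (neg_le_abs _).trans ?_
  rw [abs_pow, abs_div]; simp

theorem kernel_bessel {ρ : S → ℝ} (hρ : ∀ σ, 0 ≤ ρ σ) (h1 : ∑ σ, ρ σ = 1) (hit : S → Bool)
    {q : ℝ} (hq : ∑ σ, ρ σ * (if hit σ then 1 else 0) = q) (hq0 : 0 < q) (hq1 : q < 1)
    (f : (ι → S) → ℝ) (hf0 : ∀ a, 0 ≤ f a) (hf1 : ∀ a, f a ≤ 1) :
    ∑ Y ∈ (Finset.univ : Finset (Finset ι)).erase ∅,
      (1 / (q * (1 - q))) ^ Y.card * coef ρ (psi hit q) f Y ^ 2 ≤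
      ∑ a, wt ρ a * f a - (∑ a, wt ρ a * f a) ^ 2 := by
  have := bessel (ι := ι) (ψ := psi hit q) hρ h1 (by
    unfold psi
    simp_rw [mul_sub, Finset.sum_sub_distrib, ← Finset.sum_mul, h1, hq]; ring)
    (1 / (q * (1 - q))) (by
      intro σ τ
      have h2 : 0 < q * (1 - q) := mul_pos hq0 (by linarith)
      have : 1 + 1 / (q * (1 - q)) * psi hit q σ * psi hit q τ =
        (q * (1 - q) + psi hit q σ * psi hit q τ) / (q * (1 - q)) := by
          have : 1 - q ≠ 0 := by linarith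
          field_simp
      rw [this]
      refine div_nonneg ?_ h2.le
      unfold psi
      cases hit σ <;> cases hit τ <;> simp <;> nlinarith) f hf0 hf1
  rw [← Finset.add_sum_erase _ _ (Finset.mem_univ ∅), coef_empty] at this
  simp only [Finset.card_empty, pow_zero, one_mul] at this
  linarith

end Crest.Agent.Lead
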