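import Crest.Agent.Lead.Couple

set_option autoImplicit false

namespace Crest.Agent.Lead

open Finset

def Rel {n : ℕ} (ω : Fin n → Fin n → Bool) (x y : Fin n) : Prop :=
  (x < y ∧ ω x y = true) ∨ (y < x ∧ ω y x = true)

def Emb {W : Type} {n : ℕ} (D : W → Finset W) (ω : Fin n → Fin n → Bool) : Prop :=
  ∃ U : Finset W, ∃ ψ : W → Fin n, Set.InjOn ψ U ∧
    ∀ v, ∀ u ∈ D v, v ∈ U ∧ u ∈ U ∧ Rel ω (ψ v) (ψ u)

variable {W : Type} [DecidableEq W] {n : ℕ}

theorem row_nonneg {p : ℝ} (hp0 : 0 ≤ p) (hp1 : p ≤ 1) (a : Fin n → Bool) : 0 ≤ wt (coin p) a :=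
  wt_nonneg (coin_nonneg hp0 hp1) a

theorem row_sum (p : ℝ) : ∑ a : Fin n → Bool, wt (coin p) a = 1 := sum_wt (sum_coin p)

theorem piece_C {p : ℝ} (hp0 : 0 ≤ p) (hp1 : p ≤ 1) (N : ℕ) (hN : N ≤ n) (hN0 : 0 < N)
    (M V : Finset W) (hMV : Disjoint M V) (φ : W → Fin n) (hφ : Set.InjOn φ M)
    (hφN : ∀ u ∈ M, N ≤ (φ u : ℕ)) (D : W → Finset W) (hD : ∀ v, ∀ u ∈ D v, v ∈ V ∧ u ∈ M)
    (J : V → Finset (Fin n)) (hJ : ∀ v : V, ∀ u ∈ D v, φ u ∈ J v) (Λ cap : ℝ) (hΛ : 0 < Λ)
    (hK : Ker p J Λ cap) (hcap : cap ≤ N / 8)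
    (hsmall : V.card * Real.exp (- (N / (8 * Λ))) ≤ 1 / 2) :
    1 / 2 ≤ Pr (wt (coin p)) (fun ω : Fin n → Fin n → Bool => Emb D ω) := by
  obtain ⟨k, h0, h1, h2, h3, h4⟩ := hK
  refine (matching (row_nonneg hp0 hp1) (row_sum p) N hN hN0 k Λ hΛ h0 h1 h2
    (fun a => (h3 a).trans hcap) (by simpa using hsmall)).trans
    (Pr_mono (row_nonneg hp0 hp1) ?_)
  rintro ω ⟨σ, hσ, hσ'⟩
  let ψ : W → Fin n := fun w => if h : w ∈ V then σ ⟨w, h⟩ else φ w
  have hψV : ∀ w (h : w ∈ V), ψ w = σ ⟨w, h⟩ := fun w h => dif_pos h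
  have hψM : ∀ w ∈ M, ψ w = φ w := fun w h => dif_neg (Finset.disjoint_left.mp hMV h)
  refine ⟨M ∪ V, ψ, ?_, fun v u hu => ?_⟩
  · intro a ha b hb e
    simp only [Finset.coe_union, Set.mem_union, Finset.mem_coe] at ha hb
    rcases ha with ha | ha <;> rcases hb with hb | hb
    · rw [hψM a ha, hψM b hb] at e; exact hφ ha hb e
    · rw [hψM a ha, hψV b hb] at e
      have := hφN a ha; have := (hσ' ⟨b, hb⟩).1; rw [e] at *; omega
    · rw [hψV a ha, hψM b hb] at e
      have := hφN b hb; have := (hσ' ⟨a, ha⟩).1; rw [← e] at *; omega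
    · rw [hψV a ha, hψV b hb] at e
      exact congrArg Subtype.val (hσ e)
  · obtain ⟨hv, hu'⟩ := hD v u hu
    refine ⟨Finset.mem_union_right _ hv, Finset.mem_union_left _ hu', Or.inl ?_⟩
    rw [hψV v hv, hψM u hu']
    refine ⟨?_, h4 _ _ (hσ' ⟨v, hv⟩).2 _ (hJ ⟨v, hv⟩ u hu)⟩
    have := hφN u hu'; have := (hσ' ⟨v, hv⟩).1
    rw [Fin.lt_def]; omega

theorem prob_superset {ι : Type*} [Fintype ι] [DecidableEq ι] (p : ℝ) (T : Finset ι) :
    ∑ a : ι → Bool, wt (coin p) a * (if ∀ x ∈ T, a x = true then 1 else 0) = p ^ T.card := by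
  have : ∀ a : ι → Bool, (if ∀ x ∈ T, a x = true then (1:ℝ) else 0) =
      ∏ x ∈ T, if a x = true then 1 else 0 := by
    intro a; rw [Finset.prod_boole]; congr
  simp_rw [this]
  rw [sum_wt_prod_on (sum_coin p) T (fun _ b => if b = true then (1:ℝ) else 0)]
  simp [coin]

theorem second_moment {ι V : Type*} [Fintype ι] [DecidableEq ι] {p : ℝ} (hp0 : 0 < p)
    (hp1 : p ≤ 1) (S : Finset V) (hS : S.Nonempty) (T : V → Finset ι) (j : ℕ) (y c : ℝ)
    (hT : ∀ v ∈ S, (T v).card ≤ j) (hy : (1 / p) ^ j ≤ y)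
    (hc : ∀ v ∈ S, ((S.filter (fun u => ¬ Disjoint (T u) (T v))).card : ℝ) ≤ c)
    (hbig : c * y ≤ S.card) :
    1 / 2 ≤ Pr (coin p) (fun a : ι → Bool => ∃ v ∈ S, ∀ x ∈ T v, a x = true) := by
  classical
  have hinv : 1 ≤ 1 / p := by rw [le_div_iff₀ hp0]; linarith
  have hy1 : 1 ≤ y := (one_le_pow₀ hinv).trans hy
  have ht : (0:ℝ) < S.card := by exact_mod_cast hS.card_pos
  let k : V → (ι → Bool) → ℝ := fun v a =>
    (1 / p) ^ (T v).card * if ∀ x ∈ T v, a x = true then 1 else 0
  have e1 : ∀ v, ∑ a, wt (coin p) a * k v a = 1 := by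
    intro v
    simp_rw [k, mul_left_comm _ ((1 / p) ^ (T v).card)]
    rw [← Finset.mul_sum, prob_superset, ← mul_pow]
    field_simp; simp
  have e2 : ∀ u v, v ∈ S → ∑ a, wt (coin p) a * (k u a * k v a) ≤
      1 + y * if ¬ Disjoint (T u) (T v) then 1 else 0 := by
    intro u v hv
    have : ∀ a, k u a * k v a = (1 / p) ^ ((T u).card + (T v).card) *
        if ∀ x ∈ T u ∪ T v, a x = true then 1 else 0 := by
      intro a
      simp only [k, Finset.forall_mem_union, pow_add]
      by_cases h1 : ∀ x ∈ T u, a x = true <;> by_cases h2 : ∀ x ∈ T v, a x = true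
      · rw [if_pos h1, if_pos h2, if_pos ⟨h1, h2⟩]; ring
      · rw [if_neg h2, if_neg (c := _ ∧ _) (fun h => h2 h.2)]; ring
      · rw [if_neg h1, if_neg (c := _ ∧ _) (fun h => h1 h.1)]; ring
      · rw [if_neg h1, if_neg (c := _ ∧ _) (fun h => h1 h.1)]; ring
    simp_rw [this, mul_left_comm _ ((1 / p) ^ ((T u).card + (T v).card))]
    rw [← Finset.mul_sum, prob_superset, ← Finset.card_union_add_card_inter, pow_add,
      mul_right_comm, ← mul_pow, one_div_mul_cancel hp0.ne', one_pow, one_mul]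
    split_ifs with h
    · rw [Finset.disjoint_iff_inter_eq_empty.mp h]; simp
    · have : (1 / p) ^ (T u ∩ T v).card ≤ y := (pow_le_pow_right₀ hinv
        ((Finset.card_le_card Finset.inter_subset_right).trans (hT v hv))).trans hy
      linarith
  have e3 : ∑ a, wt (coin p) a * (∑ v ∈ S, k v a) = S.card := by
    simp_rw [Finset.mul_sum]
    rw [Finset.sum_comm]; simp [e1]
  have e4 : ∑ a, wt (coin p) a * (∑ v ∈ S, k v a) ^ 2 ≤ 2 * S.card ^ 2 := by
    simp_rw [sq, Finset.sum_mul_sum, Finset.mul_sum]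
    rw [Finset.sum_comm]
    simp_rw [Finset.sum_comm (s := Finset.univ) (t := S)]
    rw [Finset.sum_comm]
    calc _ ≤ ∑ v ∈ S, (S.card + y * c) := by
          refine Finset.sum_le_sum fun v hv => (Finset.sum_le_sum fun u _ => e2 u v hv).trans ?_
          rw [Finset.sum_add_distrib, ← Finset.mul_sum, Finset.sum_boole]
          have := mul_le_mul_of_nonneg_left (hc v hv) (show 0 ≤ y by linarith)
          simp only [Finset.sum_const, nsmul_eq_mul, mul_one]
          linarith
      _ ≤ _ := by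
          rw [Finset.sum_const, nsmul_eq_mul]; nlinarith
  refine le_trans ?_ (le_Pr_of (coin_nonneg hp0.le hp1) _
    (fun a => (∑ v ∈ S, k v a) / S.card - (∑ v ∈ S, k v a) ^ 2 / (4 * S.card ^ 2)) ?_ ?_)
  · simp_rw [mul_sub, ← mul_div_assoc, Finset.sum_sub_distrib, ← Finset.sum_div, e3]
    have := div_le_div_of_nonneg_right e4 (show (0:ℝ) ≤ 4 * S.card ^ 2 by positivity)
    have e5 : (2 * S.card ^ 2 : ℝ) / (4 * S.card ^ 2) = 1 / 2 := by field_simp; norm_num
    rw [div_self ht.ne']; linarith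
  · intro a
    have : (∑ v ∈ S, k v a) ^ 2 / (4 * S.card ^ 2) = ((∑ v ∈ S, k v a) / S.card) ^ 2 / 4 := by
      field_simp
    rw [this]
    nlinarith [sq_nonneg ((∑ v ∈ S, k v a) / S.card - 2)]
  · intro a ha
    have : ∑ v ∈ S, k v a = 0 := Finset.sum_eq_zero fun v hv => by
      simp only [k]; rw [if_neg (fun h => ha ⟨v, hv, h⟩), mul_zero]
    simp [this]

theorem piece_B {p : ℝ} (hp0 : 0 < p) (hp1 : p ≤ 1) (hn : 0 < n) (U : Finset W)
    (D : W → Finset W) (hD : ∀ v, ∀ u ∈ D v, v ∈ U ∧ u ∈ U) (l : W → ℕ) (Lay : ℕ)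
    (hl : ∀ v, l v < Lay) (hlD : ∀ v, ∀ u ∈ D v, l u < l v) (j : ℕ) (hj : ∀ v, (D v).card ≤ j)
    (y D' : ℝ) (hy : (1 / p) ^ j ≤ y)
    (hD' : ∀ u, ((U.filter (fun v => u ∈ D v)).card : ℝ) ≤ D')
    (hbud : 2 * U.card + Lay * (y * (j * D' * y + 1)) ≤ (n + 1) / 2) :
    1 / 2 ≤ Pr (wt (coin p)) (fun ω : Fin n → Fin n → Bool => Emb D ω) := by
  classical
  have hinv : 1 ≤ 1 / p := by rw [le_div_iff₀ hp0]; linarith
  have hy1 : 1 ≤ y := (one_le_pow₀ hinv).trans hy
  have hD0 : 0 ≤ D' ∨ U = ∅ := by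
    rcases U.eq_empty_or_nonempty with h | ⟨u, _⟩
    · exact Or.inr h
    · exact Or.inl (le_trans (Nat.cast_nonneg _) (hD' u))
  rcases hD0 with hD0 | hU
  swap
  · have : Pr (wt (coin p)) (fun ω : Fin n → Fin n → Bool => ¬ Emb D ω) = 0 :=
      Pr_eq_zero _ _ fun ω h => h ⟨∅, fun _ => ⟨0, hn⟩, by simp, fun v u hu => by
        have := (hD v u hu).1; simp [hU] at this⟩
    rw [Pr_not (row_sum p)] at this; linarith
  set T₀ : ℝ := j * D' * y + 1 with hT₀
  have hT0 : 1 ≤ T₀ := by have : 0 ≤ j * D' * y := by positivity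
                          linarith
  let f : ℕ → ℝ := fun t => 2 * t + y * min (t : ℝ) T₀
  have hf0 : ∀ t, 0 ≤ f t := fun t => by
    have : 0 ≤ min (t : ℝ) T₀ := le_min (Nat.cast_nonneg _) (by linarith)
    simp only [f]; positivity
  let Φ : Finset W × (W → Fin n) → ℝ := fun s =>
    ∑ i ∈ Finset.range Lay, f (s.1.filter (fun v => l v = i)).card
  let Valid : ℕ → Finset W × (W → Fin n) → Prop := fun m s =>
    s.1 ⊆ U ∧ Set.InjOn s.2 (U \ s.1 : Finset W) ∧ ∀ u ∈ U \ s.1, m ≤ (s.2 u : ℕ)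
  let Win : ℕ → Finset W × (W → Fin n) → (Fin n → Fin n → Bool) → Prop := fun m s ω =>
    ∃ ψ : W → Fin n, (∀ u ∈ U \ s.1, ψ u = s.2 u) ∧ Set.InjOn ψ U ∧
      ∀ v ∈ s.1, (ψ v : ℕ) < m ∧ ∀ u ∈ D v, ψ v < ψ u ∧ ω (ψ v) (ψ u) = true
  have hempty : ∀ m s ω, Valid m s → s.1 = ∅ → Win m s ω := by
    intro m s ω hs h
    refine ⟨s.2, fun _ _ => rfl, ?_, by simp [h]⟩
    have := hs.2.1; rwa [h, Finset.sdiff_empty] at this
  have hΦ : ∀ s, 0 ≤ Φ s := fun s => Finset.sum_nonneg fun i _ => hf0 _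
  have hdrop : ∀ (S : Finset W) ψ ψ' v, v ∈ S → Φ (S.erase v, ψ') = Φ (S, ψ) -
      (f (S.filter (fun w => l w = l v)).card - f ((S.filter (fun w => l w = l v)).card - 1)) := by
    intro S ψ ψ' v hv
    simp only [Φ]
    rw [← Finset.add_sum_erase _ _ (Finset.mem_range.mpr (hl v)),
      ← Finset.add_sum_erase _ (fun i => f (S.filter (fun v => l v = i)).card)
        (Finset.mem_range.mpr (hl v))]
    have e1 : ∑ i ∈ (Finset.range Lay).erase (l v), f ((S.erase v).filter (fun v => l v = i)).card =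
        ∑ i ∈ (Finset.range Lay).erase (l v), f (S.filter (fun v => l v = i)).card := by
      refine Finset.sum_congr rfl fun i hi => ?_
      congr 2
      ext w
      simp only [Finset.mem_filter, Finset.mem_erase]
      constructor
      · rintro ⟨⟨_, a⟩, b⟩; exact ⟨a, b⟩
      · rintro ⟨a, b⟩; exact ⟨⟨fun e => Finset.ne_of_mem_erase hi (by rw [← b, e]), a⟩, b⟩
    rw [e1, Finset.filter_erase, Finset.card_erase_of_mem (by simp [hv])]
    ring
  have main := greedy (row_nonneg hp0.le hp1) (row_sum p) n le_rfl Φ Valid Win hΦ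
    (fun m s hs => ⟨hs.1, hs.2.1, fun u hu => (Nat.le_succ m).trans (hs.2.2 u hu)⟩)
    (by
      intro s hs
      rcases s.1.eq_empty_or_nonempty with h | ⟨v, hv⟩
      · exact Or.inl fun ω => hempty 0 s ω hs h
      · right
        refine le_trans ?_ (Finset.single_le_sum (f := fun i => f (s.1.filter (fun v => l v = i)).card)
          (fun i _ => hf0 _) (Finset.mem_range.mpr (hl v)))
        have h1 : 1 ≤ (s.1.filter (fun w => l w = l v)).card :=
          Finset.card_pos.mpr ⟨v, by simp [hv]⟩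
        have h2 : (1:ℝ) ≤ (s.1.filter (fun w => l w = l v)).card := by exact_mod_cast h1
        have : 0 ≤ min ((s.1.filter (fun w => l w = l v)).card : ℝ) T₀ :=
          le_min (Nat.cast_nonneg _) (by linarith)
        simp only [f]; nlinarith)
    (by
      rintro m hm s a ω ⟨ψ, h1, h2, h3⟩
      refine ⟨ψ, h1, h2, fun v hv => ⟨by have := (h3 v hv).1; omega, fun u hu => ?_⟩⟩
      refine ⟨((h3 v hv).2 u hu).1, ?_⟩
      rw [Function.update_of_ne (fun e => by have := (h3 v hv).1; rw [e] at this; simp at this)]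
      exact ((h3 v hv).2 u hu).2)
    (by
      rintro m hm ⟨S, ψ⟩ - hs
      rcases S.eq_empty_or_nonempty with h | hne
      · exact Or.inl fun ω => hempty _ _ ω hs h
      right
      obtain ⟨hS, hinj, hlow⟩ := hs
      simp only at hS hinj hlow
      obtain ⟨v₀, hv₀, hmin⟩ := Finset.exists_min_image S l hne
      let S₀ := S.filter (fun w => l w = l v₀)
      have hS₀ : S₀.Nonempty := ⟨v₀, by simp [S₀, hv₀]⟩
      have hback : ∀ v ∈ S₀, ∀ u ∈ D v, u ∈ U \ S := by
        intro v hv u hu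
        refine Finset.mem_sdiff.mpr ⟨(hD v u hu).2, fun h => ?_⟩
        have := hmin u h; have := hlD v u hu; have := (Finset.mem_filter.mp hv).2; omega
      let T : W → Finset (Fin n) := fun v => (D v).image ψ
      have hT : ∀ v, (T v).card ≤ j := fun v => Finset.card_image_le.trans (hj v)
      refine ⟨f S₀.card - f (S₀.card - 1), fun a => ∃ v ∈ S₀, ∀ x ∈ T v, a x = true,
        Classical.decPred _, ?_, ?_⟩
      · change 1 ≤ _ * Pr (coin p) (fun a : Fin n → Bool => ∃ v ∈ S₀, ∀ x ∈ T v, a x = true)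
        have h1 : 1 ≤ S₀.card := hS₀.card_pos
        have hc : ((S₀.card - 1 : ℕ) : ℝ) = S₀.card - 1 := by push_cast [h1]; ring
        have hP := Pr_nonneg (coin_nonneg hp0.le hp1)
          (fun a : Fin n → Bool => ∃ v ∈ S₀, ∀ x ∈ T v, a x = true)
        by_cases hb : j * D' * y ≤ S₀.card
        · have := second_moment hp0 hp1 S₀ hS₀ T j y (j * D') (fun v _ => hT v) hy (by
            intro v hv
            have e1 : S₀.filter (fun u => ¬ Disjoint (T u) (T v)) ⊆
                (D v).biUnion (fun x => U.filter (fun w => x ∈ D w)) := by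
              intro u hu
              obtain ⟨hu1, hu2⟩ := Finset.mem_filter.mp hu
              obtain ⟨z, hz1, hz2⟩ := Finset.not_disjoint_iff.mp hu2
              obtain ⟨a, ha, rfl⟩ := Finset.mem_image.mp hz1
              obtain ⟨b, hb, e⟩ := Finset.mem_image.mp hz2
              have := hinj (hback v hv b hb) (hback u hu1 a ha) e
              subst this
              exact Finset.mem_biUnion.mpr ⟨b, hb, Finset.mem_filter.mpr ⟨(hD u b ha).1, ha⟩⟩
            have e2 := (Finset.card_le_card e1).trans Finset.card_biUnion_le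
            have e3 : ((S₀.filter (fun u => ¬ Disjoint (T u) (T v))).card : ℝ) ≤
                ∑ x ∈ D v, ((U.filter (fun w => x ∈ D w)).card : ℝ) := by exact_mod_cast e2
            refine e3.trans ((Finset.sum_le_card_nsmul _ _ _ fun x _ => hD' x).trans ?_)
            rw [nsmul_eq_mul]
            exact mul_le_mul_of_nonneg_right (by exact_mod_cast hj v) hD0) hb
          have e : 2 ≤ f S₀.card - f (S₀.card - 1) := by
            simp only [f, hc]
            have : min ((S₀.card : ℝ) - 1) T₀ ≤ min (S₀.card : ℝ) T₀ :=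
              min_le_min_right _ (by linarith)
            nlinarith
          nlinarith
        · have e : y ≤ f S₀.card - f (S₀.card - 1) := by
            simp only [f, hc]
            rw [min_eq_left (by linarith), min_eq_left (by linarith)]
            linarith
          have e2 : p ^ j ≤ Pr (coin p) (fun a : Fin n → Bool => ∃ v ∈ S₀, ∀ x ∈ T v, a x = true) := by
            refine le_trans ?_ (Pr_mono (coin_nonneg hp0.le hp1)
              (E := fun a => ∀ x ∈ T v₀, a x = true) fun a ha => ⟨v₀, by simp [S₀, hv₀], ha⟩)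
            have := prob_superset p (T v₀)
            refine le_trans (pow_le_pow_of_le_one hp0.le hp1 (hT v₀)) (le_of_eq ?_)
            rw [← this]; unfold Pr
            exact Finset.sum_congr rfl fun a _ => by congr
          have e3 : 1 ≤ y * p ^ j := by
            have := mul_le_mul_of_nonneg_right hy (pow_pos hp0 j).le
            rwa [← mul_pow, one_div_mul_cancel hp0.ne', one_pow] at this
          have := mul_le_mul e e2 (pow_pos hp0 j).le (by linarith)
          linarith
      · rintro a ⟨v, hv, ha⟩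
        have hvS := (Finset.mem_filter.mp hv).1
        have hvl := (Finset.mem_filter.mp hv).2
        have hne : ∀ u ∈ U \ S, u ≠ v := fun u hu e => (Finset.mem_sdiff.mp hu).2 (e ▸ hvS)
        have hmem : ∀ u, u ∈ U \ S.erase v → u = v ∨ u ∈ U \ S := by
          intro u hu
          by_cases e : u = v
          · exact Or.inl e
          · right; simp only [Finset.mem_sdiff, Finset.mem_erase] at hu ⊢; tauto
        refine ⟨(S.erase v, Function.update ψ v ⟨m, hm⟩), ⟨(Finset.erase_subset _ _).trans hS,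
          ?_, ?_⟩, ?_, ?_⟩
        · intro a ha b hb e
          simp only at ha hb e
          rcases hmem a ha with rfl | ha' <;> rcases hmem b hb with rfl | hb'
          · rfl
          · rw [Function.update_self, Function.update_of_ne (hne b hb')] at e
            have := hlow b hb'; rw [← e] at this; simp at this
          · rw [Function.update_self, Function.update_of_ne (hne a ha')] at e
            have := hlow a ha'; rw [e] at this; simp at this
          · rw [Function.update_of_ne (hne a ha'), Function.update_of_ne (hne b hb')] at e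
            exact hinj ha' hb' e
        · intro u hu
          rcases hmem u hu with rfl | hu'
          · simp
          · simp only; rw [Function.update_of_ne (hne u hu')]
            have := hlow u hu'; omega
        · rw [hdrop S ψ _ v hvS, hvl]
        · rintro ω ⟨ψ', h1, h2, h3⟩
          simp only at h1 h3
          have h4 : ∀ u ∈ U \ S, ψ' u = ψ u := by
            intro u hu
            rw [h1 u (by simp only [Finset.mem_sdiff, Finset.mem_erase] at hu ⊢; tauto),
              Function.update_of_ne (hne u hu)]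
          have h5 : ψ' v = ⟨m, hm⟩ := by
            rw [h1 v (by simp [hS hvS]), Function.update_self]
          refine ⟨ψ', h4, h2, fun w hw => ?_⟩
          by_cases e : w = v
          · subst e
            rw [h5]
            refine ⟨by simp, fun u hu => ?_⟩
            rw [h4 u (hback w hv u hu), Function.update_self]
            refine ⟨?_, ha _ (Finset.mem_image_of_mem _ hu)⟩
            have := hlow u (hback w hv u hu)
            rw [Fin.lt_def]; simp only; omega
          · have h6 := h3 w (Finset.mem_erase.mpr ⟨e, hw⟩)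
            refine ⟨by omega, fun u hu => ⟨(h6.2 u hu).1, ?_⟩⟩
            rw [Function.update_of_ne (fun e => by have := h6.1; rw [e] at this; simp at this)]
            exact (h6.2 u hu).2)
    n le_rfl (U, fun _ => ⟨0, hn⟩) ⟨subset_rfl, by simp, by simp⟩
  have hΦ0 : Φ (U, fun _ => ⟨0, hn⟩) ≤ 2 * U.card + Lay * (y * T₀) := by
    simp only [Φ, f]
    rw [Finset.sum_add_distrib, ← Finset.mul_sum]
    have e1 : ∑ i ∈ Finset.range Lay, ((U.filter (fun v => l v = i)).card : ℝ) = U.card := by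
      rw [Finset.card_eq_sum_card_fiberwise (f := l) (s := U) (t := Finset.range Lay)
        (fun v _ => Finset.mem_coe.mpr (Finset.mem_range.mpr (hl v)))]
      push_cast; rfl
    rw [e1]
    have e2 := Finset.sum_le_card_nsmul (Finset.range Lay)
      (fun i => y * min ((U.filter (fun v => l v = i)).card : ℝ) T₀) (y * T₀)
      fun i _ => mul_le_mul_of_nonneg_left (min_le_right _ _) (by linarith)
    rw [Finset.card_range, nsmul_eq_mul] at e2
    linarith
  rw [Pr_not (row_sum p)] at main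
  have : Φ (U, fun _ => ⟨0, hn⟩) / (n + 1) ≤ 1 / 2 := by
    rw [div_le_iff₀ (by positivity)]; linarith
  refine le_trans (by linarith) (Pr_mono (row_nonneg hp0.le hp1)
    (E := Win n (U, fun _ => ⟨0, hn⟩)) ?_)
  rintro ω ⟨ψ, -, h2, h3⟩
  exact ⟨U, ψ, h2, fun v u hu => ⟨(hD v u hu).1, (hD v u hu).2,
    Or.inl ((h3 v (hD v u hu).1).2 u hu)⟩⟩

end Crest.Agent.Lead
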