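import Mathlib

set_option autoImplicit false

namespace Crest.Agent.Lead

open Finset

/-- layer-cake comparison for finite weighted families -/
theorem layer_cake {ι κ : Type*} (s : Finset ι) (t : Finset κ) (a u : ι → ℝ) (b w : κ → ℝ)
    (ha : ∀ i ∈ s, 0 ≤ a i) (hb : ∀ j ∈ t, 0 ≤ b j)
    (h : ∀ x : ℝ, 0 < x → ∑ i ∈ s, (if x ≤ a i then u i else 0) ≤
      ∑ j ∈ t, (if x ≤ b j then w j else 0)) :
    ∑ i ∈ s, u i * a i ≤ ∑ j ∈ t, w j * b j := by
  have key : ∀ c d : ℝ, 0 ≤ c →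
      ∫ x in Set.Ioi (0:ℝ), (if x ≤ c then d else 0) = d * c := by
    intro c d hc
    have : (fun x : ℝ => if x ≤ c then d else 0) = (Set.Iic c).indicator (fun _ => d) := by
      funext x; simp [Set.indicator]
    rw [this, MeasureTheory.integral_indicator measurableSet_Iic,
      MeasureTheory.Measure.restrict_restrict measurableSet_Iic]
    have : Set.Iic c ∩ Set.Ioi 0 = Set.Ioc 0 c := by
      ext x; simp [and_comm]
    rw [this]
    simp [hc, mul_comm]
  have hint : ∀ c d : ℝ, MeasureTheory.IntegrableOn (fun x : ℝ => if x ≤ c then d else 0)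
      (Set.Ioi 0) := by
    intro c d
    have : (fun x : ℝ => if x ≤ c then d else 0) = (Set.Iic c).indicator (fun _ => d) := by
      funext x; simp [Set.indicator]
    rw [this, MeasureTheory.IntegrableOn, MeasureTheory.integrable_indicator_iff measurableSet_Iic,
      MeasureTheory.IntegrableOn, MeasureTheory.Measure.restrict_restrict measurableSet_Iic]
    have : Set.Iic c ∩ Set.Ioi 0 = Set.Ioc 0 c := by
      ext x; simp [and_comm]
    rw [this]
    exact MeasureTheory.integrableOn_const (by simp)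
  calc ∑ i ∈ s, u i * a i
      = ∑ i ∈ s, ∫ x in Set.Ioi (0:ℝ), (if x ≤ a i then u i else 0) :=
        Finset.sum_congr rfl fun i hi => (key _ _ (ha i hi)).symm
    _ = ∫ x in Set.Ioi (0:ℝ), ∑ i ∈ s, (if x ≤ a i then u i else 0) :=
        (MeasureTheory.integral_finset_sum s fun i _ => hint _ _).symm
    _ ≤ ∫ x in Set.Ioi (0:ℝ), ∑ j ∈ t, (if x ≤ b j then w j else 0) := by
        apply MeasureTheory.setIntegral_mono_on
        · exact MeasureTheory.integrable_finset_sum s fun i _ => hint _ _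
        · exact MeasureTheory.integrable_finset_sum t fun i _ => hint _ _
        · exact measurableSet_Ioi
        · intro x hx; exact h x hx
    _ = ∑ j ∈ t, ∫ x in Set.Ioi (0:ℝ), (if x ≤ b j then w j else 0) :=
        MeasureTheory.integral_finset_sum t fun i _ => hint _ _
    _ = ∑ j ∈ t, w j * b j := Finset.sum_congr rfl fun j hj => key _ _ (hb j hj)

/-- Ville's theorem of the alternative -/
theorem ville {X J : Type*} [Fintype X] [Fintype J] (L : X → J → ℝ)
    (h : ∀ l : J → ℝ, (∀ j, 0 ≤ l j) → ∃ x, ∑ j, l j * L x j ≤ 0) :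
    ∃ π : X → ℝ, (∀ x, 0 ≤ π x) ∧ ∑ x, π x = 1 ∧ ∀ j, ∑ x, π x * L x j ≤ 0 := by
  classical
  by_contra hcon
  push Not at hcon
  let Φ : (X → ℝ) →ₗ[ℝ] (J → ℝ) :=
    { toFun := fun π j => ∑ x, π x * L x j
      map_add' := by intro a b; funext j; simp [add_mul, Finset.sum_add_distrib]
      map_smul' := by intro c a; funext j; simp [Finset.mul_sum, mul_assoc] }
  let C : Set (J → ℝ) := Φ '' stdSimplex ℝ X
  let O : Set (J → ℝ) := {z | ∀ j, z j ≤ 0}
  have hC1 : Convex ℝ C := (convex_stdSimplex ℝ X).linear_image Φ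
  have hC2 : IsCompact C :=
    (isCompact_stdSimplex ℝ X).image Φ.continuous_of_finiteDimensional
  have hO1 : Convex ℝ O := by
    intro x hx y hy a b ha hb _ j
    have := hx j; have := hy j
    simp only [Pi.add_apply, Pi.smul_apply, smul_eq_mul]
    nlinarith
  have hO2 : IsClosed O := by
    have : O = ⋂ j, {z : J → ℝ | z j ≤ 0} := by ext z; simp [O]
    rw [this]
    exact isClosed_iInter fun j => isClosed_le (continuous_apply j) continuous_const
  have hd : Disjoint C O := by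
    rw [Set.disjoint_left]
    rintro z ⟨π, hπ, rfl⟩ hz
    obtain ⟨j, hj⟩ := hcon π hπ.1 hπ.2
    exact absurd (hz j) (not_le.mpr hj)
  obtain ⟨f, u, v, h1, huv, h2⟩ := geometric_hahn_banach_compact_closed hC1 hC2 hO1 hO2 hd
  have hv : v < 0 := by simpa using h2 0 (fun j => le_refl _)
  have hf : ∀ z : J → ℝ, f z = ∑ j, z j * f (Pi.single j 1) := by
    intro z
    conv_lhs => rw [show z = ∑ j, z j • (Pi.single j (1:ℝ) : J → ℝ) from by
      funext k; simp [Finset.sum_apply, Pi.single_apply]]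
    simp [map_sum]
  have hl : ∀ j, 0 ≤ - f (Pi.single j 1) := by
    intro j
    by_contra hneg
    push Not at hneg
    have hpos : 0 < f (Pi.single j 1) := by linarith
    have hz : ((v / f (Pi.single j 1)) • (Pi.single j (1:ℝ) : J → ℝ)) ∈ O := by
      intro k
      simp only [Pi.smul_apply, smul_eq_mul, Pi.single_apply]
      split_ifs
      · simpa using (div_neg_of_neg_of_pos hv hpos).le
      · simp
    have := h2 _ hz
    rw [map_smul, smul_eq_mul, div_mul_cancel₀ _ hpos.ne'] at this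
    exact lt_irrefl _ this
  obtain ⟨x, hx⟩ := h _ hl
  have hmem : Φ (Pi.single x 1) ∈ C := ⟨_, single_mem_stdSimplex ℝ x, rfl⟩
  have h3 := h1 _ hmem
  rw [hf] at h3
  have : ∀ j, Φ (Pi.single x 1) j = L x j := by
    intro j; simp [Φ, Pi.single_apply]
  simp only [this] at h3
  have : ∑ j, -f (Pi.single j 1) * L x j = - ∑ j, L x j * f (Pi.single j 1) := by
    rw [← Finset.sum_neg_distrib]; exact Finset.sum_congr rfl fun j _ => by ring
  linarith

/-- expectation of a product under a product weight -/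
theorem sum_pi_prod {ι S : Type*} [Fintype ι] [DecidableEq ι] [Fintype S] (F : ι → S → ℝ) :
    ∑ a : ι → S, ∏ x, F x (a x) = ∏ x, ∑ σ, F x σ := by
  rw [Finset.prod_univ_sum]; simp

section kernel
variable {ι S : Type*} [Fintype ι] [DecidableEq ι] [Fintype S]

/-- product weight -/
noncomputable def wt (ρ : S → ℝ) (a : ι → S) : ℝ := ∏ x, ρ (a x)

omit [DecidableEq ι] [Fintype S] in
theorem wt_nonneg {ρ : S → ℝ} (h : ∀ σ, 0 ≤ ρ σ) (a : ι → S) : 0 ≤ wt ρ a :=
  Finset.prod_nonneg fun _ _ => h _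

theorem sum_wt {ρ : S → ℝ} (h : ∑ σ, ρ σ = 1) : ∑ a : ι → S, wt ρ a = 1 := by
  unfold wt; rw [sum_pi_prod (fun _ σ => ρ σ)]; simp [h]

theorem sum_wt_prod (ρ : S → ℝ) (F : ι → S → ℝ) :
    ∑ a : ι → S, wt ρ a * ∏ x, F x (a x) = ∏ x, ∑ σ, ρ σ * F x σ := by
  rw [← sum_pi_prod]; unfold wt
  exact Finset.sum_congr rfl fun a _ => by rw [Finset.prod_mul_distrib]

theorem sum_wt_prod_on {ρ : S → ℝ} (h : ∑ σ, ρ σ = 1) (T : Finset ι) (F : ι → S → ℝ) :
    ∑ a : ι → S, wt ρ a * ∏ x ∈ T, F x (a x) = ∏ x ∈ T, ∑ σ, ρ σ * F x σ := by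
  have h1 : ∀ a : ι → S, ∏ x ∈ T, F x (a x) = ∏ x, (if x ∈ T then F x (a x) else 1) := by
    intro a; rw [Finset.prod_ite_mem]; simp
  simp_rw [h1]
  rw [sum_wt_prod ρ (fun x σ => if x ∈ T then F x σ else 1)]
  have h2 : ∀ x, ∑ σ, ρ σ * (if x ∈ T then F x σ else 1) =
      if x ∈ T then ∑ σ, ρ σ * F x σ else 1 := by
    intro x; split_ifs <;> simp [h]
  simp_rw [h2]
  rw [Finset.prod_ite_mem]; simp

/-- Fourier-type coefficient -/
noncomputable def coef (ρ ψ : S → ℝ) (f : (ι → S) → ℝ) (Y : Finset ι) : ℝ :=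
  ∑ a, wt ρ a * f a * ∏ x ∈ Y, ψ (a x)

theorem kernel_expand (ρ ψ : S → ℝ) (f : (ι → S) → ℝ) (c : ℝ) (T : Finset ι) :
    ∑ a, ∑ b, wt ρ a * f a * (wt ρ b * f b) * ∏ x ∈ T, (1 + c * ψ (a x) * ψ (b x)) =
      ∑ Y ∈ T.powerset, c ^ Y.card * coef ρ ψ f Y ^ 2 := by
  simp_rw [Finset.prod_one_add, Finset.mul_sum]
  rw [Finset.sum_comm]
  simp_rw [Finset.sum_comm (s := Finset.univ) (t := T.powerset)]
  refine Finset.sum_congr rfl fun Y _ => ?_
  unfold coef
  rw [sq, Finset.sum_mul_sum, Finset.mul_sum]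
  refine Finset.sum_congr rfl fun a _ => ?_
  rw [Finset.mul_sum]
  refine Finset.sum_congr rfl fun b _ => ?_
  rw [Finset.prod_mul_distrib, Finset.prod_mul_distrib, Finset.prod_const]
  ring

theorem bessel {ρ ψ : S → ℝ} (hρ : ∀ σ, 0 ≤ ρ σ) (h1 : ∑ σ, ρ σ = 1)
    (hψ : ∑ σ, ρ σ * ψ σ = 0) (c : ℝ) (hc : ∀ σ τ, 0 ≤ 1 + c * ψ σ * ψ τ)
    (f : (ι → S) → ℝ) (hf0 : ∀ a, 0 ≤ f a) (hf1 : ∀ a, f a ≤ 1) :
    ∑ Y : Finset ι, c ^ Y.card * coef ρ ψ f Y ^ 2 ≤ ∑ a, wt ρ a * f a := by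
  rw [← Finset.powerset_univ, ← kernel_expand]
  refine Finset.sum_le_sum fun a _ => ?_
  have h2 : ∑ b : ι → S, wt ρ b * ∏ x, (1 + c * ψ (a x) * ψ (b x)) = 1 := by
    rw [sum_wt_prod ρ (fun x σ => 1 + c * ψ (a x) * ψ σ)]
    refine Finset.prod_eq_one fun x _ => ?_
    simp_rw [mul_add, Finset.sum_add_distrib, mul_one, h1]
    have : ∑ σ, ρ σ * (c * ψ (a x) * ψ σ) = c * ψ (a x) * ∑ σ, ρ σ * ψ σ := by
      rw [Finset.mul_sum]; exact Finset.sum_congr rfl fun _ _ => by ring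
    rw [this, hψ]; ring
  calc ∑ b, wt ρ a * f a * (wt ρ b * f b) * ∏ x, (1 + c * ψ (a x) * ψ (b x))
      ≤ ∑ b, wt ρ a * f a * (wt ρ b * ∏ x, (1 + c * ψ (a x) * ψ (b x))) := by
        refine Finset.sum_le_sum fun b _ => ?_
        have p1 : 0 ≤ wt ρ a * f a := mul_nonneg (wt_nonneg hρ a) (hf0 a)
        have p2 : 0 ≤ wt ρ b * ∏ x, (1 + c * ψ (a x) * ψ (b x)) :=
          mul_nonneg (wt_nonneg hρ b) (Finset.prod_nonneg fun _ _ => hc _ _)
        have := mul_le_mul_of_nonneg_left (hf1 b) (mul_nonneg p1 p2)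
        nlinarith
    _ = wt ρ a * f a := by rw [← Finset.mul_sum, h2, mul_one]

omit [DecidableEq ι] in
theorem coef_empty (ρ ψ : S → ℝ) (f : (ι → S) → ℝ) [DecidableEq ι] :
    coef ρ ψ f ∅ = ∑ a, wt ρ a * f a := by simp [coef]

end kernel

end Crest.Agent.Lead
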