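import Crest.Agent.Lead.Cover

set_option autoImplicit false

namespace Crest.Agent.Lead

open Finset Crest.CombinatoricsR.RandomGraph

variable {W : Type} [Fintype W] [DecidableEq W] {n : ℕ}

theorem geom_tail (θ : ℝ) (h0 : 0 ≤ θ) (h1 : θ ≤ 1 / 2) (m : ℕ) :
    ∑ d ∈ Finset.range m, θ ^ (d + 1) ≤ 2 * θ := by
  have : ∀ m : ℕ, ∑ d ∈ Finset.range m, θ ^ (d + 1) ≤ 2 * θ - 2 * θ ^ (m + 1) := by
    intro m
    induction m with
    | zero => simp
    | succ m ih =>
      rw [Finset.sum_range_succ, pow_succ θ (m + 1)]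
      have : 0 ≤ θ ^ (m + 1) := by positivity
      nlinarith
  have h2 := this m
  have : 0 ≤ θ ^ (m + 1) := by positivity
  linarith

theorem sparse {H : SimpleGraph W} (hW : Fintype.card W ≤ n) (hn : 10 ^ 40 ≤ n) {r p : ℝ}
    (hr0 : 0 < r) (hp : p = 10 ^ 8 * r) (hp1 : p ≤ 1 / 2) (hr : ¬ Small H n r) (Δ : ℕ)
    (hΔ : Δ ≤ 80) (B : W → Finset W) (col : W → ℕ) (hB : ∀ v, (B v).card ≤ Δ)
    (hBA : ∀ v, ∀ u ∈ B v, H.Adj v u) (hcol : ∀ v, col v ≤ Δ)
    (hcol' : ∀ u v, H.Adj u v → col u ≠ col v) :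
    ∃ lab : W → W → Fin 3200 × Fin 80 × Fin 81 × Fin 81, ∀ i,
      1 / 2 ≤ Pr (wt (coin p)) (fun ω : Fin n → Fin n → Bool =>
        Emb (fun v => (B v).filter (fun u => lab v u = i)) ω) := by
  classical
  have hp0 : 0 < p := by rw [hp]; positivity
  obtain ⟨κ, hκ⟩ := split_classes (Finset.univ : Finset W) (n / 3200 + 1) 3200 (by norm_num)
    (by rw [Finset.card_univ]; omega)
  choose idx hidx using fun v => split_classes (B v) 1 80 (by norm_num) (by have := hB v; omega)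
  let cf : W → Fin 81 := fun v => ⟨col v, by have := hcol v; omega⟩
  refine ⟨fun v u => (κ v, idx v u, cf v, cf u), ?_⟩
  rintro ⟨a, b, cv, cu⟩
  set D : W → Finset W := fun v => (B v).filter (fun u => (κ v, idx v u, cf v, cf u) = (a, b, cv, cu))
    with hD
  have hDm : ∀ v u, u ∈ D v → u ∈ B v ∧ κ v = a ∧ idx v u = b ∧ cf v = cv ∧ cf u = cu := by
    intro v u h; simpa [hD] using h
  let Z : Finset W := Finset.univ.biUnion D
  let Lf : W → Finset W := fun c => Finset.univ.filter (fun v => c ∈ D v)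
  have hLf : ∀ c v, v ∈ Lf c ↔ c ∈ D v := by intro c v; simp [Lf]
  have hdis : ∀ c c' v, v ∈ Lf c → v ∈ Lf c' → c = c' := by
    intro c c' v h h'
    have h1 := hDm v c ((hLf _ _).mp h)
    have h2 := hDm v c' ((hLf _ _).mp h')
    exact Finset.card_le_one.mp (hidx v b) c (Finset.mem_filter.mpr ⟨h1.1, h1.2.2.1⟩) c'
      (Finset.mem_filter.mpr ⟨h2.1, h2.2.2.1⟩)
  have hZ : ∀ c, ∀ v ∈ Lf c, v ∉ Z := by
    intro c v hv hvZ
    obtain ⟨w, -, hw⟩ := Finset.mem_biUnion.mp hvZ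
    have h1 := hDm v c ((hLf _ _).mp hv)
    have h2 := hDm w v hw
    apply hcol' v c (hBA v c h1.1)
    have : cf v = cf c := by rw [h2.2.2.2.2, h1.2.2.2.2]
    simpa [cf] using this
  have hsum : ∑ c ∈ Z, (Lf c).card ≤ n / 3200 + 1 := by
    rw [← Finset.card_biUnion]
    · refine le_trans (Finset.card_le_card ?_) (hκ a)
      intro v hv
      obtain ⟨c, -, hc⟩ := Finset.mem_biUnion.mp hv
      simpa using (hDm v c ((hLf _ _).mp hc)).2.1
    · intro c _ c' _ hne
      exact Finset.disjoint_left.mpr fun v h h' => hne (hdis c c' v h h')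
  have hpos : ∀ c ∈ Z, 1 ≤ (Lf c).card := by
    intro c hc
    obtain ⟨w, -, hw⟩ := Finset.mem_biUnion.mp hc
    exact Finset.card_pos.mpr ⟨w, (hLf _ _).mpr hw⟩
  have hle : ∀ c ∈ Z, (Lf c).card ≤ n / 3200 + 1 := fun c hc =>
    (Finset.single_le_sum (f := fun c => (Lf c).card) (fun _ _ => Nat.zero_le _) hc).trans hsum
  have hn' : (10:ℝ) ^ 40 ≤ n := by exact_mod_cast hn
  have hR : (n:ℝ) / 5 ≤ (n / 4 : ℕ) := by
    have : n ≤ 5 * (n / 4) := by omega
    have : (n:ℝ) ≤ 5 * (n / 4 : ℕ) := by exact_mod_cast this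
    linarith
  have hn0 : 0 < n := by omega
  have hsz : n / 2 + n / 4 + ∑ c ∈ Z, (Lf c).card ≤ n := by omega
  have hc1 : ∀ c, (1:ℝ) ≤ 2 + (13122 * (Lf c).card / ((n / 4 : ℕ) * p)) ^ (Lf c).card := by
    intro c
    have : 0 ≤ (13122 * (Lf c).card / ((n / 4 : ℕ) * p)) ^ (Lf c).card :=
      pow_nonneg (div_nonneg (mul_nonneg (by norm_num) (Nat.cast_nonneg _))
        (mul_nonneg (Nat.cast_nonneg _) hp0.le)) _
    exact le_trans (by norm_num) (le_add_of_nonneg_right this)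
  have hc2 : ∀ c ∈ Z, ∀ F : Finset (Fin n), F.card = n / 4 →
      1 ≤ (2 + (13122 * (Lf c).card / ((n / 4 : ℕ) * p)) ^ (Lf c).card) *
      Pr (coin p) (fun a : Fin n → Bool => (Lf c).card ≤ (F.filter (fun x => a x = true)).card) := by
    intro c hc F hF
    have := binom_tail hp0 hp1 F (Lf c).card (hpos c hc) (by have := hle c hc; omega)
    rwa [hF] at this
  refine piece_star hp0.le (by linarith) hn0 (n / 2) (n / 4) Z Lf D
    (fun v u hu => ⟨Finset.mem_biUnion.mpr ⟨v, Finset.mem_univ _, hu⟩, (hLf _ _).mpr hu⟩)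
    (fun c _ c' _ v => hdis c c' v) (fun c _ => hZ c) hsz
    (fun c => 2 + (13122 * (Lf c).card / ((n / 4 : ℕ) * p)) ^ (Lf c).card) hc1 hc2 ?_
  clear_value Lf Z
  clear hκ hidx hc1 hc2 hD
  clear_value D
  rw [Finset.sum_add_distrib, Finset.sum_const, nsmul_eq_mul]
  have e1 : (Z.card : ℝ) ≤ n / 3200 + 1 := by
    have h1 : Z.card ≤ n / 3200 + 1 := by
      refine le_trans ?_ hsum
      simpa using Finset.card_nsmul_le_sum Z (fun c => (Lf c).card) 1 hpos
    have h2 : ((n / 3200 : ℕ) : ℝ) ≤ n / 3200 := Nat.cast_div_le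
    have h3 : (Z.card : ℝ) ≤ (n / 3200 : ℕ) + 1 := by exact_mod_cast h1
    linarith
  have e2 : ∑ c ∈ Z, (13122 * (Lf c).card / ((n / 4 : ℕ) * p)) ^ (Lf c).card ≤
      6 * n * (2 * (1 / 500)) := by
    rw [← Finset.sum_fiberwise_of_maps_to (s := Z) (t := Finset.range n)
      (g := fun c => (Lf c).card - 1) (fun c hc => by
        have := hle c hc; have := hpos c hc; rw [Finset.mem_range]; omega)]
    refine le_trans ?_ (mul_le_mul_of_nonneg_left (geom_tail (1/500) (by norm_num) (by norm_num) n)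
      (by positivity))
    rw [Finset.mul_sum]
    refine Finset.sum_le_sum fun d _ => ?_
    have hc : ∀ c ∈ Z.filter (fun c => (Lf c).card - 1 = d), (Lf c).card = d + 1 := by
      intro c hc
      obtain ⟨h1, h2⟩ := Finset.mem_filter.mp hc
      have := hpos c h1; omega
    rw [Finset.sum_congr rfl (g := fun _ => (13122 * (d + 1 : ℕ) / ((n / 4 : ℕ) * p)) ^ (d + 1))
      (fun c h => by rw [hc c h]), Finset.sum_const, nsmul_eq_mul]
    have := star_cover hr hr0.le (by linarith) (Z.filter (fun c => (Lf c).card - 1 = d)) Lf (d + 1)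
      (by omega) hc (fun c _ v hv h => hZ c v hv (Finset.mem_filter.mp h).1)
      (fun c _ v hv => (hBA v c (hDm v c ((hLf _ _).mp hv)).1).symm)
    refine (mul_le_mul_of_nonneg_right this (by positivity)).trans ?_
    rw [mul_assoc (6 * n : ℝ), ← mul_pow]
    refine mul_le_mul_of_nonneg_left (pow_le_pow_left₀ (by positivity) ?_ _) (by positivity)
    have hRp : (0:ℝ) < (n / 4 : ℕ) := by linarith
    have : 3 * n * r / (d + 1 : ℕ) * (13122 * (d + 1 : ℕ) / ((n / 4 : ℕ) * p)) =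
        39366 * n / (10 ^ 8 * (n / 4 : ℕ)) := by
      rw [hp]; field_simp; norm_num
    rw [this, div_le_iff₀ (by positivity)]
    linarith
  have e3 : (n:ℝ) / 2 ≤ (n / 2 : ℕ) + 1 := by
    have : n ≤ 2 * (n / 2 + 1) := by omega
    have : (n:ℝ) ≤ 2 * ((n / 2 : ℕ) + 1) := by exact_mod_cast this
    linarith
  linarith

end Crest.Agent.Lead
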