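import Crest.Agent.Lead.Pieces

set_option autoImplicit false

namespace Crest.Agent.Lead

open Finset

theorem binom_tail {ι : Type*} [Fintype ι] [DecidableEq ι] {p : ℝ} (hp0 : 0 < p) (hp1 : p ≤ 1 / 2)
    (F : Finset ι) (d : ℕ) (hd : 1 ≤ d) (hdR : 2 * d ≤ F.card) :
    1 ≤ (2 + (13122 * d / (F.card * p)) ^ d) *
      Pr (coin p) (fun a : ι → Bool => d ≤ (F.filter (fun x => a x = true)).card) := by
  classical
  have c0 := coin_nonneg hp0.le (show p ≤ 1 by linarith)
  have hP := Pr_nonneg c0 (fun a : ι → Bool => d ≤ (F.filter (fun x => a x = true)).card)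
  have hd' : (1:ℝ) ≤ d := by exact_mod_cast hd
  have hR : (2 * d : ℝ) ≤ F.card := by exact_mod_cast hdR
  have hR0 : (0:ℝ) < F.card := by linarith
  have hq : 0 ≤ (13122 * d / (F.card * p)) ^ d := by positivity
  by_cases h : 4 * d ≤ F.card * p
  · have h1 := chernoff_lower c0 (sum_coin p) F (fun b => if b = true then (1:ℝ) else 0) 1 p
      one_pos (fun b => by split_ifs <;> norm_num) (fun b => by split_ifs <;> norm_num)
      (by simp [coin])
    have h2 : Real.exp (- (F.card * p / (4 * 1))) ≤ 1 / 2 := by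
      refine (Real.exp_le_exp.mpr (show _ ≤ -1 by linarith)).trans ?_
      rw [Real.exp_neg, inv_le_comm₀ (Real.exp_pos _) (by norm_num)]
      have := Real.add_one_le_exp 1; linarith
    have h3 := Pr_not (sum_coin p) (fun ω : ι → Bool =>
      ∑ i ∈ F, (if ω i = true then (1:ℝ) else 0) < F.card * p / 4)
    have h4 := Pr_mono c0 (E := fun ω : ι → Bool =>
      ¬ ∑ i ∈ F, (if ω i = true then (1:ℝ) else 0) < F.card * p / 4)
      (F := fun a : ι → Bool => d ≤ (F.filter (fun x => a x = true)).card) (by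
        intro a ha
        rw [Finset.sum_boole, not_lt] at ha
        have : (d : ℝ) ≤ (F.filter (fun x => a x = true)).card := by linarith
        exact_mod_cast this)
    nlinarith
  · push Not at h
    have h1 : (F.card.choose d : ℝ) * (p ^ d * (1 - p) ^ (F.card - d)) ≤
        Pr (coin p) (fun a : ι → Bool => d ≤ (F.filter (fun x => a x = true)).card) := by
      refine le_trans (le_of_eq ?_) (le_Pr_of c0 _ (fun a => ∑ S ∈ F.powersetCard d,
        if F.filter (fun x => a x = true) = S then 1 else 0) ?_ ?_)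
      · simp_rw [Finset.mul_sum]
        rw [Finset.sum_comm, ← Finset.card_powersetCard, ← nsmul_eq_mul, ← Finset.sum_const]
        refine Finset.sum_congr rfl fun S hS => ?_
        obtain ⟨hS1, hS2⟩ := Finset.mem_powersetCard.mp hS
        have : ∀ a : ι → Bool, (if F.filter (fun x => a x = true) = S then (1:ℝ) else 0) =
            ∏ x ∈ F, if (a x = true ↔ x ∈ S) then 1 else 0 := by
          intro a
          rw [Finset.prod_boole]
          congr 1
          apply propext
          constructor
          · rintro rfl x hx; simp [hx]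
          · intro h
            ext x
            simp only [Finset.mem_filter]
            exact ⟨fun hx => (h x hx.1).mp hx.2, fun hx => ⟨hS1 hx, (h x (hS1 hx)).mpr hx⟩⟩
        simp_rw [this]
        rw [sum_wt_prod_on (sum_coin p) F (fun x b => if (b = true ↔ x ∈ S) then (1:ℝ) else 0)]
        have : ∀ x, ∑ b, coin p b * (if (b = true ↔ x ∈ S) then (1:ℝ) else 0) =
            if x ∈ S then p else 1 - p := by
          intro x; by_cases hx : x ∈ S <;> simp [hx, coin]
        simp_rw [this]
        rw [Finset.prod_ite, Finset.prod_const, Finset.prod_const, Finset.filter_mem_eq_inter,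
          Finset.inter_eq_right.mpr hS1, Finset.filter_not, Finset.filter_mem_eq_inter,
          Finset.inter_eq_right.mpr hS1, Finset.card_sdiff_of_subset hS1, hS2]
      · intro a; rw [Finset.sum_ite_eq]; split_ifs <;> norm_num
      · intro a ha; rw [Finset.sum_ite_eq, if_neg]
        intro h; exact ha (Finset.mem_powersetCard.mp h).2.ge
    have h2 : ((F.card : ℝ) / (2 * d)) ^ d ≤ F.card.choose d := by
      refine le_trans ?_ (Nat.pow_le_choose d F.card)
      have e1 : ((F.card : ℝ) / 2) ≤ (F.card + 1 - d : ℕ) := by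
        rw [Nat.cast_sub (by omega)]; push_cast; linarith
      have e2 : (d.factorial : ℝ) ≤ d ^ d := by exact_mod_cast Nat.factorial_le_pow d
      rw [← div_div, div_pow]
      have : (0:ℝ) < d.factorial := by exact_mod_cast d.factorial_pos
      gcongr
    have h3 : (1 / 6561 : ℝ) ^ d ≤ (1 - p) ^ (F.card - d) := by
      have e1 : Real.exp (- (2 * p)) ≤ 1 - p := by
        rw [Real.exp_neg, inv_le_comm₀ (Real.exp_pos _) (by linarith)]
        refine le_trans ?_ (Real.add_one_le_exp _)
        rw [inv_le_iff_one_le_mul₀ (by linarith)]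
        nlinarith
      have e2 : Real.exp 8 ≤ 6561 := by
        have : Real.exp 8 = Real.exp 1 ^ 8 := by rw [Real.exp_one_pow]; norm_num
        rw [this]
        refine (pow_le_pow_left₀ (Real.exp_pos _).le (show Real.exp 1 ≤ 3 by
          have := Real.exp_one_lt_d9; linarith) 8).trans (by norm_num)
      calc (1 / 6561 : ℝ) ^ d ≤ (Real.exp (-8)) ^ d := by
            apply pow_le_pow_left₀ (by norm_num)
            rw [Real.exp_neg, one_div]
            exact inv_anti₀ (Real.exp_pos _) e2
        _ ≤ Real.exp (- (2 * p)) ^ F.card := by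
            rw [← Real.exp_nat_mul, ← Real.exp_nat_mul, Real.exp_le_exp]; linarith
        _ ≤ (1 - p) ^ F.card := pow_le_pow_left₀ (Real.exp_pos _).le e1 _
        _ ≤ _ := pow_le_pow_of_le_one (by linarith) (by linarith) (Nat.sub_le _ _)
    have h4 : ((F.card : ℝ) / (2 * d)) ^ d * (p ^ d * (1 / 6561 : ℝ) ^ d) ≤
        (F.card.choose d : ℝ) * (p ^ d * (1 - p) ^ (F.card - d)) := by gcongr
    have h5 : (13122 * d / (F.card * p)) ^ d *
        (((F.card : ℝ) / (2 * d)) ^ d * (p ^ d * (1 / 6561 : ℝ) ^ d)) = 1 := by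
      rw [← mul_pow, ← mul_pow, ← mul_pow]
      have : 13122 * d / (F.card * p) * ((F.card : ℝ) / (2 * d) * (p * (1 / 6561))) = 1 := by
        field_simp; norm_num
      rw [this, one_pow]
    have h6 := mul_le_mul_of_nonneg_left (h4.trans h1) hq
    nlinarith

variable {W : Type} [DecidableEq W] {n : ℕ}

theorem piece_star {p : ℝ} (hp0 : 0 ≤ p) (hp1 : p ≤ 1) (hn : 0 < n) (N R : ℕ) (Z : Finset W)
    (Lf D : W → Finset W) (hD : ∀ v, ∀ u ∈ D v, u ∈ Z ∧ v ∈ Lf u)
    (hdis : ∀ c ∈ Z, ∀ c' ∈ Z, ∀ v ∈ Lf c, v ∈ Lf c' → c = c')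
    (hZ : ∀ c ∈ Z, ∀ v ∈ Lf c, v ∉ Z) (hsize : N + R + ∑ c ∈ Z, (Lf c).card ≤ n)
    (cost : W → ℝ) (hc1 : ∀ c, 1 ≤ cost c)
    (hc : ∀ c ∈ Z, ∀ F : Finset (Fin n), F.card = R → 1 ≤ cost c *
      Pr (coin p) (fun a : Fin n → Bool => (Lf c).card ≤ (F.filter (fun x => a x = true)).card))
    (hbud : ∑ c ∈ Z, cost c ≤ (N + 1) / 2) :
    1 / 2 ≤ Pr (wt (coin p)) (fun ω : Fin n → Fin n → Bool => Emb D ω) := by
  classical
  let Φ : Finset W × Finset (Fin n) → ℝ := fun s => ∑ c ∈ s.1, cost c
  let Valid : ℕ → Finset W × Finset (Fin n) → Prop := fun _ s =>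
    s.1 ⊆ Z ∧ s.2.card + ∑ c ∈ s.1, (Lf c).card ≤ ∑ c ∈ Z, (Lf c).card
  let Win : ℕ → Finset W × Finset (Fin n) → (Fin n → Fin n → Bool) → Prop := fun m s ω =>
    ∃ ψ : W → Fin n, Set.InjOn ψ (s.1 ∪ s.1.biUnion Lf : Finset W) ∧
      ∀ c ∈ s.1, (ψ c : ℕ) < m ∧ ∀ v ∈ Lf c, ψ v ∉ s.2 ∧ N ≤ (ψ v : ℕ) ∧ ω (ψ c) (ψ v) = true
  have hempty : ∀ m s ω, s.1 = ∅ → Win m s ω := by
    intro m s ω h
    exact ⟨fun _ => ⟨0, hn⟩, by simp [h], by simp [h]⟩
  have hΦ : ∀ s, 0 ≤ Φ s := fun s => Finset.sum_nonneg fun c _ => by linarith [hc1 c]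
  have main := greedy (row_nonneg hp0 hp1) (row_sum p) N (by omega) Φ Valid Win hΦ
    (fun m s hs => hs)
    (by
      intro s _
      rcases s.1.eq_empty_or_nonempty with h | ⟨v, hv⟩
      · exact Or.inl fun ω => hempty 0 s ω h
      · right
        exact (hc1 v).trans (Finset.single_le_sum (f := cost) (fun c _ => by linarith [hc1 c]) hv))
    (by
      rintro m hm s a ω ⟨ψ, h1, h3⟩
      refine ⟨ψ, h1, fun c hc => ⟨by have := (h3 c hc).1; omega, fun v hv => ?_⟩⟩
      refine ⟨((h3 c hc).2 v hv).1, ((h3 c hc).2 v hv).2.1, ?_⟩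
      rw [Function.update_of_ne (fun e => by have := (h3 c hc).1; rw [e] at this; simp at this)]
      exact ((h3 c hc).2 v hv).2.2)
    (by
      rintro m hm ⟨S, used⟩ hmN ⟨hS, hcard⟩
      simp only at hS hcard
      rcases S.eq_empty_or_nonempty with h | ⟨c, hcS⟩
      · exact Or.inl fun ω => hempty _ _ ω h
      right
      have hfree : R ≤ ((Finset.univ.filter (fun x : Fin n => N ≤ (x : ℕ))) \ used).card := by
        have e1 := Finset.le_card_sdiff used (Finset.univ.filter (fun x : Fin n => N ≤ (x : ℕ)))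
        have e2 := Finset.card_filter_add_card_filter_not (s := (Finset.univ : Finset (Fin n)))
          (fun x : Fin n => (x : ℕ) < N)
        rw [Fin.card_filter_val_lt] at e2
        simp only [not_lt, Finset.card_univ, Fintype.card_fin] at e2
        omega
      obtain ⟨F, hF, hFR⟩ := Finset.exists_subset_card_eq hfree
      refine ⟨cost c, fun a => (Lf c).card ≤ (F.filter (fun x => a x = true)).card,
        Classical.decPred _, hc c (hS hcS) F hFR, ?_⟩
      intro a ha
      obtain ⟨e, he⟩ := Function.Embedding.exists_of_card_le_finset (α := Lf c)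
        (s := F.filter (fun x => a x = true)) (by simpa using ha)
      have he' : ∀ v, a (e v) = true ∧ N ≤ (e v : ℕ) ∧ e v ∉ used := by
        intro v
        have := he ⟨v, rfl⟩
        simp only [Finset.coe_filter, Set.mem_setOf_eq] at this
        have h2 := hF this.1
        simp only [Finset.mem_sdiff, Finset.mem_filter, Finset.mem_univ, true_and] at h2
        exact ⟨this.2, h2⟩
      refine ⟨(S.erase c, used ∪ Finset.univ.map e), ⟨(Finset.erase_subset _ _).trans hS, ?_⟩,
        ?_, ?_⟩
      · have e1 := Finset.card_union_le used (Finset.univ.map e)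
        have e2 := Finset.add_sum_erase S (fun c => (Lf c).card) hcS
        simp only [Finset.card_map, Finset.card_univ, Fintype.card_coe] at e1 e2 ⊢
        omega
      · simp only [Φ]
        rw [← Finset.add_sum_erase S cost hcS]; linarith
      · rintro ω ⟨ψ, h1, h3⟩
        simp only at h1 h3
        let ψ' : W → Fin n := fun w => if w = c then ⟨m, hm⟩ else
          if h : w ∈ Lf c then e ⟨w, h⟩ else ψ w
        have p1 : ψ' c = ⟨m, hm⟩ := by simp [ψ']
        have p2 : ∀ w (h : w ∈ Lf c), ψ' w = e ⟨w, h⟩ := by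
          intro w h
          have : w ≠ c := fun e => hZ c (hS hcS) w h (e ▸ hS hcS)
          simp [ψ', this, h]
        have p3 : ∀ w ∈ S.erase c, ψ' w = ψ w := by
          intro w hw
          have : w ∉ Lf c := fun h => hZ c (hS hcS) w h (hS (Finset.mem_of_mem_erase hw))
          simp [ψ', this, Finset.ne_of_mem_erase hw]
        have p4 : ∀ c' ∈ S.erase c, ∀ w ∈ Lf c', ψ' w = ψ w := by
          intro c' hc' w hw
          have hc'Z := hS (Finset.mem_of_mem_erase hc')
          have a1 : w ∉ Lf c := fun h =>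
            Finset.ne_of_mem_erase hc' (hdis c' hc'Z c (hS hcS) w hw h)
          have a2 : w ≠ c := fun e => hZ c' hc'Z w hw (e ▸ hS hcS)
          simp [ψ', a1, a2]
        have cls : ∀ w, w ∈ S ∪ S.biUnion Lf → (w = c ∧ (ψ' w : ℕ) = m) ∨
            (∃ h : w ∈ Lf c, ψ' w = e ⟨w, h⟩) ∨
            (w ∈ S.erase c ∪ (S.erase c).biUnion Lf ∧ ψ' w = ψ w ∧
              ((ψ w : ℕ) < m ∨ (N ≤ (ψ w : ℕ) ∧ ψ w ∉ Finset.univ.map e))) := by
          intro w hw
          rcases Finset.mem_union.mp hw with hw | hw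
          · by_cases e : w = c
            · left; exact ⟨e, by rw [e, p1]⟩
            · right; right
              have := Finset.mem_erase.mpr ⟨e, hw⟩
              exact ⟨Finset.mem_union_left _ this, p3 w this, Or.inl (h3 w this).1⟩
          · obtain ⟨c', hc', hw⟩ := Finset.mem_biUnion.mp hw
            by_cases e : c' = c
            · subst e; right; left; exact ⟨hw, p2 w hw⟩
            · right; right
              have := Finset.mem_erase.mpr ⟨e, hc'⟩
              have q := (h3 c' this).2 w hw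
              exact ⟨Finset.mem_union_right _ (Finset.mem_biUnion.mpr ⟨c', this, hw⟩),
                p4 c' this w hw, Or.inr ⟨q.2.1, fun h => q.1 (Finset.mem_union_right _ h)⟩⟩
        refine ⟨ψ', ?_, fun c' hc' => ?_⟩
        · intro x hx z hz exz
          have hval : (ψ' x : ℕ) = ψ' z := by rw [exz]
          rcases cls x hx with ⟨a1, a2⟩ | ⟨a1, a2⟩ | ⟨a1, a2, a3⟩ <;>
            rcases cls z hz with ⟨b1, b2⟩ | ⟨b1, b2⟩ | ⟨b1, b2, b3⟩
          · rw [a1, b1]
          · have := (he' ⟨z, b1⟩).2.1; rw [b2] at hval; omega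
          · rw [b2] at hval; omega
          · have := (he' ⟨x, a1⟩).2.1; rw [a2] at hval; omega
          · rw [a2, b2] at exz; exact congrArg Subtype.val (e.injective exz)
          · have := (he' ⟨x, a1⟩).2.1
            rw [a2, b2] at exz hval
            rcases b3 with b3 | b3
            · omega
            · exact absurd (by rw [← exz]; simp) b3.2
          · rw [a2] at hval; omega
          · have := (he' ⟨z, b1⟩).2.1
            rw [a2, b2] at exz hval
            rcases a3 with a3 | a3
            · omega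
            · exact absurd (by rw [exz]; simp) a3.2
          · rw [a2, b2] at exz; exact h1 a1 b1 exz
        · by_cases ec : c' = c
          · subst ec
            rw [p1]
            refine ⟨by simp, fun v hv => ?_⟩
            rw [p2 v hv, Function.update_self]
            exact ⟨(he' _).2.2, (he' _).2.1, (he' _).1⟩
          · have hc'' := Finset.mem_erase.mpr ⟨ec, hc'⟩
            have q := h3 c' hc''
            rw [p3 c' hc'']
            refine ⟨by omega, fun v hv => ?_⟩
            rw [p4 c' hc'' v hv, Function.update_of_ne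
              (fun e => by have := q.1; rw [e] at this; simp at this)]
            exact ⟨fun h => (q.2 v hv).1 (Finset.mem_union_left _ h), (q.2 v hv).2⟩)
    N le_rfl (Z, ∅) ⟨subset_rfl, by simp⟩
  rw [Pr_not (row_sum p)] at main
  have : Φ (Z, ∅) / (N + 1) ≤ 1 / 2 := by
    rw [div_le_iff₀ (by positivity)]; simp only [Φ]; linarith
  refine le_trans (by linarith) (Pr_mono (row_nonneg hp0 hp1) (E := Win N (Z, ∅)) ?_)
  rintro ω ⟨ψ, h2, h3⟩
  refine ⟨Z ∪ Z.biUnion Lf, ψ, h2, fun v u hu => ?_⟩
  obtain ⟨h4, h5⟩ := hD v u hu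
  refine ⟨Finset.mem_union_right _ (Finset.mem_biUnion.mpr ⟨u, h4, h5⟩),
    Finset.mem_union_left _ h4, Or.inr ⟨?_, ((h3 u h4).2 v h5).2.2⟩⟩
  have := (h3 u h4).1; have := ((h3 u h4).2 v h5).2.1
  rw [Fin.lt_def]; omega

end Crest.Agent.Lead
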